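import Vale.Agent.P173.Basic

set_option linter.unusedSectionVars false

namespace Vale.Agent.P173

open Quaternion Filter Asymptotics

open Classical in
/-- normalisation of a quaternion -/
noncomputable def nrm (x : ℍ[ℝ]) : U :=
  if h : x = 0 then 1 else ⟨‖x‖⁻¹ • x, by simp [norm_smul, h]⟩

theorem coe_nrm {x : ℍ[ℝ]} (h : x ≠ 0) : (nrm x : ℍ[ℝ]) = ‖x‖⁻¹ • x := by simp [nrm, h]

@[simp] theorem norm_U (u : U) : ‖(u : ℍ[ℝ])‖ = 1 := by simp

@[simp] theorem nrm_U (u : U) : nrm (u : ℍ[ℝ]) = u :=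
  Subtype.ext (by rw [coe_nrm (by intro h; simpa [h] using norm_U u)]; simp)

@[simp] theorem nrm_one : nrm 1 = 1 := nrm_U 1

theorem nrm_smul {c : ℝ} (hc : 0 < c) (x : ℍ[ℝ]) : nrm (c • x) = nrm x := by
  by_cases h : x = 0
  · simp [h]
  · refine Subtype.ext ?_
    rw [coe_nrm h, coe_nrm (smul_ne_zero hc.ne' h), norm_smul, smul_smul, Real.norm_of_nonneg hc.le]
    congr 1
    field_simp

theorem cont_nrm {Y : Type*} [TopologicalSpace Y] {f : Y → ℍ[ℝ]} (hf : Continuous f)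
    (h : ∀ y, f y ≠ 0) : Continuous fun y => nrm (f y) := by
  refine continuous_induced_rng.2 ?_
  have : (Subtype.val ∘ fun y => nrm (f y)) = fun y => ‖f y‖⁻¹ • f y :=
    funext fun y => coe_nrm (h y)
  rw [this]
  exact (hf.norm.inv₀ fun y => norm_ne_zero_iff.2 (h y)).smul hf

theorem norm_one_add {w : ℍ[ℝ]} (h : w.re = 0) : ‖1 + w‖ ^ 2 = 1 + ‖w‖ ^ 2 := by
  rw [sq, sq, ← normSq_eq_norm_mul_self, ← normSq_eq_norm_mul_self]
  simp [normSq_def', h]
  ring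

theorem one_add_ne {w : ℍ[ℝ]} (h : w.re = 0) : 1 + w ≠ 0 := fun h' => by
  have := congrArg (·.re) h'
  simp [h] at this

theorem nrm_app {w : ℍ[ℝ]} (h : w.re = 0) : ‖(nrm (1 + w) : ℍ[ℝ]) - 1 - w‖ ≤ ‖w‖ ^ 2 := by
  have h1 := norm_one_add h
  have h0 := norm_pos_iff.2 (one_add_ne h)
  have h2 : 1 ≤ ‖1 + w‖ := by nlinarith [sq_nonneg ‖w‖]
  have : (nrm (1 + w) : ℍ[ℝ]) - 1 - w = (‖1 + w‖⁻¹ - 1) • (1 + w) := by
    rw [coe_nrm (one_add_ne h), sub_smul, one_smul]; abel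
  rw [this, norm_smul, Real.norm_eq_abs, abs_sub_comm,
    abs_of_nonneg (sub_nonneg.2 (inv_le_one_of_one_le₀ h2)), sub_mul, inv_mul_cancel₀ h0.ne']
  nlinarith

/-- conjugation -/
noncomputable def ad (u : U) (x : ℍ[ℝ]) : ℍ[ℝ] := (u : ℍ[ℝ]) * x * (u⁻¹ : U)

@[simp] theorem norm_ad (u : U) (x : ℍ[ℝ]) : ‖ad u x‖ = ‖x‖ := by simp [ad, -Metric.unitSphere.coe_inv]

theorem U_mul_inv (u : U) : (u : ℍ[ℝ]) * (u⁻¹ : U) = 1 := by
  rw [← Metric.unitSphere.coe_mul]; simp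

theorem U_inv_mul (u : U) : ((u⁻¹ : U) : ℍ[ℝ]) * u = 1 := by
  rw [← Metric.unitSphere.coe_mul]; simp

theorem re_ad (u : U) (x : ℍ[ℝ]) : (ad u x).re = x.re := by
  have h : ∀ a b : ℍ[ℝ], (a * b).re = (b * a).re := fun a b => by simp; ring
  rw [ad, h, ← mul_assoc, U_inv_mul, one_mul]

theorem ad_mul (u v : U) (x : ℍ[ℝ]) : ad (u * v) x = ad u (ad v x) := by
  simp only [ad, mul_inv_rev, Metric.unitSphere.coe_mul, mul_assoc]

@[simp] theorem ad_one (x : ℍ[ℝ]) : ad 1 x = x := by simp [ad]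

theorem norm_ad_sub (u : U) (x : ℍ[ℝ]) : ‖ad u x - x‖ ≤ 2 * ‖(u : ℍ[ℝ]) - 1‖ * ‖x‖ := by
  have : ad u x - x = ((u - 1) * x - x * (u - 1)) * (u⁻¹ : U) := by
    rw [sub_mul, mul_assoc x, sub_mul (u : ℍ[ℝ]) 1 (u⁻¹ : U), U_mul_inv, ad]; noncomm_ring
  rw [this, norm_mul, norm_U, mul_one]
  refine (norm_sub_le _ _).trans (le_of_eq ?_)
  rw [norm_mul, norm_mul]; ring

section app
variable {σ : Type*} (F : Filter σ) (η : σ → ℝ)

/-- first order expansion -/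
structure App (x : σ → U) (X : σ → ℍ[ℝ]) : Prop where
  h0 : η =O[F] fun _ => (1 : ℝ)
  h1 : X =O[F] η
  h2 : (fun s => (x s : ℍ[ℝ]) - 1 - X s) =O[F] fun s => η s * η s

variable {F η} {x y : σ → U} {X Y : σ → ℍ[ℝ]}

theorem App.sub_one (h : App F η x X) : (fun s => (x s : ℍ[ℝ]) - 1) =O[F] η := by
  have := (h.h2.trans (by simpa using h.h0.mul (isBigO_refl η F))).add h.h1
  simpa using this

theorem App.congr (h : App F η x X) (h' : (fun s => X s - Y s) =O[F] fun s => η s * η s) :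
    App F η x Y := by
  refine ⟨h.h0, ?_, ?_⟩
  · have := h.h1.sub (h'.trans (by simpa using h.h0.mul (isBigO_refl η F)))
    simpa using this
  · exact (h.h2.add h').congr_left fun s => by abel

theorem App.mul (h : App F η x X) (h' : App F η y Y) : App F η (x * y) (X + Y) := by
  refine ⟨h.h0, h.h1.add h'.h1, ?_⟩
  have h3 : (fun s => ((x s : ℍ[ℝ]) - 1 - X s) * y s) =O[F] fun s => η s * η s :=
    .of_norm_left (by simpa using h.h2.norm_left)
  refine ((h'.h2.add (h.h1.mul h'.sub_one)).add h3).congr_left fun s => ?_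
  simp only [Pi.mul_apply, Pi.add_apply, Metric.unitSphere.coe_mul]
  noncomm_ring

theorem App.inv (h : App F η x X) : App F η x⁻¹ (-X) := by
  refine ⟨h.h0, h.h1.neg_left, ?_⟩
  have h3 : (fun s => (((x s)⁻¹ : U) : ℍ[ℝ]) * ((x s : ℍ[ℝ]) - 1 - X s)) =O[F]
      fun s => η s * η s := .of_norm_left (by simpa using h.h2.norm_left)
  have h4 : (fun s => (((x s)⁻¹ : U) : ℍ[ℝ]) * (((x s : ℍ[ℝ]) - 1) * X s)) =O[F]
      fun s => η s * η s := .of_norm_left (by simpa using (h.sub_one.mul h.h1).norm_left)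
  refine (h4.sub h3).congr_left fun s => ?_
  simp only [Pi.inv_apply, Pi.neg_apply, mul_sub, sub_mul, ← mul_assoc, U_inv_mul]
  noncomm_ring

theorem App.conj (h : App F η x X) (u : σ → U) :
    App F η (u * x * u⁻¹) fun s => ad (u s) (X s) := by
  refine ⟨h.h0, .of_norm_left (by simpa using h.h1.norm_left), .of_norm_left ?_⟩
  refine h.h2.norm_left.congr_left fun s => ?_
  rw [← norm_ad (u s)]
  congr 1
  simp only [Pi.mul_apply, Pi.inv_apply, Metric.unitSphere.coe_mul, ad, mul_sub, sub_mul, mul_one,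
    U_mul_inv]

theorem App.comp (h : App F η x X) {m : σ → σ} (hm : Tendsto m F F) (hη : ∀ s, η (m s) = η s) :
    App F η (x ∘ m) (X ∘ m) :=
  ⟨h.h0, by simpa [Function.comp_def, hη] using h.h1.comp_tendsto hm,
    by simpa [Function.comp_def, hη] using h.h2.comp_tendsto hm⟩

theorem App.of_eq (h : App F η x X) (h' : ∀ᶠ s in F, x s = y s) : App F η y X :=
  ⟨h.h0, h.h1, h.h2.congr' (h'.mono fun s hs => by simp [hs]) EventuallyEq.rfl⟩

theorem app_nrm (h0 : η =O[F] fun _ => (1 : ℝ)) (h1 : X =O[F] η) (h2 : ∀ᶠ s in F, (X s).re = 0) :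
    App F η (fun s => nrm (1 + X s)) X := by
  refine ⟨h0, h1, IsBigO.trans (.of_bound' (h2.mono fun s hs => ?_)) (h1.mul h1)⟩
  simpa [sq] using nrm_app hs

theorem app_one (h0 : η =O[F] fun _ => (1 : ℝ)) : App F η 1 0 :=
  ⟨h0, isBigO_zero _ _, by simpa using isBigO_zero _ _⟩

end app

end Vale.Agent.P173
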