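import Vale.Agent.P173.Univ

set_option linter.unusedSectionVars false

namespace Vale.Agent.P173

open Set unitInterval

universe w

variable {X : Type w} {E Γ : Type*} [TopologicalSpace X] [TopologicalSpace E] [Group Γ] {p : E → X}

/-- `φ` computes the increments of logarithms along `f` -/
def Det (K : Cx X) (p : E → X) (f : I → E) (φ : (E → ℂ) → ℂ) : Prop :=
  ∃ Q, IsCompact Q ∧ ∀ u : E → ℂ, Continuous u → (∀ y ∈ Q, p y ∈ K.X1 → u y ≠ 0) →
    Inc (u ∘ f) (φ u)

variable {K : Cx X}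

theorem lift_trans {Y : Type*} [TopologicalSpace Y] {f : Y → X} {x y z : E} {a : Path x y}
    {b : Path y z} {x' y' z' : Y} {a' : Path x' y'} {b' : Path y' z'} (ha : p ∘ a = f ∘ a')
    (hb : p ∘ b = f ∘ b') : p ∘ a.trans b = f ∘ a'.trans b' := funext fun t => by
  simp only [Function.comp_apply, Path.trans_apply]
  split_ifs
  exacts [congrFun ha _, congrFun hb _]

theorem det_path {x y : E} (a : Path x y) (h : ∀ t, p (a t) ∈ K.X1) :
    Det K p a fun u => Classical.epsilon (Inc (u ∘ a)) :=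
  ⟨range a, isCompact_range a.continuous, fun _ hu h' => Classical.epsilon_spec
    (exists_inc (hu.comp a.continuous) fun t => h' _ ⟨t, rfl⟩ (h t))⟩

theorem Det.trans {x y z : E} {a : Path x y} {b : Path y z} {φ ψ : (E → ℂ) → ℂ}
    (ha : Det K p a φ) (hb : Det K p b ψ) : Det K p (a.trans b) fun u => φ u + ψ u := by
  obtain ⟨Q, h1, h2⟩ := ha
  obtain ⟨Q', h3, h4⟩ := hb
  exact ⟨Q ∪ Q', h1.union h3, fun u hu h => (h2 u hu fun y hy => h y (.inl hy)).trans
    (h4 u hu fun y hy => h y (.inr hy))⟩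

theorem Det.symm {x y : E} {a : Path x y} {φ : (E → ℂ) → ℂ} (ha : Det K p a φ) :
    Det K p a.symm fun u => - φ u :=
  ha.imp fun _ h => ⟨h.1, fun u hu h' => (h.2 u hu h').symm⟩

theorem Det.homotopic (hp : IsCoveringMap p) {x y : E} {a b : Path x y} {x' y' : K.X1}
    {a' b' : Path x' y'} (ha : p ∘ a = Subtype.val ∘ a') (hb : p ∘ b = Subtype.val ∘ b')
    (h : a'.Homotopic b') {φ : (E → ℂ) → ℂ} (hd : Det K p a φ) : Det K p b φ := by
  obtain ⟨Q, h1, h2⟩ := hd
  obtain ⟨F⟩ := h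
  let G := hp.liftHomotopyRel (f₀' := (a : C(I, E))) (f₁' := (b : C(I, E)))
    (F.map ⟨_, continuous_subtype_val⟩) ⟨0, .inl rfl, by simp⟩ ha hb
  have hG : ∀ z, p (G z) = F z := fun z => congrFun (hp.liftHomotopy_lifts _ _ fun t =>
    (congrArg Subtype.val (F.apply_zero t)).trans (congrFun ha t).symm) z
  refine ⟨Q ∪ range G, h1.union (isCompact_range G.continuous), fun u hu h => ?_⟩
  have := Inc.homotopy (F := fun z => u (G z)) (hu.comp G.continuous)
    (fun z => h _ (.inr ⟨z, rfl⟩) (hG z ▸ (F z).2))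
    (fun s => by rw [G.eq_fst s (.inl rfl), G.eq_fst 0 (.inl rfl)])
    (fun s => by rw [G.eq_fst s (.inr rfl), G.eq_fst 0 (.inr rfl)]) (a := φ u)
    (by simpa [Function.comp_def] using h2 u hu fun y hy => h y (.inl hy))
  simpa [Function.comp_def] using this

theorem det_ep {π : FreeGroup K.E →* Γ} {pos : Γ → K.V → E}
    (le : ∀ γ e, Path (pos γ (K.src e)) (pos (γ * π (.of e)) (K.tgt e)))
    (hle : ∀ γ e, p ∘ le γ e = K.ed e) (h0 : ∀ γ v, p (pos γ v) = K.pt v) {v v' : K.V}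
    {b : Path (K.pt1 v) (K.pt1 v')} {W : FreeGroup K.E} (h : K.EP b W) (γ γ' : Γ)
    (hγ : γ' = γ * π W) : ∃ c : Path (pos γ v) (pos γ' v'), p ∘ c = Subtype.val ∘ b ∧
      Det K p c fun u => Finsupp.linearCombination ℤ (fun q : Γ × K.E =>
        Classical.epsilon (Inc (u ∘ le q.1 q.2))) (ex (pl π γ W)) := by
  induction h generalizing γ γ' with
  | refl v =>
    obtain rfl : γ' = γ := by simpa using hγ
    refine ⟨Path.refl _, funext fun _ => h0 _ _, {pos γ' v}, isCompact_singleton, fun u _ h => ?_⟩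
    have := h _ rfl (h0 _ _ ▸ (K.pt1 v).2)
    exact ⟨.const _ (Complex.log (u (pos γ' v))), fun _ => Complex.exp_log this, by simp⟩
  | edge e =>
    subst hγ
    refine ⟨le γ e, hle γ e, ?_⟩
    simpa using det_path (K := K) (le γ e) fun t =>
      (show p (le γ e t) = _ from congrFun (hle γ e) t) ▸ K.ed_mem e t
  | symm _ ih =>
    obtain ⟨c, h1, h2⟩ := ih γ' γ (by simp [hγ])
    refine ⟨c.symm, funext fun t => congrFun h1 _, ?_⟩
    simpa [pl_inv, hγ] using h2.symm
  | trans _ _ ih ih' =>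
    obtain ⟨c, h1, h2⟩ := ih γ _ rfl
    obtain ⟨c', h3, h4⟩ := ih' _ γ' (by rw [hγ, map_mul, mul_assoc])
    exact ⟨c.trans c', lift_trans h1 h3, by simpa [pl_mul] using h2.trans h4⟩

theorem ep_bd {π : FreeGroup K.E →* Γ} {v v' : K.V} {b : Path (K.pt1 v) (K.pt1 v')}
    {W : FreeGroup K.E} (h : K.EP b W) (γ : Γ) :
    Finsupp.linearCombination ℤ (fun q : Γ × K.E => (Finsupp.single (q.1 * π (.of q.2), K.tgt q.2) 1
      - Finsupp.single (q.1, K.src q.2) 1 : Γ × K.V →₀ ℤ)) (ex (pl π γ W)) =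
      Finsupp.single (γ * π W, v') 1 - Finsupp.single (γ, v) 1 := by
  induction h generalizing γ with
  | refl v => simp
  | edge e => simp
  | symm _ ih => simp [pl_inv, ih]
  | trans _ _ ih ih' => simp [pl_mul, ih, ih', mul_assoc]

theorem Cx.exists_asph [T2Space X] [ContractibleSpace E] (K : Cx X) (hp : IsCoveringMap p)
    (hs : Function.Surjective p) {x : X} (φ : FundamentalGroup X x ≃* Γ) :
    ∃ (π : FreeGroup K.E →* Γ) (R : Type w) (r : R → FreeGroup K.E), Asph π r := by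
  classical
  have : PathConnectedSpace X := hs.pathConnectedSpace hp.continuous
  obtain ⟨v0⟩ : Nonempty K.V := by
    have : ∀ y ∈ K.X1, Nonempty K.V := fun y hy => by
      rw [K.X1_eq] at hy
      rcases hy with ⟨v, -⟩ | hy
      exacts [⟨v⟩, ⟨K.src (mem_iUnion.1 hy).choose⟩]
    rcases K.cover x with h | ⟨c, -⟩
    exacts [this _ h, this _ (K.bp c).2]
  have h1 : ∀ y : K.X1, Nonempty (Path (K.pt1 v0) y) := fun y =>
    ⟨(K.push_path (PathConnectedSpace.somePath _ _)).choose⟩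
  choose sg ω hsg hsg0 using show ∀ v, ∃ (b : Path (K.pt1 v0) (K.pt1 v)) (W : FreeGroup K.E),
      K.EP b W ∧ (v = v0 → W = 1 ∧ ∀ t, b t = K.pt1 v0) from fun v => by
    by_cases h : v = v0
    · subst h; exact ⟨_, _, .refl _, fun _ => ⟨rfl, fun _ => rfl⟩⟩
    · obtain ⟨b, W, h2, -⟩ := K.exists_ep (h1 (K.pt1 v)).some
      exact ⟨b, W, h2, fun h' => (h h').elim⟩
  choose τ hτ using show ∀ y, ∃ a : Path (K.pt v0) y, ∀ v, y = K.pt v → ⇑a = Subtype.val ∘ sg v
      from fun y => by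
    by_cases h : ∃ v, y = K.pt v
    · obtain ⟨v, rfl⟩ := h
      exact ⟨(sg v).map continuous_subtype_val, fun v' h => K.pt_inj h ▸ rfl⟩
    · exact ⟨PathConnectedSpace.somePath _ _, fun v h' => (h ⟨v, h'⟩).elim⟩
  obtain ⟨κ, pos, u1, u2, u3, u4, u5, u6⟩ := exists_univ hp hs
    ((FundamentalGroup.fundamentalGroupMulEquivOfPathConnected _ _).trans φ) τ
    (Path.ext ((hτ _ v0 rfl).trans (funext fun t => congrArg _ ((hsg0 v0 rfl).2 t))))
  let κ1 : Hol K.X1 Γ := κ.comap continuous_subtype_val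
  let π : FreeGroup K.E →* Γ := FreeGroup.lift fun e => κ1.h (K.ed1 e)
  have hω : ∀ v, π (ω v) = 1 := fun v => by
    rw [← (hsg v).hol κ1, ← u1 (K.pt v)]
    exact congrArg κ.h (Path.ext (hτ _ v rfl).symm)
  let β := fun c => (h1 (K.bp c)).some
  choose b r hb hb' using fun c => K.exists_ep ((β c).trans ((K.lp c).trans (β c).symm))
  have hr : ∀ c, π (r c) = 1 := fun c => by
    have : κ1.h (K.lp c) = 1 :=
      (κ.hom ((SimplyConnectedSpace.paths_homotopic circ (Path.refl 1)).map (K.dc c))).trans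
        (κ.refl _)
    rw [← (hb c).hol κ1, ← κ1.hom (hb' c), κ1.mul, κ1.mul, κ1.symm, this]
    simp
  refine ⟨π, K.C ⊕ {v // v ≠ v0}, Sum.elim r fun v => ω v, fun γ => ?_, le_antisymm ?_ ?_, ?_⟩
  · obtain ⟨a, rfl⟩ := u2 γ
    obtain ⟨a', h2⟩ := K.push_path (y := K.pt1 v0) (y' := K.pt1 v0) a
    obtain ⟨a'', W, h3, h4⟩ := K.exists_ep a'
    exact ⟨W, by rw [← h3.hol κ1, ← κ1.hom h4]; exact (κ.hom h2).symm⟩
  · obtain ⟨N, hN⟩ : ∃ N, Subgroup.normalClosure (range (Sum.elim r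
      fun v : {v // v ≠ v0} => ω v)) = N := ⟨_, rfl⟩
    rw [hN]
    have : N.Normal := hN ▸ inferInstance
    obtain ⟨k0, hk0⟩ := K.exists_hol1
    let k := k0.map (QuotientGroup.mk' N)
    have hk : ∀ {v w} {a : Path (K.pt1 v) (K.pt1 w)} {W}, K.EP a W → k.h a = QuotientGroup.mk' N W :=
      fun h => congrArg (QuotientGroup.mk' N) (by
        rw [h.hol k0, funext hk0]; exact FreeGroup.lift_of_apply _)
    have hkω : ∀ v, k.h (sg v) = 1 := fun v => by
      rw [hk (hsg v)]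
      by_cases h : v = v0
      · simp [(hsg0 v h).1]
      · exact (QuotientGroup.eq_one_iff _).2 (hN ▸ Subgroup.subset_normalClosure ⟨.inr ⟨v, h⟩, rfl⟩)
    obtain ⟨κ2, hκ2⟩ := K.exists_hol2 k fun c => by
      have : k.h (b c) = 1 := (hk (hb c)).trans
        ((QuotientGroup.eq_one_iff _).2 (hN ▸ Subgroup.subset_normalClosure ⟨.inl c, rfl⟩))
      rw [← k.hom (hb' c), k.mul, k.mul, k.symm, ← mul_assoc] at this
      simpa using this
    have key : ∀ W, ∃ a : Path (K.pt1 v0) (K.pt1 v0), k.h a = QuotientGroup.mk' N W ∧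
        κ1.h a = π W := fun W => by
      induction W using FreeGroup.induction_on with
      | C1 => exact ⟨Path.refl _, by simp [Hol.refl]⟩
      | of e =>
        refine ⟨(sg _).trans ((K.ed1 e).trans (sg _).symm), ?_⟩
        simp [Hol.mul, Hol.symm, hkω, hk (.edge e), (hsg _).hol κ1, show ∀ v, FreeGroup.lift
          (fun e => κ1.h (K.ed1 e)) (ω v) = 1 from hω, π]
      | inv_of e ih => exact ih.elim fun a h => ⟨a.symm, by simp [Hol.symm, h]⟩
      | mul _ _ ih ih' =>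
        exact ih.elim fun a h => ih'.elim fun a' h' => ⟨a.trans a', by simp [Hol.mul, h, h']⟩
    intro W hW
    obtain ⟨a, h2, h3⟩ := key W
    rw [← QuotientGroup.eq_one_iff]
    exact h2.symm.trans ((hκ2 a).symm.trans ((κ2.hom (u3 _ (h3.trans hW))).trans (κ2.refl _)))
  · refine Subgroup.normalClosure_le_normal ?_
    rintro _ ⟨c | v, rfl⟩
    exacts [hr c, hω v]
  refine (injective_iff_map_eq_zero _).2 fun y hy => ?_
  have hv : ∀ γ (v : {v // v ≠ v0}), y (γ, .inr v) = 0 := fun γ v => by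
    have := DFunLike.congr_fun (congrArg (Finsupp.linearCombination ℤ fun q : Γ × K.E =>
      (Finsupp.single (q.1 * π (.of q.2), K.tgt q.2) 1 - Finsupp.single (q.1, K.src q.2) 1 :
        Γ × K.V →₀ ℤ)) hy) (γ, v.1)
    rw [bd2, Finsupp.apply_linearCombination, Finsupp.linearCombination_apply, Finsupp.sum_apply,
      Finsupp.sum_eq_single (γ, .inr v)] at this
    · simpa [ep_bd (hsg _), hω, v.2] using this
    · rintro ⟨γ', c | w⟩ - h
      · simp [ep_bd (hb _), hr]
      · have : (γ, v.1) ≠ (γ', w.1) := fun h' => h (by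
          rw [Prod.ext_iff] at h'; exact Prod.ext h'.1.symm (congrArg Sum.inr (Subtype.ext h'.2.symm)))
        simp [ep_bd (hsg _), hω, v.2, this]
    · simp
  choose lf hlf using u6
  choose F hF using fun (γ : Γ) c => (hp.existsUnique_continuousMap_lifts (K.dc c) 1
    (pos (γ * κ1.h (β c)) (K.bp c)) (u4 _ _)).exists
  have hD : ∀ q : Γ × K.C, ∃ Q, IsCompact Q ∧ F q.1 q.2 '' Metric.closedBall 0 1 ⊆ Q ∧
      ∀ u : E → ℂ, Continuous u → (∀ y ∈ Q, p y ∈ K.X1 → u y ≠ 0) → ∀ j,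
      Inc (fun t => u (F q.1 q.2 (circ t))) j → Finsupp.linearCombination ℤ (fun q : Γ × K.E =>
        Classical.epsilon (Inc (u ∘ lf q.1 _ _ (K.ed q.2)))) (ex (pl π q.1 (r q.2))) = j := by
    rintro ⟨γ, c⟩
    obtain ⟨a, a1, a2⟩ := det_ep (π := π) (pos := fun γ v => pos γ (K.pt v))
      (fun γ e => (lf γ _ _ (K.ed e)).cast rfl (by simp [π]; rfl)) (fun γ e => hlf γ _ _ _)
      (fun _ _ => u4 _ _) (hb c) γ γ (by simp [hr])
    let a' := lf γ _ _ ((β c).map continuous_subtype_val)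
    let l := (circ.map (F γ c).continuous).cast (hF γ c).1.symm (hF γ c).1.symm
    obtain ⟨Q, q1, q2⟩ := a2.homotopic hp (b := a'.trans (l.trans a'.symm))
      (b' := (β c).trans ((K.lp c).trans (β c).symm)) a1 (lift_trans (hlf ..)
      (lift_trans (funext fun _ => congrFun (hF γ c).2 _) (funext fun _ => congrFun (hlf ..) _)))
      (hb' c).symm
    obtain ⟨Q', q3, q4⟩ := det_path (K := K) a' fun t =>
      (show p (a' t) = β c t from congrFun (hlf ..) t) ▸ (β c t).2
    refine ⟨Q ∪ Q' ∪ _, (q1.union q3).union ((isCompact_closedBall 0 1).image (F γ c).continuous),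
      subset_union_right, fun u hu h j hj => ?_⟩
    have h2 := q4 u hu fun y hy => h y (.inl (.inr hy))
    have := (q2 u hu fun y hy => h y (.inl (.inl hy))).unique
      (h2.trans (Inc.trans (p := l) hj h2.symm))
    exact this.trans (by ring)
  choose Q q1 q2 q3 using hD
  ext ⟨γ, c | v⟩
  swap
  · exact hv γ v
  obtain ⟨P, hP⟩ : ∃ P : Finset (Γ × K.C), ∀ q, q ∈ P ↔ y (q.1, .inl q.2) ≠ 0 :=
    ⟨y.support.preimage (fun q => (q.1, Sum.inl q.2)) fun _ _ _ _ h => by
      simpa [Prod.ext_iff] using h, fun q => Finset.mem_preimage.trans Finsupp.mem_support_iff⟩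
  obtain ⟨u, w1, w2, w3, w4⟩ := K.exists_detect hp c (F γ c) (hF γ c).2 _
    (P.isCompact_biUnion fun q _ => q1 q)
  have hsub : ∀ γ c, y (γ, .inl c) ≠ 0 → Q (γ, c) ⊆ ⋃ q ∈ P, Q q := fun γ c h =>
    Finset.subset_set_biUnion_of_mem ((hP _).2 h)
  by_contra hne
  have := congrArg (Finsupp.linearCombination ℤ (fun q : Γ × K.E =>
    Classical.epsilon (Inc (u ∘ lf q.1 _ _ (K.ed q.2))))) hy
  rw [bd2, Finsupp.apply_linearCombination, Finsupp.linearCombination_apply,
    Finsupp.sum_eq_single (γ, .inl c)] at this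
  · have h2 := q3 (γ, c) u w1 (fun y hy => w2 y (hsub _ _ hne hy)) _
      (w3 ((q2 (γ, c)).trans (hsub _ _ hne)))
    simp only [Function.comp_apply, Sum.elim_inl, h2, map_zero, smul_eq_zero,
      Complex.two_pi_I_ne_zero, or_false] at this
    exact hne this
  · rintro ⟨γ', c' | w⟩ h h'
    · have h2 := q3 (γ', c') u w1 (fun y hy => w2 y (hsub _ _ h hy)) _
        (w4 c' _ (hF γ' c').2 (fun e => h' ?_) ((q2 (γ', c')).trans (hsub _ _ h)))
      · simp only [Function.comp_apply, Sum.elim_inl, h2, smul_zero]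
      obtain rfl : c' = c := (K.dc_inj _ _ 0 0 (by simp) (by simp) ((congrFun (hF γ' c').2 0).symm.trans
        ((congrArg p e).trans (congrFun (hF γ c).2 0)))).1
      have := congrFun (hp.eq_of_comp_eq (F γ' c').continuous (F γ c').continuous
        ((hF _ _).2.trans (hF _ _).2.symm) 0 e) 1
      rw [(hF _ _).1, (hF _ _).1] at this
      rw [mul_right_cancel (u5 _ _ _ this)]
    · exact (h (hv _ _)).elim
  · simp

end Vale.Agent.P173
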