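import Mathlib

set_option linter.unusedSectionVars false

namespace Vale.Agent.P173

open Quaternion

/-- unit quaternions -/
abbrev U := Metric.sphere (0 : ℍ[ℝ]) 1

section words
variable {Γ S R : Type*} [Group Γ]

/-- right translation action on functions -/
def tr (Γ M : Type*) [Group Γ] [Group M] : Γ →* MulAut (Γ → M) where
  toFun a :=
    { toFun f := fun γ => f (γ * a), invFun f := fun γ => f (γ * a⁻¹),
      left_inv f := by simp, right_inv f := by simp, map_mul' _ _ := rfl }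
  map_one' := by ext; simp
  map_mul' a b := by ext; simp [mul_assoc]

/-- universal path lifting -/
def plH (π : FreeGroup S →* Γ) : FreeGroup S →* (Γ → FreeGroup (Γ × S)) ⋊[tr Γ _] Γ :=
  FreeGroup.lift fun s => ⟨fun γ => FreeGroup.of (γ, s), π (FreeGroup.of s)⟩

/-- the edge path in the Cayley graph starting at `γ` with label `w` -/
def pl (π : FreeGroup S →* Γ) (γ : Γ) (w : FreeGroup S) : FreeGroup (Γ × S) := (plH π w).left γ

theorem plH_right (π : FreeGroup S →* Γ) (w : FreeGroup S) : (plH π w).right = π w :=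
  DFunLike.congr_fun (show SemidirectProduct.rightHom.comp (plH π) = π by ext; simp [plH]) w

variable (π : FreeGroup S →* Γ)

@[simp] theorem pl_one (γ : Γ) : pl π γ 1 = 1 := by simp [pl]

@[simp] theorem pl_of (γ : Γ) (s : S) : pl π γ (FreeGroup.of s) = FreeGroup.of (γ, s) := by
  simp [pl, plH]

theorem pl_mul (γ : Γ) (w w' : FreeGroup S) : pl π γ (w * w') = pl π γ w * pl π (γ * π w) w' := by
  rw [pl, map_mul, SemidirectProduct.mul_left, plH_right]; rfl

theorem pl_inv (γ : Γ) (w : FreeGroup S) : pl π γ w⁻¹ = (pl π (γ * (π w)⁻¹) w)⁻¹ := by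
  rw [eq_inv_iff_mul_eq_one, ← map_inv, ← pl_mul]; simp

/-- exponent vector -/
noncomputable def ex {J : Type*} (w : FreeGroup J) : J →₀ ℤ :=
  Multiplicative.toAdd (FreeGroup.lift (fun j => Multiplicative.ofAdd (Finsupp.single j 1)) w)

@[simp] theorem ex_one {J : Type*} : ex (1 : FreeGroup J) = 0 := by simp [ex]
@[simp] theorem ex_of {J : Type*} (j : J) : ex (FreeGroup.of j) = Finsupp.single j 1 := by simp [ex]
@[simp] theorem ex_mul {J : Type*} (a b : FreeGroup J) : ex (a * b) = ex a + ex b := by simp [ex]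
@[simp] theorem ex_inv {J : Type*} (a : FreeGroup J) : ex a⁻¹ = - ex a := by simp [ex]

/-- cellular boundary of the universal cover of a presentation complex -/
noncomputable def bd2 (r : R → FreeGroup S) : (Γ × R →₀ ℤ) →ₗ[ℤ] (Γ × S →₀ ℤ) :=
  Finsupp.linearCombination ℤ fun p => ex (pl π p.1 (r p.2))

/-- an aspherical presentation -/
def Asph (r : R → FreeGroup S) : Prop :=
  Function.Surjective π ∧ π.ker = Subgroup.normalClosure (Set.range r) ∧
    Function.Injective (bd2 π r)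

end words

/-- a one-vertex triangle complex over a group -/
structure Tri (Γ E T : Type) [Group Γ] where
  g : E → Γ
  a : T → E
  b : T → E
  c : T → E
  rel : ∀ t, g (a t) * g (b t) = g (c t)

namespace Tri
variable {Γ E T : Type} [Group Γ] (D : Tri Γ E T)

/-- boundary of edges -/
noncomputable def d1 : (Γ × E →₀ ℤ) →ₗ[ℤ] (Γ →₀ ℤ) :=
  Finsupp.linearCombination ℤ fun p => Finsupp.single (p.1 * D.g p.2) 1 - Finsupp.single p.1 1

/-- boundary of triangles -/
noncomputable def d2 : (Γ × T →₀ ℤ) →ₗ[ℤ] (Γ × E →₀ ℤ) :=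
  Finsupp.linearCombination ℤ fun p => Finsupp.single (p.1, D.a p.2) 1 +
    Finsupp.single (p.1 * D.g (D.a p.2), D.b p.2) 1 - Finsupp.single (p.1, D.c p.2) 1

/-- the cover is acyclic -/
def Exact : Prop :=
  Subgroup.closure (Set.range D.g) = ⊤ ∧ Function.Injective D.d2 ∧
    ∀ y, D.d1 y = 0 → ∃ x, D.d2 x = y

/-- curvature of a connection -/
noncomputable def cur (α : Γ × E → U) (p : Γ × T) : U :=
  α (p.1, D.a p.2) * α (p.1 * D.g (D.a p.2), D.b p.2) * (α (p.1, D.c p.2))⁻¹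

/-- finite subcomplexes carrying almost flat paths of connections -/
def Scale : Prop :=
  ∀ ε > (0 : ℝ), ∃ (A : Finset (Γ × E)) (B : Finset (Γ × T)) (α : ℝ → Γ × E → U),
    (∀ p ∈ B, (p.1, D.a p.2) ∈ A ∧ (p.1 * D.g (D.a p.2), D.b p.2) ∈ A ∧ (p.1, D.c p.2) ∈ A) ∧
    (∀ w : Γ × E → ℝ, (∀ p ∈ B, w (p.1, D.a p.2) + w (p.1 * D.g (D.a p.2), D.b p.2) =
      w (p.1, D.c p.2)) → ∃ φ : Γ → ℝ, ∀ p ∈ A, w p = φ (p.1 * D.g p.2) - φ p.1) ∧
    Continuous α ∧ α 0 = 1 ∧ (∀ t, ∀ p ∈ B, ‖(D.cur (α t) p : ℍ[ℝ]) - 1‖ ≤ ε) ∧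
    (∀ p ∈ B, D.cur (α 1) p = 1) ∧
    ¬ ∃ φ : Γ → U, ∀ p ∈ A, α 1 p = (φ p.1)⁻¹ * φ (p.1 * D.g p.2)

end Tri

section raag
variable {V : Type} [LinearOrder V] (G : SimpleGraph V)

/-- ordered edges -/
abbrev Ed := {p : V × V // p.1 < p.2 ∧ G.Adj p.1 p.2}

/-- ordered triangles -/
abbrev Tr := {p : V × V × V // p.1 < p.2.1 ∧ p.2.1 < p.2.2 ∧ G.Adj p.1 p.2.1 ∧
  G.Adj p.2.1 p.2.2 ∧ G.Adj p.1 p.2.2}

variable {G}

/-- sides of a triangle -/
def e01 (t : Tr G) : Ed G := ⟨(t.1.1, t.1.2.1), t.2.1, t.2.2.2.1⟩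
/-- sides of a triangle -/
def e12 (t : Tr G) : Ed G := ⟨(t.1.2.1, t.1.2.2), t.2.2.1, t.2.2.2.2.1⟩
/-- sides of a triangle -/
def e02 (t : Tr G) : Ed G := ⟨(t.1.1, t.1.2.2), t.2.1.trans t.2.2.1, t.2.2.2.2.2⟩

variable (G)

/-- simplicial boundary of edges -/
noncomputable def l1 : (Ed G →₀ ℤ) →ₗ[ℤ] (V →₀ ℤ) :=
  Finsupp.linearCombination ℤ fun e => Finsupp.single e.1.2 1 - Finsupp.single e.1.1 1

/-- simplicial boundary of triangles -/
noncomputable def l2 : (Tr G →₀ ℤ) →ₗ[ℤ] (Ed G →₀ ℤ) :=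
  Finsupp.linearCombination ℤ fun t =>
    Finsupp.single (e01 t) 1 + Finsupp.single (e12 t) 1 - Finsupp.single (e02 t) 1

/-- the flag complex of `G` is two-dimensional and acyclic -/
def Acyc : Prop :=
  G.CliqueFree 4 ∧ G.Connected ∧ Function.Injective (l2 G) ∧ ∀ y, l1 G y = 0 → ∃ x, l2 G x = y

/-- commutation relations -/
def rels : Set (FreeGroup V) := {w | ∃ u v, G.Adj u v ∧
  w = FreeGroup.of u * FreeGroup.of v * (FreeGroup.of u)⁻¹ * (FreeGroup.of v)⁻¹}

/-- right-angled Artin group -/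
abbrev RA := PresentedGroup (rels G)

/-- generators -/
def gen (v : V) : RA G := PresentedGroup.of v

theorem gen_comm {u v : V} (h : G.Adj u v) : Commute (gen G u) (gen G v) := by
  have := PresentedGroup.one_of_mem (rels := rels G) ⟨u, v, h, rfl⟩
  simp only [map_mul, map_inv] at this
  exact commutatorElement_eq_one_iff_commute.1 this

/-- homomorphisms from the right-angled Artin group -/
def raLift {H : Type*} [Group H] (f : V → H) (h : ∀ u v, G.Adj u v → Commute (f u) (f v)) :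
    RA G →* H :=
  PresentedGroup.toGroup (f := f) (by
    rintro _ ⟨u, v, huv, rfl⟩
    simpa [mul_inv_eq_iff_eq_mul] using (h u v huv).eq)

@[simp] theorem raLift_gen {H : Type*} [Group H] (f : V → H)
    (h : ∀ u v, G.Adj u v → Commute (f u) (f v)) (v : V) : raLift G f h (gen G v) = f v :=
  PresentedGroup.toGroup.of _

/-- height -/
def ht : RA G →* Multiplicative ℤ :=
  raLift G (fun _ => Multiplicative.ofAdd 1) fun _ _ _ => Commute.refl _

/-- Bestvina-Brady group -/
abbrev BB := (ht G).ker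

/-- the level set as a triangle complex -/
def bbTri : Tri (BB G) (Ed G) (Tr G × Bool) where
  g e := ⟨(gen G e.1.1)⁻¹ * gen G e.1.2, by simp [MonoidHom.mem_ker, ht]⟩
  a t := if t.2 then e01 t.1 else e12 t.1
  b t := if t.2 then e12 t.1 else e01 t.1
  c t := e02 t.1
  rel := by
    rintro ⟨t, _ | _⟩
    · have h1 := gen_comm G t.2.2.2.1
      have h2 := gen_comm G t.2.2.2.2.1
      have h3 := gen_comm G t.2.2.2.2.2
      refine Subtype.ext (Eq.trans (Commute.eq ?_) (by simp [e01, e12, e02, mul_assoc]))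
      exact ((h1.symm.inv_inv.mul_right (Commute.refl _).inv_left).mul_left
        (h3.symm.inv_right.mul_right h2.symm))
    · exact Subtype.ext (by simp [e01, e12, e02, mul_assoc])

end raag

end Vale.Agent.P173
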