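import Vale.Agent.P173.Cx

namespace Vale.Agent.P173

open Set Topology Metric

namespace C0

lemma exists_kappa : ∃ κ : ℂ ≃ₜ (Fin 2 → ℝ), (∀ z, κ z ∈ ball 0 1 ↔ ‖z‖ < 1) ∧
    ∀ z, κ z ∈ closedBall 0 1 ↔ ‖z‖ ≤ 1 := by
  let l : ℂ ≃L[ℝ] (Fin 2 → ℝ) := Complex.basisOneI.equivFun.toContinuousLinearEquiv
  have hi : interior (l '' ball 0 1) = l '' ball 0 1 := (l.isOpenMap _ isOpen_ball).interior_eq
  obtain ⟨h, h1, h2, -⟩ := exists_homeomorph_image_interior_closure_frontier_eq_unitBall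
    (s := l '' ball 0 1) ((convex_ball 0 1).linear_image l.toLinearMap)
    (hi.symm ▸ ⟨_, 0, by simp, rfl⟩) (l.lipschitz.isBounded_image isBounded_ball)
  rw [hi] at h1
  rw [← l.image_closure, closure_ball _ one_ne_zero] at h2
  exact ⟨l.toHomeomorph.trans h, fun z => by simp [← h1], fun z => by simp [← h2]⟩

noncomputable def cl (z : ℂ) : ℂ := (max 1 ‖z‖)⁻¹ • z

lemma cl_cont : Continuous cl :=
  ((continuous_const.max continuous_norm).inv₀ fun _ => by positivity).smul continuous_id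

lemma cl_le (z : ℂ) : ‖cl z‖ ≤ 1 := by
  rw [cl, norm_smul, norm_inv, Real.norm_of_nonneg (by positivity)]
  exact inv_mul_le_one_of_le₀ (le_max_right _ _) (by positivity)

lemma cl_eq {z : ℂ} (h : ‖z‖ ≤ 1) : cl z = z := by simp [cl, h]

def ln (t : unitInterval) : Fin 1 → ℝ := fun _ => 2 * t - 1

lemma ln_norm (t : unitInterval) : ‖ln t‖ = |2 * (t : ℝ) - 1| := pi_norm_const _

lemma ln_closed (t : unitInterval) : ln t ∈ closedBall 0 1 := by
  rw [mem_closedBall_zero_iff, ln_norm, abs_le]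
  constructor <;> linarith [t.2.1, t.2.2]

lemma ln_open {t : unitInterval} (a : 0 < t) (b : t < 1) : ln t ∈ ball 0 1 := by
  have a' : (0 : ℝ) < t := a
  have b' : (t : ℝ) < 1 := b
  rw [mem_ball_zero_iff, ln_norm, abs_lt]
  constructor <;> linarith

lemma ln_surj {x : Fin 1 → ℝ} (h : x ∈ closedBall 0 1) : ∃ t, ln t = x := by
  have := abs_le.1 ((norm_le_pi_norm x 0).trans (mem_closedBall_zero_iff.1 h))
  exact ⟨⟨(x 0 + 1) / 2, by linarith, by linarith⟩, funext fun i => by
    rw [Subsingleton.elim i 0]; simp only [ln]; ring⟩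

end C0

open C0 RelCWComplex in
theorem exists_cx {X : Type*} [TopologicalSpace X] [T2Space X] [CWComplex (univ : Set X)]
    (h : ∀ n, 2 < n → IsEmpty (RelCWComplex.cell (univ : Set X) n)) : Nonempty (Cx X) := by
  obtain ⟨κ, k1, k2⟩ := exists_kappa
  have fr : ∀ (e : cell (univ : Set X) 1) (x : Fin 1 → ℝ), x ∈ ({-1, 1} : Set (Fin 1 → ℝ)) →
      ∃ v : cell (univ : Set X) 0, map 1 e x = map 0 v ![] := fun e x hx => by
    obtain ⟨u, v, e'⟩ := CWComplex.exists_cellFrontier_one_eq e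
    rw [cellFrontier_one_eq, closedCell_zero_eq_singleton, closedCell_zero_eq_singleton] at e'
    exact (e'.le ⟨x, hx, rfl⟩).elim (fun k => ⟨u, k⟩) fun k => ⟨v, k⟩
  choose src hs using fun e => fr e (-1) (by simp)
  choose tgt ht using fun e => fr e 1 (by simp)
  let ed : ∀ e : cell (univ : Set X) 1, Path (map 0 (src e) ![]) (map 0 (tgt e) ![]) := fun e =>
    ⟨⟨fun t => map 1 e (ln t), (continuousOn 1 e).comp_continuous (by unfold ln; fun_prop) ln_closed⟩,
      (congrArg (map 1 e) (funext fun _ => by simp [ln])).trans (hs e),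
      (congrArg (map 1 e) (funext fun _ => by norm_num [ln])).trans (ht e)⟩
  let dc : cell (univ : Set X) 2 → C(ℂ, X) := fun c => ⟨fun z => map 2 c (κ (cl z)),
    (continuousOn 2 c).comp_continuous (κ.continuous.comp cl_cont) fun z => (k2 _).2 (cl_le z)⟩
  have de : ∀ c {z}, ‖z‖ ≤ 1 → dc c z = map 2 c (κ z) := fun c z a =>
    congrArg (fun w => map 2 c (κ w)) (cl_eq a)
  have re : ∀ e, range (ed e) = closedCell 1 e := fun e => Set.ext fun y =>
    ⟨by rintro ⟨t, rfl⟩; exact ⟨_, ln_closed t, rfl⟩,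
      by rintro ⟨x, hx, rfl⟩; obtain ⟨t, rfl⟩ := ln_surj hx; exact ⟨t, rfl⟩⟩
  have dj : ∀ {n m} {i : cell (univ : Set X) n} {j : cell (univ : Set X) m} {y}, y ∈ openCell n i →
      y ∈ openCell m j → (⟨n, i⟩ : Σ n, cell (univ : Set X) n) = ⟨m, j⟩ :=
    fun a b => eq_of_not_disjoint_openCell (not_disjoint_iff.2 ⟨_, a, b⟩)
  have inj : ∀ {n} {i : cell (univ : Set X) n}, InjOn (map n i) (ball 0 1) :=
    fun {n i} => source_eq n i ▸ (map n i).injOn
  have o0 : ∀ v : cell (univ : Set X) 0, map 0 v ![] ∈ openCell 0 v := fun v => ⟨_, by simp, rfl⟩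
  have o1 : ∀ e {t}, 0 < t → t < 1 → ed e t ∈ openCell 1 e := fun e t a b => ⟨_, ln_open a b, rfl⟩
  have o2 : ∀ c {z}, ‖z‖ < 1 → dc c z ∈ openCell 2 c := fun c z a => ⟨_, (k1 _).2 a, (de c a.le).symm⟩
  obtain ⟨X1, hX⟩ : ∃ X1 : Set X, X1 = range (fun v : cell (univ : Set X) 0 => map 0 v ![]) ∪
    ⋃ e, range (ed e) := ⟨_, rfl⟩
  have sub : ∀ m < 2, ∀ j : cell (univ : Set X) m, closedCell m j ⊆ X1 := fun m hm j => by
    interval_cases m
    · rw [closedCell_zero_eq_singleton, hX]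
      exact singleton_subset_iff.2 (.inl ⟨j, rfl⟩)
    · rw [← re, hX]
      exact (subset_iUnion (fun e => range (ed e)) j).trans subset_union_right
  have no : ∀ c, ∀ y ∈ openCell 2 c, y ∉ X1 := fun c y a b => by
    rw [hX] at b
    rcases b with ⟨v, rfl⟩ | b
    · cases dj a (o0 v)
    obtain ⟨e, t, rfl⟩ := mem_iUnion.1 b
    by_cases t0 : t = 0
    · rw [t0, Path.source] at a; cases dj a (o0 _)
    by_cases t1 : t = 1
    · rw [t1, Path.target] at a; cases dj a (o0 _)
    cases dj a (o1 e (unitInterval.pos_iff_ne_zero.2 t0) (unitInterval.lt_one_iff_ne_one.2 t1))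
  refine ⟨⟨_, _, _, fun v => map 0 v ![], src, tgt, ed, dc, X1, hX, injective_map_zero _,
    fun e t v a b k => ?_, fun e e' t t' a b a' b' k => ?_, fun c z a => ?_,
    fun c z a => no c _ (o2 c a), fun c c' z z' a a' k => ?_, fun y => ?_, fun A hA k => ?_,
    fun A hA k => (CWComplex.closed univ A (subset_univ _)).2 fun n j => ?_⟩⟩
  · cases dj (o1 e a b) (k ▸ o0 v)
  · obtain ⟨-⟩ := dj (o1 e a b) (k ▸ o1 e' a' b')
    have := congrFun (inj (ln_open a b) (ln_open a' b') k) 0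
    exact ⟨rfl, Subtype.ext (by simp only [ln] at this; linarith)⟩
  · obtain ⟨I, hI⟩ := CWComplex.cellFrontier_subset_finite_closedCell 2 c
    have : dc c z ∈ cellFrontier 2 c := ⟨κ z, by
      rw [← closedBall_diff_ball]; exact ⟨(k2 _).2 a.le, (k1 _).not.2 a.not_lt⟩, (de c a.le).symm⟩
    simp only [subset_def, mem_iUnion] at hI
    obtain ⟨m, hm, j, -, k⟩ := hI _ this
    exact sub m hm j k
  · obtain ⟨-⟩ := dj (o2 c a) (k ▸ o2 c' a')
    rw [de c a.le, de c a'.le] at k
    exact ⟨rfl, κ.injective (inj ((k1 _).2 a) ((k1 _).2 a') k)⟩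
  · obtain ⟨n, j, k⟩ : ∃ n, ∃ j : cell (univ : Set X) n, y ∈ openCell n j := by
      simpa only [mem_iUnion] using (CWComplex.iUnion_openCell_eq_complex (C := univ)).ge (mem_univ y)
    rcases lt_trichotomy n 2 with a | rfl | a
    · exact .inl (sub n a j (openCell_subset_closedCell _ _ k))
    · obtain ⟨x, hx, rfl⟩ := k
      obtain ⟨z, rfl⟩ := κ.surjective x
      exact .inr ⟨j, z, (k1 z).1 hx, (de j ((k1 z).1 hx).le).symm⟩
    · exact (h n a).elim j
  · refine CWComplex.isClosed_of_disjoint_openCell_or_isClosed_inter_closedCell (subset_univ _)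
      fun n hn j => ?_
    rcases lt_trichotomy n 2 with a | rfl | a
    · obtain rfl : n = 1 := by omega
      rw [← re, ← image_preimage_eq_inter_range]
      exact .inr ((k j).isCompact.image (ed j).continuous).isClosed
    · exact .inl (disjoint_left.2 fun y a b => no j y b (hA a))
    · exact (h n a).elim j
  · rcases lt_trichotomy n 2 with a | rfl | a
    · rw [← inter_eq_right.2 (sub n a j), ← inter_assoc]
      exact hA.inter isClosed_closedCell
    · have : A ∩ closedCell 2 j = dc j '' (dc j ⁻¹' A ∩ closedBall 0 1) := by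
        rw [image_preimage_inter]
        refine congrArg _ (Set.ext fun y => ⟨?_, ?_⟩)
        · rintro ⟨x, hx, rfl⟩
          obtain ⟨z, rfl⟩ := κ.surjective x
          exact ⟨z, mem_closedBall_zero_iff.2 ((k2 z).1 hx), de j ((k2 z).1 hx)⟩
        · rintro ⟨z, -, rfl⟩
          exact ⟨_, (k2 _).2 (cl_le z), rfl⟩
      rw [this]
      exact (((isCompact_closedBall 0 1).of_isClosed_subset (k j) inter_subset_right).image
        (dc j).continuous).isClosed
    · exact (h n a).elim j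

end Vale.Agent.P173
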