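import Vale.Agent.P173.Basic

namespace Vale.Agent.P173

namespace Cd

open CategoryTheory

variable {Γ E T : Type} [Group Γ] (D : Tri Γ E T)

/-- chains as a free module over the group ring -/
noncomputable def phi (Γ X : Type) :
    (Γ × X →₀ ℤ) ≃+ (X →₀ MonoidAlgebra ℤ Γ) :=
  (Finsupp.domCongr (Equiv.prodComm Γ X)).trans <| Finsupp.curryAddEquiv.trans <|
    Finsupp.mapRange.addEquiv MonoidAlgebra.coeffAddEquiv.symm

theorem phi_single {Γ X : Type} (γ : Γ) (x : X) (n : ℤ) :
    phi Γ X (Finsupp.single (γ, x) n) = Finsupp.single x (MonoidAlgebra.single γ n) := by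
  simp [phi, Finsupp.curryAddEquiv, Finsupp.curryEquiv, Finsupp.equivMapDomain_single,
    Finsupp.curry_single]

/-- equivariant boundary of edges -/
noncomputable def D1 : (E →₀ MonoidAlgebra ℤ Γ) →ₗ[MonoidAlgebra ℤ Γ] MonoidAlgebra ℤ Γ :=
  Finsupp.linearCombination _ fun e => MonoidAlgebra.single (D.g e) 1 - 1

/-- equivariant boundary of triangles -/
noncomputable def D2 :
    (T →₀ MonoidAlgebra ℤ Γ) →ₗ[MonoidAlgebra ℤ Γ] (E →₀ MonoidAlgebra ℤ Γ) :=
  Finsupp.linearCombination _ fun t => Finsupp.single (D.a t) 1 +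
    Finsupp.single (D.b t) (MonoidAlgebra.single (D.g (D.a t)) 1) - Finsupp.single (D.c t) 1

theorem D1_phi (y : Γ × E →₀ ℤ) :
    D1 D (phi Γ E y) = MonoidAlgebra.coeffAddEquiv.symm (D.d1 y) := by
  induction y using Finsupp.induction_linear with
  | zero => simp
  | add a b ha hb => simp only [map_add, ha, hb]
  | single p n =>
    obtain ⟨γ, e⟩ := p
    rw [phi_single]
    simp only [D1, Tri.d1, Finsupp.linearCombination_single, smul_sub, map_sub,
      Finsupp.smul_single, smul_eq_mul, mul_one, mul_sub, MonoidAlgebra.single_mul_single]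
    rfl

theorem D2_phi (x : Γ × T →₀ ℤ) : D2 D (phi Γ T x) = phi Γ E (D.d2 x) := by
  induction x using Finsupp.induction_linear with
  | zero => simp
  | add a b ha hb => simp only [map_add, ha, hb]
  | single p n =>
    obtain ⟨γ, e⟩ := p
    rw [phi_single]
    simp only [D2, Tri.d2, Finsupp.linearCombination_single, smul_sub, smul_add, map_sub, map_add,
      Finsupp.smul_single, smul_eq_mul, mul_one, MonoidAlgebra.single_mul_single, phi_single]

/-- the augmentation -/
noncomputable def aug (Γ : Type) [Group Γ] :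
    MonoidAlgebra ℤ Γ →ₗ[MonoidAlgebra ℤ Γ] (Representation.trivial ℤ Γ ℤ).asModule :=
  LinearMap.toSpanSingleton _ _ ((Representation.trivial ℤ Γ ℤ).asModuleEquiv.symm 1)

theorem single_smul (γ : Γ) (n : ℤ) (m : (Representation.trivial ℤ Γ ℤ).asModule) :
    MonoidAlgebra.single γ n • m = n • m := by
  rw [Representation.single_smul]; rfl

theorem aug_single (γ : Γ) (n : ℤ) :
    (Representation.trivial ℤ Γ ℤ).asModuleEquiv (aug Γ (MonoidAlgebra.single γ n)) = n := by
  rw [aug, LinearMap.toSpanSingleton_apply, single_smul, map_zsmul, LinearEquiv.apply_symm_apply]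
  simp

theorem aug_surj : Function.Surjective (aug Γ) := fun m =>
  ⟨MonoidAlgebra.single 1 ((Representation.trivial ℤ Γ ℤ).asModuleEquiv m),
    (Representation.trivial ℤ Γ ℤ).asModuleEquiv.injective (aug_single _ _)⟩

theorem aug_D1 (y : E →₀ MonoidAlgebra ℤ Γ) : aug Γ (D1 D y) = 0 := by
  have : (aug Γ).comp (D1 D) = 0 := by
    refine Finsupp.lhom_ext' fun e => LinearMap.ext_ring ?_
    apply (Representation.trivial ℤ Γ ℤ).asModuleEquiv.injective
    simp only [D1, LinearMap.comp_apply, Finsupp.lsingle_apply, Finsupp.linearCombination_single,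
      one_smul, map_sub, aug_single, LinearMap.zero_comp, LinearMap.zero_apply, map_zero]
    rw [MonoidAlgebra.one_def, aug_single, sub_self]
  exact DFunLike.congr_fun this y

theorem D1_D2 (x : T →₀ MonoidAlgebra ℤ Γ) : D1 D (D2 D x) = 0 := by
  have : (D1 D).comp (D2 D) = 0 := by
    refine Finsupp.lhom_ext' fun t => LinearMap.ext_ring ?_
    simp only [D1, D2, LinearMap.comp_apply, Finsupp.lsingle_apply,
      Finsupp.linearCombination_single, one_smul, map_sub, map_add, LinearMap.zero_comp,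
      LinearMap.zero_apply, smul_eq_mul, mul_sub, mul_one, one_mul,
      MonoidAlgebra.single_mul_single, D.rel]
    abel
  exact DFunLike.congr_fun this x

theorem sub_mem (h : D.Exact) (γ : Γ) :
    MonoidAlgebra.single γ (1 : ℤ) - 1 ∈ LinearMap.range (D1 D) := by
  have hγ : γ ∈ Subgroup.closure (Set.range D.g) := h.1 ▸ Subgroup.mem_top γ
  induction hγ using Subgroup.closure_induction with
  | mem x hx =>
    obtain ⟨e, rfl⟩ := hx
    exact ⟨Finsupp.single e 1, by simp [D1]⟩
  | one => rw [← MonoidAlgebra.one_def, sub_self]; exact zero_mem _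
  | mul x y _ _ hx hy =>
    have := add_mem (Submodule.smul_mem _ (MonoidAlgebra.single x (1 : ℤ)) hy) hx
    simpa [mul_sub, MonoidAlgebra.single_mul_single] using this
  | inv x _ hx =>
    have := neg_mem (Submodule.smul_mem _ (MonoidAlgebra.single x⁻¹ (1 : ℤ)) hx)
    simpa [mul_sub, MonoidAlgebra.single_mul_single, ← MonoidAlgebra.one_def] using this

theorem ker_aug (h : D.Exact) (r : MonoidAlgebra ℤ Γ) (hr : aug Γ r = 0) :
    r ∈ LinearMap.range (D1 D) := by
  have key : ∀ r : MonoidAlgebra ℤ Γ,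
      r - (Representation.trivial ℤ Γ ℤ).asModuleEquiv (aug Γ r) • (1 : MonoidAlgebra ℤ Γ) ∈
        LinearMap.range (D1 D) := by
    intro r
    induction r using MonoidAlgebra.induction_linear with
    | zero => simp
    | add a b ha hb =>
      have := add_mem ha hb
      rw [map_add, map_add, add_smul]
      convert this using 1
      abel
    | single γ n =>
      rw [aug_single]
      have := zsmul_mem (sub_mem D h γ) n
      simpa [smul_sub] using this
  simpa [hr] using key r

theorem D2_inj (h : D.Exact) : Function.Injective (D2 D) := by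
  intro x x' hx
  obtain ⟨x, rfl⟩ := (phi Γ T).surjective x
  obtain ⟨x', rfl⟩ := (phi Γ T).surjective x'
  rw [D2_phi, D2_phi] at hx
  rw [h.2.1 ((phi Γ E).injective hx)]

theorem ker_D1 (h : D.Exact) (y : E →₀ MonoidAlgebra ℤ Γ) (hy : D1 D y = 0) :
    ∃ x, D2 D x = y := by
  obtain ⟨y, rfl⟩ := (phi Γ E).surjective y
  rw [D1_phi, EmbeddingLike.map_eq_zero_iff] at hy
  obtain ⟨x, rfl⟩ := h.2.2 y hy
  exact ⟨phi Γ T x, D2_phi D x⟩

/-- boundary of edges into the augmentation ideal -/
noncomputable def D1' : (E →₀ MonoidAlgebra ℤ Γ) →ₗ[MonoidAlgebra ℤ Γ] LinearMap.ker (aug Γ) :=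
  (D1 D).codRestrict _ (aug_D1 D)

/-- the short complex of the presentation -/
noncomputable def sc : ShortComplex (ModuleCat.{0} (MonoidAlgebra ℤ Γ)) :=
  ShortComplex.moduleCatMk (D2 D) (D1' D) (by
    refine LinearMap.ext fun x => Subtype.ext ?_
    exact D1_D2 D x)

theorem sc_exact (h : D.Exact) : (sc D).ShortExact := by
  refine ModuleCat.shortComplex_shortExact _ (fun y => ⟨fun hy => ?_, ?_⟩) (D2_inj D h) ?_
  · exact ker_D1 D h y (congrArg Subtype.val hy)
  · rintro ⟨x, rfl⟩
    exact Subtype.ext (D1_D2 D x)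
  · rintro ⟨r, hr⟩
    obtain ⟨y, hy⟩ := ker_aug D h r hr
    exact ⟨y, Subtype.ext hy⟩

theorem no_retr {t t' : T} (hne : t ≠ t')
    (h1 : D.a t = D.b t') (h2 : D.b t = D.a t') (h3 : D.c t = D.c t')
    (s : (E →₀ MonoidAlgebra ℤ Γ) →ₗ[MonoidAlgebra ℤ Γ] (T →₀ MonoidAlgebra ℤ Γ))
    (hs : ∀ x, s (D2 D x) = x) : False := by
  let φ := (aug Γ).comp ((Finsupp.lapply t).comp s)
  have hφ : ∀ e γ, φ (Finsupp.single e (MonoidAlgebra.single γ 1)) = φ (Finsupp.single e 1) := by
    intro e γ
    have : Finsupp.single e (MonoidAlgebra.single γ (1 : ℤ)) =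
        MonoidAlgebra.single γ (1 : ℤ) • Finsupp.single e (1 : MonoidAlgebra ℤ Γ) := by simp
    rw [this, map_smul, single_smul, one_smul]
  have hD : ∀ u, φ (D2 D (Finsupp.single u 1)) = φ (Finsupp.single (D.a u) 1) +
      φ (Finsupp.single (D.b u) 1) - φ (Finsupp.single (D.c u) 1) := by
    intro u
    simp only [D2, Finsupp.linearCombination_single, one_smul, map_sub, map_add, hφ]
  have he : φ (D2 D (Finsupp.single t 1)) = φ (D2 D (Finsupp.single t' 1)) := by
    rw [hD, hD, h1, h2, h3, add_comm]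
  simp only [φ, LinearMap.comp_apply, hs, Finsupp.lapply_apply, Finsupp.single_eq_same,
    Finsupp.single_eq_of_ne hne, map_zero] at he
  have := aug_single (1 : Γ) 1
  rw [← MonoidAlgebra.one_def, he] at this
  simp at this

end Cd

open CategoryTheory in
theorem cd_two {Γ E T : Type} [Group Γ] (D : Tri Γ E T) (h : D.Exact) {t t' : T} (hne : t ≠ t')
    (h1 : D.a t = D.b t') (h2 : D.b t = D.a t') (h3 : D.c t = D.c t') :
    CategoryTheory.projectiveDimension (ModuleCat.of (MonoidAlgebra ℤ Γ)
      (Representation.trivial ℤ Γ ℤ).asModule) = 2 := by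
  have h0 := LinearMap.shortExact_shortComplexKer (Cd.aug_surj (Γ := Γ))
  have hs := Cd.sc_exact D h
  have p0 : Projective (Cd.aug Γ).shortComplexKer.X₂ :=
    ModuleCat.projective_of_categoryTheory_projective _
  have p1 : Projective (Cd.sc D).X₂ :=
    (ModuleCat.of (MonoidAlgebra ℤ Γ)
      (E →₀ MonoidAlgebra ℤ Γ)).projective_of_categoryTheory_projective
  have p2 : Projective (Cd.sc D).X₁ :=
    (ModuleCat.of (MonoidAlgebra ℤ Γ)
      (T →₀ MonoidAlgebra ℤ Γ)).projective_of_categoryTheory_projective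
  refine le_antisymm ?_ ?_
  · refine (projectiveDimension_le_iff _ 2).2 ?_
    refine (h0.hasProjectiveDimensionLT_X₃_iff 1 p0).2 ?_
    refine (hs.hasProjectiveDimensionLT_X₃_iff 0 p1).2 ?_
    exact projective_iff_hasProjectiveDimensionLT_one.1 p2
  · refine (projectiveDimension_ge_iff _ 2).2 fun hc => ?_
    have h1' := (h0.hasProjectiveDimensionLT_X₃_iff 0 p0).1 hc
    have p3 : Projective (Cd.sc D).X₃ := projective_iff_hasProjectiveDimensionLT_one.2 h1'
    let sp := hs.splittingOfProjective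
    refine Cd.no_retr D hne h1 h2 h3 sp.r.hom fun x => ?_
    exact DFunLike.congr_fun (congrArg ModuleCat.Hom.hom sp.f_r) x

end Vale.Agent.P173
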