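import Vale.Agent.P173.Basic

namespace Vale.Agent.P173

open Set Topology

universe u

/-- concrete data of a two-dimensional CW structure -/
structure Cx (X : Type u) [TopologicalSpace X] where
  V : Type u
  E : Type u
  C : Type u
  pt : V → X
  src : E → V
  tgt : E → V
  ed : ∀ e, Path (pt (src e)) (pt (tgt e))
  dc : C → C(ℂ, X)
  X1 : Set X
  X1_eq : X1 = range pt ∪ ⋃ e, range (ed e)
  pt_inj : Function.Injective pt
  ed_ne : ∀ e t v, 0 < t → t < 1 → ed e t ≠ pt v
  ed_inj : ∀ e e' t t', 0 < t → t < 1 → 0 < t' → t' < 1 → ed e t = ed e' t' → e = e' ∧ t = t'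
  dc_bd : ∀ c z, ‖z‖ = 1 → dc c z ∈ X1
  dc_not : ∀ c z, ‖z‖ < 1 → dc c z ∉ X1
  dc_inj : ∀ c c' z z', ‖z‖ < 1 → ‖z'‖ < 1 → dc c z = dc c' z' → c = c' ∧ z = z'
  cover : ∀ y, y ∈ X1 ∨ ∃ c z, ‖z‖ < 1 ∧ y = dc c z
  closed1 : ∀ A ⊆ X1, (∀ e, IsClosed (ed e ⁻¹' A)) → IsClosed A
  closed2 : ∀ A, IsClosed (A ∩ X1) → (∀ c, IsClosed (dc c ⁻¹' A ∩ Metric.closedBall 0 1)) →
    IsClosed A

/-- a homotopy invariant multiplicative function on paths -/
structure Hol (Y : Type*) [TopologicalSpace Y] (H : Type*) [Group H] where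
  h : ∀ {y y' : Y}, Path y y' → H
  mul : ∀ {x y z : Y} (a : Path x y) (b : Path y z), h (a.trans b) = h a * h b
  hom : ∀ {x y : Y} {a b : Path x y}, a.Homotopic b → h a = h b

/-- `a` is the increment of a continuous logarithm of `f` -/
def Inc (f : unitInterval → ℂ) (a : ℂ) : Prop :=
  ∃ L : C(unitInterval, ℂ), (∀ t, Complex.exp (L t) = f t) ∧ L 1 - L 0 = a

/-- the standard loop on the unit circle -/
noncomputable def circ : Path (1 : ℂ) 1 where
  toFun t := Complex.exp (2 * Real.pi * Complex.I * (t : ℝ))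
  continuous_toFun := by fun_prop
  source' := by simp
  target' := by simp

theorem norm_circ (t : unitInterval) : ‖circ t‖ = 1 := by
  show ‖Complex.exp _‖ = 1
  simp [Complex.norm_exp]

namespace Cx
variable {X : Type u} [TopologicalSpace X] (K : Cx X)

/-- vertices in the one-skeleton -/
noncomputable def pt1 (v : K.V) : K.X1 := ⟨K.pt v, by rw [K.X1_eq]; exact Or.inl ⟨v, rfl⟩⟩

theorem ed_mem (e : K.E) (t : unitInterval) : K.ed e t ∈ K.X1 := by
  rw [K.X1_eq]; exact Or.inr (mem_iUnion.2 ⟨e, t, rfl⟩)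

/-- edges in the one-skeleton -/
noncomputable def ed1 (e : K.E) : Path (K.pt1 (K.src e)) (K.pt1 (K.tgt e)) where
  toFun t := ⟨K.ed e t, K.ed_mem e t⟩
  continuous_toFun := (K.ed e).continuous.subtype_mk _
  source' := Subtype.ext (K.ed e).source
  target' := Subtype.ext (K.ed e).target

/-- base point of an attaching loop -/
noncomputable def bp (c : K.C) : K.X1 := ⟨K.dc c 1, K.dc_bd c 1 norm_one⟩

/-- attaching loop -/
noncomputable def lp (c : K.C) : Path (K.bp c) (K.bp c) where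
  toFun t := ⟨K.dc c (circ t), K.dc_bd c _ (norm_circ t)⟩
  continuous_toFun := ((K.dc c).continuous.comp circ.continuous).subtype_mk _
  source' := Subtype.ext (by simp [bp])
  target' := Subtype.ext (by simp [bp])

/-- edge paths and their words -/
inductive EP : ∀ {v w : K.V}, Path (K.pt1 v) (K.pt1 w) → FreeGroup K.E → Prop
  | refl (v : K.V) : EP (Path.refl (K.pt1 v)) 1
  | edge (e : K.E) : EP (K.ed1 e) (FreeGroup.of e)
  | symm {v w : K.V} {a : Path (K.pt1 v) (K.pt1 w)} {W : FreeGroup K.E} :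
      EP a W → EP a.symm W⁻¹
  | trans {u v w : K.V} {a : Path (K.pt1 u) (K.pt1 v)} {b : Path (K.pt1 v) (K.pt1 w)}
      {W W' : FreeGroup K.E} : EP a W → EP b W' → EP (a.trans b) (W * W')

end Cx

end Vale.Agent.P173
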