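import Vale.Agent.P173.GRC

set_option linter.unusedSectionVars false

namespace Vale.Agent.P173

namespace GRA

open Function

theorem lift_cont {J : Type*} (w : FreeGroup J) : Continuous fun u : J → U => FreeGroup.lift u w := by
  induction w using FreeGroup.induction_on with
  | C1 => simpa using continuous_const
  | of j => simpa using continuous_apply j
  | inv_of j h => simp only [map_inv]; exact h.inv
  | mul a b ha hb => simp only [map_mul]; exact ha.mul hb

variable {I : Type*} [Fintype I] [DecidableEq I]

/-- word map -/
noncomputable def wm (w : I → FreeGroup I) (u : I → U) : I → U := fun i => FreeGroup.lift u (w i)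

theorem wm_cont (w : I → FreeGroup I) : Continuous (wm w) := continuous_pi fun _ => lift_cont _

theorem wm_update (w : I → FreeGroup I) (i : I) (a : FreeGroup I) :
    wm (update w i a) = up (wm w) i fun u => FreeGroup.lift u a := by
  ext1 u
  ext1 j
  by_cases h : j = i <;> simp [wm, up, h]

theorem DD_mul (w : I → FreeGroup I) (i : I) (a b : FreeGroup I) :
    DD (wm (update w i (a * b))) = DD (wm (update w i a)) + DD (wm (update w i b)) := by
  obtain ⟨p, hp⟩ := exists_miss (J := I) (K := Option I) (by simp)
    fun k => k.elim b (update w i a)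
  simp only [wm_update, map_mul]
  refine add_gen (wm_cont w) (lift_cont a) (lift_cont b) i (p (some i)) (p none) (fun j => p (some j))
    fun y hy => ?_
  by_contra hc
  push Not at hc
  refine hp y (funext fun k => ?_)
  rcases k with _ | k
  · exact hc.2
  · by_cases h : k = i
    · simpa [h] using hc.1
    · simpa [h, wm] using hy k h

theorem hom_ex {φ : FreeGroup I → ℝ} (h : ∀ a b, φ (a * b) = φ a + φ b) (a : FreeGroup I) :
    φ a = ∑ j, ex a j * φ (FreeGroup.of j) := by
  have h1 : φ 1 = 0 := by simpa using h 1 1
  induction a using FreeGroup.induction_on with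
  | C1 => simp [h1]
  | of j => simp [Finsupp.single_apply]
  | inv_of j _ =>
    have := h (FreeGroup.of j) (FreeGroup.of j)⁻¹
    rw [mul_inv_cancel, h1] at this
    simp [Finsupp.single_apply, apply_ite]
    linarith
  | mul a b ha hb => simp [h, ha, hb, add_mul, Finset.sum_add_distrib]

theorem DD_ex1 (w : I → FreeGroup I) (i : I) {a b : FreeGroup I} (h : ex a = ex b) :
    DD (wm (update w i a)) = DD (wm (update w i b)) := by
  have := hom_ex (φ := fun a => DD (wm (update w i a))) (DD_mul w i)
  rw [this a, this b, h]

theorem DD_ex {w w' : I → FreeGroup I} (h : ∀ i, ex (w i) = ex (w' i)) :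
    DD (wm w) = DD (wm w') := by
  have : ∀ s : Finset I, DD (wm (s.piecewise w' w)) = DD (wm w) := fun s => by
    induction s using Finset.induction_on with
    | empty => simp
    | insert i s hi ih =>
      rw [Finset.piecewise_insert, ← DD_ex1 _ i (h i), ← ih]
      congr 2
      rw [update_eq_self_iff, Finset.piecewise_eq_of_notMem _ _ _ hi]
  simpa using (this Finset.univ).symm

theorem ex_zpow {J : Type*} (a : FreeGroup J) (n : ℤ) : ex (a ^ n) = n • ex a := by simp [ex]

theorem ex_surj (v : I →₀ ℤ) : ∃ a, ex a = v := by
  induction v using Finsupp.induction_linear with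
  | zero => exact ⟨1, ex_one⟩
  | add f g hf hg =>
    obtain ⟨a, rfl⟩ := hf
    obtain ⟨b, rfl⟩ := hg
    exact ⟨a * b, ex_mul a b⟩
  | single j n => exact ⟨FreeGroup.of j ^ n, by simp [ex_zpow]⟩

/-- a section of the exponent map -/
noncomputable def sec (v : I → ℤ) : FreeGroup I :=
  (ex_surj (Finsupp.equivFunOnFinite.symm v)).choose

theorem ex_sec (v : I → ℤ) (i : I) : ex (sec v) i = v i := by
  rw [sec, (ex_surj _).choose_spec]; rfl

/-- the degree as an alternating form -/
noncomputable def alt : (I → ℤ) [⋀^I]→ₗ[ℤ] ℝ where
  toMultilinearMap := MultilinearMap.mk' (fun v => DD (wm fun i => sec (v i)))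
    (fun v i x y => by
      simp only [apply_update fun _ => sec]
      rw [← DD_mul]
      exact DD_ex1 _ i (by ext; simp [ex_sec]))
    (fun v i c x => by
      simp only [apply_update fun _ => sec]
      have := hom_ex (φ := fun a => DD (wm (update (fun i => sec (v i)) i a))) (DD_mul _ i)
      rw [this (sec (c • x)), this (sec x)]
      simp [ex_sec, Finset.mul_sum, mul_assoc])
  map_eq_zero_of_eq' v i j h hij := by
    refine DD_miss (wm_cont _) (update 1 i (-1)) fun y hy => neg_one_ne ?_
    have a := congrFun hy i
    have b := congrFun hy j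
    simp only [wm, h, update_self, update_of_ne hij.symm, Pi.one_apply] at a b
    rw [← a, b]

theorem alt_apply (w : I → FreeGroup I) : alt (fun i => ⇑(ex (w i))) = DD (wm w) :=
  DD_ex fun i => by ext; simp [ex_sec]

theorem DD_ne {w : I → FreeGroup I} (h : (Matrix.of fun i k => ex (w i) k).det ≠ 0) :
    DD (wm w) ≠ 0 := by
  intro h0
  set M : Matrix I I ℤ := Matrix.of fun i k => ex (w i) k with hM
  have h1 : alt.compLinearMap M.vecMulLinear = 0 := by
    refine (Pi.basisFun ℤ I).ext_alternating fun v hv => ?_
    let σ : Equiv.Perm I := Equiv.ofBijective v (Finite.injective_iff_bijective.1 hv)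
    have : (alt.compLinearMap M.vecMulLinear) (Pi.basisFun ℤ I) = 0 := by
      rw [← h0, ← alt_apply]
      simp only [AlternatingMap.compLinearMap_apply, Pi.basisFun_apply, Matrix.vecMulLinear_apply,
        Matrix.single_one_vecMul]
      rfl
    show (alt.compLinearMap M.vecMulLinear) (Pi.basisFun ℤ I ∘ σ) = 0
    rw [AlternatingMap.map_perm, this, smul_zero]
  have h2 := DFunLike.congr_fun h1 fun i => M.adjugate i
  have h3 : ∀ i, Matrix.vecMul (M.adjugate i) M = M.det • ⇑(ex (FreeGroup.of i)) := fun i => by
    ext k
    have := congrFun (congrFun (Matrix.adjugate_mul M) i) k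
    simpa [Matrix.mul_apply, Matrix.vecMul, dotProduct, Matrix.one_apply, Finsupp.single_apply]
      using this
  simp only [AlternatingMap.compLinearMap_apply, Matrix.vecMulLinear_apply, h3,
    AlternatingMap.map_smul_univ, alt_apply, AlternatingMap.zero_apply] at h2
  have h4 : wm (FreeGroup.of : I → FreeGroup I) = fun y => y := by
    ext1 y; ext1 i; simp [wm]
  rw [h4, DD_id] at h2
  simp [h] at h2

theorem ex_lift {J : Type*} (s : J → FreeGroup I) (w : FreeGroup J) (k : I) :
    ex (FreeGroup.lift s w) k = Finsupp.linearCombination ℤ (fun j => ex (s j) k) (ex w) := by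
  induction w using FreeGroup.induction_on with
  | C1 => simp
  | of j => simp
  | inv_of j h => simp
  | mul a b ha hb => simp [ha, hb]

theorem gram_ne {J : Type*} {v : I → J →₀ ℤ} (hv : LinearIndependent ℤ v) :
    (Matrix.of fun i k => Finsupp.linearCombination ℤ (fun j => v k j) (v i)).det ≠ 0 := by
  intro h
  obtain ⟨c, hc, h0⟩ := Matrix.exists_vecMul_eq_zero_iff.2 h
  refine hc (funext (Fintype.linearIndependent_iff.1 hv c ?_))
  set z := ∑ i, c i • v i with hz
  have h1 : ∀ k, z.sum (fun j a => a * v k j) = 0 := fun k => by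
    have := congrFun h0 k
    simp only [Matrix.vecMul, dotProduct, Matrix.of_apply, Pi.zero_apply] at this
    rw [← this]
    show Finsupp.linearCombination ℤ (fun j => v k j) z = _
    simp [hz]
  have h2 : ∑ j ∈ z.support, z j * z j = 0 := by
    have : ∑ k, c k * z.sum (fun j a => a * v k j) = 0 := by simp [h1]
    rw [← this]
    simp only [Finsupp.sum, Finset.mul_sum]
    rw [Finset.sum_comm]
    refine Finset.sum_congr rfl fun j _ => ?_
    nth_rw 2 [hz]
    simp only [Finsupp.coe_finsetSum, Finset.sum_apply, Finsupp.coe_smul, Pi.smul_apply,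
      smul_eq_mul, Finset.mul_sum]
    exact Finset.sum_congr rfl fun k _ => by ring
  ext j
  by_contra hj
  exact hj (mul_self_eq_zero.1 ((Finset.sum_eq_zero_iff_of_nonneg fun _ _ => mul_self_nonneg _).1 h2 j
    (Finsupp.mem_support_iff.2 hj)))

end GRA

open GRA in
/-- Gerstenhaber-Rothaus, strong form: a map homotopic to a nonsingular word map hits `1`. -/
theorem gr {I J : Type*} [Fintype I] (w : I → FreeGroup J)
    (hw : LinearIndependent ℤ fun i => ex (w i)) (H : ℝ × (J → U) → I → U) (hH : Continuous H)
    (h0 : ∀ x i, H (0, x) i = FreeGroup.lift x (w i)) : ∃ x, H (1, x) = 1 := by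
  classical
  let s : J → FreeGroup I := fun j => sec fun k => ex (w k) j
  let σ : (I → U) → J → U := fun y j => FreeGroup.lift y (s j)
  have hσ : Continuous σ := continuous_pi fun j => lift_cont _
  have hH' : Continuous fun p : ℝ × (I → U) => H (p.1, σ p.2) := by fun_prop
  have h1 : (fun y => H (0, σ y)) = wm fun i => FreeGroup.lift s (w i) := by
    ext1 y
    ext1 i
    rw [h0]
    exact DFunLike.congr_fun (show FreeGroup.lift (σ y) =
      (FreeGroup.lift y).comp (FreeGroup.lift s) from FreeGroup.ext_hom _ _ fun j => by simp [σ]) (w i)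
  have h2 := DD_ne (w := fun i => FreeGroup.lift s (w i)) (by
    simpa only [ex_lift, s, ex_sec] using gram_ne hw)
  rw [← h1, DD_hom hH'] at h2
  by_contra hc
  push Not at hc
  exact h2 (DD_zero (by fun_prop) fun y => hc _)

end Vale.Agent.P173
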