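import Vale.Agent.P173.Basic
import Vale.Agent.Lib.Degree.Count

set_option linter.unusedSectionVars false

namespace Vale.Agent.P173.GRA

open Set Metric Vale.Agent.Lib.Degree

variable {V : Type*} [NormedAddCommGroup V] [NormedSpace ℝ V] [FiniteDimensional ℝ V]

variable (V) in
/-- coordinates -/
noncomputable def co : (Fin (Module.finrank ℝ V) → ℝ) ≃L[ℝ] V :=
  ContinuousLinearEquiv.ofFinrankEq (by simp)

/-- a map in coordinates -/
noncomputable def cf (f : V → V) (x : Fin (Module.finrank ℝ V) → ℝ) :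
    Fin (Module.finrank ℝ V) → ℝ := (co V).symm (f (co V x))

/-- degree on a finite-dimensional space -/
noncomputable def dg (f : V → V) (O : Set V) : ℝ := deg (cf f) (co V ⁻¹' O)

theorem cf_cont {f : V → V} (hf : Continuous f) : Continuous (cf f) := by
  unfold cf; fun_prop

theorem cf_zero {f : V → V} {x} : cf f x = 0 ↔ f (co V x) = 0 := by simp [cf]

theorem co_open {O : Set V} (ho : IsOpen O) : IsOpen (co V ⁻¹' O) :=
  ho.preimage (co V).continuous

theorem co_bdd {O : Set V} (hb : Bornology.IsBounded O) : Bornology.IsBounded (co V ⁻¹' O) :=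
  (co V).antilipschitz.isBounded_preimage hb

theorem co_closure {O : Set V} {x} : x ∈ closure (co V ⁻¹' O) ↔ co V x ∈ closure O := by
  have := (co V).toHomeomorph.preimage_closure O
  exact (Set.ext_iff.1 this x).symm

theorem co_frontier {O : Set V} {x} : x ∈ frontier (co V ⁻¹' O) ↔ co V x ∈ frontier O := by
  have := (co V).toHomeomorph.preimage_frontier O
  exact (Set.ext_iff.1 this x).symm

theorem dg_line {f f' : V → V} (hf : Continuous f) (hf' : Continuous f') {O : Set V}
    (ho : IsOpen O) (hb : Bornology.IsBounded O)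
    (H : ∀ x ∈ frontier O, ∀ t : ℝ, f x + t • (f' x - f x) ≠ 0) : dg f O = dg f' O := by
  refine deg_homotopy (cf_cont hf) (cf_cont hf') (co_open ho) (co_bdd hb) fun x hx t _ h0 => ?_
  refine H _ (co_frontier.1 hx) t ?_
  have := congrArg (co V) h0
  simpa [cf] using this

theorem dg_hom {h : ℝ × V → V} (hh : Continuous h) {O : Set V} (ho : IsOpen O)
    (hb : Bornology.IsBounded O) (H : ∀ t, ∀ x ∈ frontier O, h (t, x) ≠ 0) (s t : ℝ) :
    dg (fun x => h (s, x)) O = dg (fun x => h (t, x)) O := by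
  have hc : ∀ t, Continuous (cf fun x => h (t, x)) := fun t => cf_cont (by fun_prop)
  refine IsLocallyConstant.apply_eq_of_preconnectedSpace
    (f := fun t => dg (fun x => h (t, x)) O) ?_ s t
  refine (IsLocallyConstant.iff_eventually_eq _).2 fun t => ?_
  have hK := isCompact_frontier (co_bdd hb)
  have key : ∀ᶠ s in nhds t, ∀ x ∈ frontier (co V ⁻¹' O),
      ‖cf (fun x => h (s, x)) x - cf (fun x => h (t, x)) x‖ < ‖cf (fun x => h (t, x)) x‖ := by
    refine hK.eventually_forall_of_forall_eventually fun x hx => ?_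
    refine ContinuousAt.eventually_lt (by unfold cf; fun_prop) (by unfold cf; fun_prop) ?_
    simpa [cf_zero] using H t _ (co_frontier.1 hx)
  filter_upwards [key] with s hs
  exact (deg_rouche (hc t) (hc s) (co_open ho) (co_bdd hb) hs).symm

theorem dg_exc {f : V → V} (hf : Continuous f) {O O' : Set V} (ho : IsOpen O)
    (hb : Bornology.IsBounded O) (ho' : IsOpen O') (hs : O' ⊆ O)
    (H : ∀ x, f x = 0 → x ∈ O') : dg f O = dg f O' :=
  deg_excision (cf_cont hf) (co_open ho) (co_bdd hb) (co_open ho') (preimage_mono hs)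
    fun _ _ h => H _ (cf_zero.1 h)

theorem dg_sum {f : V → V} (hf : Continuous f) {O O₁ O₂ : Set V} (ho : IsOpen O)
    (hb : Bornology.IsBounded O) (h1 : IsOpen O₁) (h2 : IsOpen O₂) (s1 : O₁ ⊆ O) (s2 : O₂ ⊆ O)
    (hd : Disjoint O₁ O₂) (H : ∀ x, f x = 0 → x ∈ O₁ ∨ x ∈ O₂) :
    dg f O = dg f O₁ + dg f O₂ := by
  have := deg_sum (cf_cont hf) (co_open ho) (co_bdd hb) (κ := Bool) Finset.univ
    (fun b => co V ⁻¹' (if b then O₁ else O₂))
    (fun b _ => co_open (by cases b <;> simpa)) (fun b _ => preimage_mono (by cases b <;> simpa))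
    (by
      rintro (_ | _) - (_ | _) - h
      · exact (h rfl).elim
      · exact hd.symm.preimage _
      · exact hd.preimage _
      · exact (h rfl).elim)
    (fun x _ h => by
      rcases H _ (cf_zero.1 h) with h | h
      · exact ⟨true, Finset.mem_univ _, h⟩
      · exact ⟨false, Finset.mem_univ _, h⟩)
  simpa [dg] using this

theorem dg_zero {f : V → V} (hf : Continuous f) {O : Set V} (ho : IsOpen O)
    (hb : Bornology.IsBounded O) (H : ∀ x, f x ≠ 0) : dg f O = 0 := by
  by_contra h
  obtain ⟨x, -, hx⟩ := exists_zero_of_deg_ne_zero (cf_cont hf) (co_open ho) (co_bdd hb) h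
  exact H _ (cf_zero.1 hx)

theorem dg_id {O : Set V} (ho : IsOpen O) (hb : Bornology.IsBounded O) {z : V} (hz : z ∈ O) :
    dg (fun x => x - z) O = 1 := by
  obtain ⟨r, hr, hs⟩ := Metric.isOpen_iff.1 (co_open ho) ((co V).symm z) (by simpa using hz)
  have e : cf (fun x => x - z) = fun x =>
      ContinuousLinearMap.id ℝ (Fin (Module.finrank ℝ V) → ℝ) (x - (co V).symm z) := by
    ext1 x; simp [cf]
  have hdet : (ContinuousLinearMap.id ℝ (Fin (Module.finrank ℝ V) → ℝ)).det = 1 := by
    simp [ContinuousLinearMap.det]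
  rw [dg, deg_excision (cf_cont (by fun_prop)) (co_open ho) (co_bdd hb) isOpen_ball hs, e,
    deg_affine (by rw [hdet]; exact one_ne_zero) _ hr, hdet, if_pos one_pos]
  intro x _ h
  rw [e] at h
  simp only [ContinuousLinearMap.id_apply, sub_eq_zero] at h
  rw [h]; exact mem_ball_self hr

end Vale.Agent.P173.GRA
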