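import Vale.Agent.P173.GRA

set_option linter.unusedSectionVars false

namespace Vale.Agent.P173.GRA

open Set Metric Quaternion

theorem norm_U (u : U) : ‖(u : ℍ[ℝ])‖ = 1 := norm_eq_of_mem_sphere u

open Classical in
/-- normalisation -/
noncomputable def nz (x : ℍ[ℝ]) : U :=
  if h : x = 0 then 1 else ⟨‖x‖⁻¹ • x, by simp [norm_smul, h]⟩

theorem nz_coe {x : ℍ[ℝ]} (h : x ≠ 0) : (nz x : ℍ[ℝ]) = ‖x‖⁻¹ • x := by simp [nz, h]

theorem nz_U (u : U) : nz (u : ℍ[ℝ]) = u :=
  Subtype.ext (by rw [nz_coe (ne_zero_of_mem_unit_sphere u), norm_U]; simp)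

theorem smul_nz (x : ℍ[ℝ]) : ‖x‖ • (nz x : ℍ[ℝ]) = x := by
  by_cases h : x = 0
  · simp [h]
  · rw [nz_coe h, smul_smul, mul_inv_cancel₀ (norm_ne_zero_iff.2 h), one_smul]

theorem nz_contOn : ContinuousOn nz {x | x ≠ 0} := by
  rw [Topology.IsInducing.subtypeVal.continuousOn_iff]
  refine ContinuousOn.congr (f := fun x : ℍ[ℝ] => ‖x‖⁻¹ • x) ?_ fun x hx => nz_coe hx
  exact (continuous_norm.continuousOn.inv₀ fun x hx => norm_ne_zero_iff.2 hx).smul continuousOn_id

theorem nz_comp {X : Type*} [TopologicalSpace X] {f : X → ℍ[ℝ]} (hf : Continuous f)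
    (h : ∀ x, f x ≠ 0) : Continuous fun x => nz (f x) :=
  nz_contOn.comp_continuous hf h

variable {I : Type*} [Fintype I] [DecidableEq I]

/-- cutoff -/
noncomputable def ct (x : I → ℍ[ℝ]) : ℝ := ∏ j, max 0 (min 1 (2 * ‖x j‖ - 1))

/-- normalisation of all coordinates -/
noncomputable def nn (x : I → ℍ[ℝ]) : I → U := fun j => nz (x j)

theorem ct_cont : Continuous (ct : (I → ℍ[ℝ]) → ℝ) := by unfold ct; fun_prop

theorem ct_nonneg (x : I → ℍ[ℝ]) : 0 ≤ ct x := Finset.prod_nonneg fun _ _ => le_max_left _ _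

theorem ct_le (x : I → ℍ[ℝ]) : ct x ≤ 1 :=
  Finset.prod_le_one (fun _ _ => le_max_left _ _) fun _ _ => max_le zero_le_one (min_le_left _ _)

theorem ct_one {x : I → ℍ[ℝ]} (h : ∀ j, 1 ≤ ‖x j‖) : ct x = 1 :=
  Finset.prod_eq_one fun j _ => by
    rw [min_eq_left (by linarith [h j]), max_eq_right zero_le_one]

theorem cut_cont {T W : Type*} [TopologicalSpace T] [NormedAddCommGroup W] [NormedSpace ℝ W]
    {G : T × (I → U) → W} (hG : Continuous G) :
    Continuous fun p : T × (I → ℍ[ℝ]) => ct p.2 • G (p.1, nn p.2) := by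
  have ho : IsOpen {p : T × (I → ℍ[ℝ]) | ∀ j, p.2 j ≠ 0} := by
    simp only [ofPred_forall]
    exact isOpen_iInter_of_finite fun j => isOpen_ne_fun (by fun_prop) continuous_const
  refine ContinuousOn.continuous_of_tsupport_subset ?_ ho ?_
  · refine (ct_cont.comp continuous_snd).continuousOn.smul (hG.comp_continuousOn ?_)
    refine continuous_fst.continuousOn.prodMk (continuousOn_pi.2 fun j => ?_)
    exact nz_contOn.comp (f := fun p : T × (I → ℍ[ℝ]) => p.2 j) (by fun_prop) fun p hp => hp j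
  · have hc : IsClosed {p : T × (I → ℍ[ℝ]) | ∀ j, 1 / 2 ≤ ‖p.2 j‖} := by
      simp only [ofPred_forall]
      exact isClosed_iInter fun j => isClosed_le continuous_const (by fun_prop)
    refine (closure_minimal (fun p hp j => ?_) hc).trans fun p hp j h => ?_
    · by_contra h
      refine hp ?_
      have : ct p.2 = 0 := Finset.prod_eq_zero (Finset.mem_univ j)
        (max_eq_left ((min_le_right _ _).trans (by linarith [not_le.1 h])))
      simp [this]
    · have := hp j
      rw [h] at this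
      norm_num at this

/-- radial extension -/
noncomputable def ff (F : (I → U) → I → U) (x : I → ℍ[ℝ]) : I → ℍ[ℝ] :=
  fun i => ‖x i‖ • ct x • (F (nn x) i : ℍ[ℝ]) - 1

theorem ff_cont2 {T : Type*} [TopologicalSpace T] {H : T × (I → U) → I → U} (hH : Continuous H) :
    Continuous fun p : T × (I → ℍ[ℝ]) => ff (fun y => H (p.1, y)) p.2 := by
  refine continuous_pi fun i => ?_
  have h1 : Continuous fun p : T × (I → ℍ[ℝ]) => ‖p.2 i‖ := by fun_prop
  have h2 : Continuous fun p : T × (I → U) => (H p i : ℍ[ℝ]) := by fun_prop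
  exact (h1.smul (cut_cont h2)).sub continuous_const

theorem ff_cont {F : (I → U) → I → U} (hF : Continuous F) : Continuous (ff F) := by
  have h : Continuous fun p : Unit × (I → U) => F p.2 := hF.comp continuous_snd
  have h2 : Continuous fun x : I → ℍ[ℝ] => ((), x) := by fun_prop
  have := (ff_cont2 h).comp h2
  simpa only [Function.comp_def] using this

theorem eq_one_of {a : ℝ} (ha : 0 ≤ a) {u : U} (h : a • (u : ℍ[ℝ]) = 1) : a = 1 ∧ u = 1 := by
  have : a = 1 := by simpa [norm_smul, norm_U, abs_of_nonneg ha] using congrArg norm h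
  subst this
  exact ⟨rfl, Subtype.ext (by simpa using h)⟩

theorem ff_slot {F : (I → U) → I → U} {x : I → ℍ[ℝ]} {i : I} (h : ff F x i = 0) :
    ‖x i‖ * ct x = 1 ∧ F (nn x) i = 1 :=
  eq_one_of (mul_nonneg (norm_nonneg _) (ct_nonneg x)) (by rw [mul_smul]; exact sub_eq_zero.1 h)

theorem rad {x : I → ℍ[ℝ]} {c : ℝ} (hc : c ≤ 1) (h1 : ct x = 1 → c = 1)
    (h : ∀ i, ‖x i‖ * c = 1) : ct x = 1 ∧ x ∈ ball 0 2 := by
  have h2 : ct x = 1 := ct_one fun j => by nlinarith [h j, norm_nonneg (x j)]
  refine ⟨h2, mem_ball_zero_iff.2 ((pi_norm_lt_iff two_pos).2 fun j => ?_)⟩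
  have := h j
  rw [h1 h2] at this
  linarith

theorem ff_zero {F : (I → U) → I → U} {x : I → ℍ[ℝ]} (h : ff F x = 0) :
    ct x = 1 ∧ x ∈ ball 0 2 ∧ F (nn x) = 1 := by
  have := rad (ct_le x) id fun i => (ff_slot (congrFun h i)).1
  exact ⟨this.1, this.2, funext fun i => (ff_slot (congrFun h i)).2⟩

/-- degree of a self-map of a power of the three-sphere -/
noncomputable def DD (F : (I → U) → I → U) : ℝ := dg (ff F) (ball 0 2)

theorem DD_hom {H : ℝ × (I → U) → I → U} (hH : Continuous H) :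
    DD (fun y => H (0, y)) = DD (fun y => H (1, y)) :=
  dg_hom (h := fun p => ff (fun y => H (p.1, y)) p.2) (ff_cont2 hH) isOpen_ball isBounded_ball
    (fun _ _ hx h => by
      rw [isOpen_ball.frontier_eq] at hx
      exact hx.2 (ff_zero h).2.1) 0 1

theorem DD_zero {F : (I → U) → I → U} (hF : Continuous F) (h : ∀ y, F y ≠ 1) : DD F = 0 :=
  dg_zero (ff_cont hF) isOpen_ball isBounded_ball fun _ hx => h _ (ff_zero hx).2.2

theorem DD_id : DD (fun y : I → U => y) = 1 := by
  rw [← dg_id (O := ball (0 : I → ℍ[ℝ]) 2) (z := 1) isOpen_ball isBounded_ball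
    (mem_ball_zero_iff.2 ((pi_norm_lt_iff two_pos).2 fun j => by simp))]
  refine (dg_line (by fun_prop) (ff_cont continuous_id') isOpen_ball isBounded_ball
    fun x hx t h => ?_).symm
  rw [isOpen_ball.frontier_eq] at hx
  have h1 : ∀ i, (‖x i‖ * (1 - t + t * ct x)) • (nz (x i) : ℍ[ℝ]) = 1 := fun i => by
    have := congrFun h i
    simp only [Pi.add_apply, Pi.smul_apply, Pi.sub_apply, Pi.one_apply, Pi.zero_apply, ff, nn]
      at this
    have e := smul_nz (x i)
    generalize (nz (x i) : ℍ[ℝ]) = u at this e ⊢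
    generalize ‖x i‖ = a at this e ⊢
    rw [← sub_eq_zero, ← this, ← e]
    module
  have h2 : ∀ i, ‖x i‖ * |1 - t + t * ct x| = 1 := fun i => by
    simpa [norm_smul, norm_U] using congrArg norm (h1 i)
  obtain ⟨i, hi⟩ : ∃ i, 2 ≤ ‖x i‖ := by
    by_contra hc
    push Not at hc
    exact hx.2 (mem_ball_zero_iff.2 ((pi_norm_lt_iff two_pos).2 hc))
  have h3 : ct x = 1 := ct_one fun j => by
    have a := h2 i
    have b := h2 j
    have c := abs_nonneg (1 - t + t * ct x)
    nlinarith [norm_nonneg (x j)]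
  have := h2 i
  rw [h3] at this
  norm_num at this
  linarith

theorem exists_path (u : U) : ∃ γ : ℝ → U, Continuous γ ∧ γ 0 = 1 ∧ γ 1 = u := by
  have h : IsPathConnected (sphere (0 : ℍ[ℝ]) 1) :=
    isPathConnected_sphere (by rw [Quaternion.rank_eq_four]; norm_num) _ zero_le_one
  have := isPathConnected_iff_pathConnectedSpace.1 h
  let γ := PathConnectedSpace.somePath (1 : U) u
  exact ⟨γ.extend, γ.continuous_extend, by simp, by simp⟩

theorem DD_tr {F : (I → U) → I → U} (hF : Continuous F) (u v : I → U) :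
    DD (fun y => u * F y * v) = DD F := by
  choose γ hγ γ0 γ1 using exists_path
  have := DD_hom (H := fun p i => γ (u i) p.1 * F p.2 i * γ (v i) p.1) (by fun_prop)
  simp only [γ0, γ1, one_mul, mul_one] at this
  exact this.symm

theorem DD_miss {F : (I → U) → I → U} (hF : Continuous F) (p : I → U) (h : ∀ y, F y ≠ p) :
    DD F = 0 := by
  rw [← DD_tr hF p⁻¹ 1]
  refine DD_zero ((continuous_const.mul hF).mul continuous_const) fun y hy => h y ?_
  rw [mul_one, inv_mul_eq_one] at hy
  exact hy.symm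

/-- the positivity region -/
def pos (g : (I → U) → ℝ) : Set (I → ℍ[ℝ]) := ball 0 2 ∩ {x | 0 < ct x * g (nn x)}

theorem cut_cont1 {g : (I → U) → ℝ} (hg : Continuous g) :
    Continuous fun x : I → ℍ[ℝ] => ct x * g (nn x) := by
  have h : Continuous fun p : Unit × (I → U) => g p.2 := hg.comp continuous_snd
  have h2 : Continuous fun x : I → ℍ[ℝ] => ((), x) := by fun_prop
  have := (cut_cont h).comp h2
  simpa only [Function.comp_def, smul_eq_mul] using this

theorem pos_open {g : (I → U) → ℝ} (hg : Continuous g) : IsOpen (pos g) :=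
  isOpen_ball.inter (isOpen_lt continuous_const (cut_cont1 hg))

theorem loc {F G : (I → U) → I → U} {g : (I → U) → ℝ} (hF : Continuous F) (hG : Continuous G)
    (hg : Continuous g) (i0 : I) (h1 : ∀ y i, i ≠ i0 → G y i = F y i)
    (h2 : ∀ y, (∀ i, i ≠ i0 → F y i = 1) → 0 ≤ g y → G y = F y) (h3 : ∀ y, F y = 1 → 0 < g y) :
    dg (ff G) (pos g) = DD F := by
  have hz : ∀ x, ff F x = 0 → x ∈ pos g := fun x h => by
    obtain ⟨a, b, c⟩ := ff_zero h
    exact ⟨b, by simpa [a] using h3 _ c⟩
  rw [DD, dg_exc (ff_cont hF) isOpen_ball isBounded_ball (pos_open hg) inter_subset_left hz]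
  refine (dg_line (ff_cont hF) (ff_cont hG) (pos_open hg) (isBounded_ball.subset inter_subset_left)
    fun x hx t h => ?_).symm
  rw [(pos_open hg).frontier_eq] at hx
  have hcl : 0 ≤ ct x * g (nn x) :=
    closure_minimal (t := {x | 0 ≤ ct x * g (nn x)}) (fun y hy => (show 0 < ct y * g (nn y) from hy.2).le)
      (isClosed_le continuous_const (cut_cont1 hg)) hx.1
  have e : ff G x = ff F x := by
    rcases (ct_nonneg x).eq_or_lt with h0 | h0
    · ext1 i; simp [ff, ← h0]
    · have : G (nn x) = F (nn x) := by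
        refine h2 _ (fun i hi => ?_) (nonneg_of_mul_nonneg_right hcl h0 |> fun h => h)
        have := congrFun h i
        have e : ff G x i = ff F x i := by simp [ff, h1 _ i hi]
        simp only [Pi.add_apply, Pi.smul_apply, Pi.sub_apply, e, sub_self, smul_zero, add_zero,
          Pi.zero_apply] at this
        exact (ff_slot this).2
      ext1 i; simp [ff, this]
  rw [e, sub_self, smul_zero, add_zero] at h
  exact hx.2 (hz x h)

end Vale.Agent.P173.GRA
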