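import Vale.Agent.P173.GRB

set_option linter.unusedSectionVars false

namespace Vale.Agent.P173.GRA

open Set Metric Quaternion Function

variable {I : Type*} [Fintype I] [DecidableEq I]

/-- replacing one slot -/
def up (F : (I → U) → I → U) (i : I) (A : (I → U) → U) (y : I → U) : I → U :=
  update (F y) i (A y)

theorem up_cont {T : Type*} [TopologicalSpace T] {F : T → I → U} {A : T → U} (hF : Continuous F)
    (hA : Continuous A) (i : I) : Continuous fun p => update (F p) i (A p) := hF.update i hA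

theorem neg_one_ne : (-1 : U) ≠ 1 := fun h => by
  have := congrArg (fun u : U => (u : ℍ[ℝ]).re) h
  norm_num at this

theorem upd_one {f : I → U} {i : I} {a : U} : update f i a = 1 ↔ a = 1 ∧ ∀ j, j ≠ i → f j = 1 := by
  rw [update_eq_iff]; rfl

theorem add_core {F : (I → U) → I → U} {A B : (I → U) → U} (hF : Continuous F)
    (hA : Continuous A) (hB : Continuous B) (i : I)
    (h : ∀ y, (∀ j, j ≠ i → F y j = 1) → A y = 1 ∨ B y = 1) :
    DD (up F i fun y => -(A y * B y)) = DD (up F i fun y => -A y) + DD (up F i fun y => -B y) := by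
  have hC : Continuous (up F i fun y => -(A y * B y)) := up_cont hF (hA.mul hB).neg i
  have aux : ∀ {A B C : (I → U) → U}, Continuous A → Continuous B → Continuous C →
      (∀ y, (∀ j, j ≠ i → F y j = 1) → A y = 1 ∨ B y = 1) → (∀ y, B y = 1 → C y = A y) →
      dg (ff (up F i fun y => -C y)) (pos fun y => dist (A y) 1 - dist (B y) 1) =
        DD (up F i fun y => -A y) := by
    intro A B C hA hB hC h h'
    refine loc (up_cont hF hA.neg i) (up_cont hF hC.neg i) (by fun_prop) i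
      (fun y j hj => by simp [up, hj]) (fun y hy hg => ?_) fun y hy => ?_
    · have hB1 : B y = 1 := by
        rcases h y (fun j hj => by simpa [up, hj] using hy j hj) with h | h
        · rw [h, dist_self, sub_nonneg] at hg
          exact dist_le_zero.1 hg
        · exact h
      simp [up, h' y hB1]
    · obtain ⟨a, b⟩ := upd_one.1 hy
      have a' : A y = -1 := neg_eq_iff_eq_neg.1 a
      have : B y = 1 := (h y b).resolve_left (a' ▸ neg_one_ne)
      simpa [this, a'] using neg_one_ne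
  rw [← aux hA hB (hA.mul hB) h (fun y hy => by simp [hy]),
    ← aux hB hA (hA.mul hB) (fun y hy => (h y hy).symm) (fun y hy => by simp [hy])]
  refine dg_sum (ff_cont hC) isOpen_ball isBounded_ball (pos_open (by fun_prop))
    (pos_open (by fun_prop)) inter_subset_left inter_subset_left
    (disjoint_left.2 fun x h1 h2 => ?_) fun x hx => ?_
  · have a : 0 < ct x * _ := h1.2
    have b : 0 < ct x * _ := h2.2
    linarith
  · obtain ⟨a, b, c⟩ := ff_zero hx
    obtain ⟨c, d⟩ := upd_one.1 c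
    have c' : A (nn x) * B (nn x) = -1 := neg_eq_iff_eq_neg.1 c
    rcases h _ d with e | e
    · rw [e, one_mul] at c'
      exact Or.inr ⟨b, by simpa [a, e, c'] using neg_one_ne⟩
    · rw [e, mul_one] at c'
      exact Or.inl ⟨b, by simpa [a, e, c'] using neg_one_ne⟩

theorem ne_line (u : U) {l : ℝ} (h : u = -1 → l = 0) : (1 - l) • (u : ℍ[ℝ]) + l • 1 ≠ 0 := by
  intro h0
  have h1 : (1 - l) • (u : ℍ[ℝ]) = -(l • 1) := eq_neg_of_add_eq_zero_left h0
  have h2 : |1 - l| = |l| := by simpa [norm_smul, norm_U] using congrArg norm h1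
  have h3 : l = 1 / 2 := by
    rcases abs_eq_abs.1 h2 with h | h <;> linarith
  have h4 : u = -1 := Subtype.ext (by
    have : (u : ℍ[ℝ]) = (2 : ℝ) • ((1 - l) • (u : ℍ[ℝ])) := by rw [h3]; module
    rw [this, h1, h3]
    show _ = -(1 : ℍ[ℝ])
    module)
  have := h h4
  linarith

theorem add_miss {F : (I → U) → I → U} {A B : (I → U) → U} (hF : Continuous F)
    (hA : Continuous A) (hB : Continuous B) (i : I)
    (h : ∀ y, (∀ j, j ≠ i → F y j = 1) → A y ≠ -1 ∨ B y ≠ -1) :
    DD (up F i fun y => -(A y * B y)) = DD (up F i fun y => -A y) + DD (up F i fun y => -B y) := by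
  let m : (I → U) → ℝ := fun y =>
    max (dist (A y) (-1)) (dist (B y) (-1)) + dist (update (F y) i 1) 1
  have hm : Continuous m :=
    Continuous.add (by fun_prop) ((up_cont hF continuous_const i).dist continuous_const)
  have hm0 : ∀ y, m y ≠ 0 := fun y h0 => by
    have a := le_max_left (dist (A y) (-1)) (dist (B y) (-1))
    have b := le_max_right (dist (A y) (-1)) (dist (B y) (-1))
    have c := dist_nonneg (x := update (F y) i 1) (y := 1)
    have d := dist_nonneg (x := A y) (y := -1)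
    have e := dist_nonneg (x := B y) (y := -1)
    simp only [m] at h0
    rcases h y (upd_one.1 (dist_eq_zero.1 (by linarith))).2 with h | h
    · exact h (dist_eq_zero.1 (by linarith))
    · exact h (dist_eq_zero.1 (by linarith))
  let k : ((I → U) → U) → ℝ × (I → U) → U := fun A p =>
    nz ((1 - p.1 * (dist (A p.2) (-1) / m p.2)) • (A p.2 : ℍ[ℝ]) +
      (p.1 * (dist (A p.2) (-1) / m p.2)) • 1)
  have hk : ∀ {A}, Continuous A → Continuous (k A) := fun {A} hA => by
    have : Continuous fun p : ℝ × (I → U) => p.1 * (dist (A p.2) (-1) / m p.2) :=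
      continuous_fst.mul (Continuous.div (by fun_prop) (hm.comp continuous_snd) fun p => hm0 _)
    exact nz_comp (((continuous_const.sub this).smul (by fun_prop)).add
      (this.smul continuous_const)) fun p => ne_line _ fun h => by simp [h]
  have k0 : ∀ A y, k A (0, y) = A y := fun A y => by simp [k, nz_U]
  have k1 : ∀ A y, dist (A y) (-1) = m y → k A (1, y) = 1 := fun A y hy => by
    have : dist (A y) (-1) / m y = 1 := by rw [hy, div_self (hm0 y)]
    simpa [k, this] using nz_U 1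
  have hF' : Continuous fun p : ℝ × (I → U) => F p.2 := hF.comp continuous_snd
  have e1 := DD_hom (up_cont hF' ((hk hA).mul (hk hB)).neg i)
  have e2 := DD_hom (up_cont hF' (hk hA).neg i)
  have e3 := DD_hom (up_cont hF' (hk hB).neg i)
  simp only [Pi.neg_apply, Pi.mul_apply, k0] at e1 e2 e3
  have hs : Continuous fun y : I → U => ((1 : ℝ), y) := by fun_prop
  refine e1.trans ((add_core hF ((hk hA).comp hs) ((hk hB).comp hs) i fun y hy => ?_).trans
    (congrArg₂ (· + ·) e2.symm e3.symm))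
  have : dist (update (F y) i 1) 1 = 0 := dist_eq_zero.2 (upd_one.2 ⟨rfl, hy⟩)
  rcases le_total (dist (A y) (-1)) (dist (B y) (-1)) with h | h
  · exact Or.inr (k1 B y (by simp only [m, this, max_eq_right h, add_zero]))
  · exact Or.inl (k1 A y (by simp only [m, this, max_eq_left h, add_zero]))

theorem add_gen {F : (I → U) → I → U} {A B : (I → U) → U} (hF : Continuous F)
    (hA : Continuous A) (hB : Continuous B) (i : I) (a b : U) (p : I → U)
    (h : ∀ y, (∀ j, j ≠ i → F y j = p j) → A y ≠ a ∨ B y ≠ b) :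
    DD (up F i fun y => A y * B y) = DD (up F i A) + DD (up F i B) := by
  have key : ∀ {C : (I → U) → U}, Continuous C → ∀ u v : U,
      DD (up (fun y => p⁻¹ * F y) i fun y => u * C y * v) = DD (up F i C) := fun {C} hC u v => by
    rw [← DD_tr (F := up F i C) (up_cont hF hC i) (update p⁻¹ i u) (update 1 i v)]
    congr 1
    ext1 y
    ext1 j
    by_cases hj : j = i <;> simp [up, hj]
  have := add_miss (F := fun y => p⁻¹ * F y) (A := fun y => -(a⁻¹ * A y))
    (B := fun y => -(B y * b⁻¹)) (continuous_const.mul hF) (by fun_prop) (by fun_prop) i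
    (fun y hy => by
      rcases h y (fun j hj => (inv_mul_eq_one.1 (hy j hj)).symm) with h | h
      · exact Or.inl fun e => h (inv_mul_eq_one.1 (neg_inj.1 e)).symm
      · exact Or.inr fun e => h (mul_inv_eq_one.1 (neg_inj.1 e)))
  rw [← key (C := fun y => A y * B y) (hA.mul hB) a⁻¹ (-b⁻¹), ← key hA a⁻¹ 1, ← key hB 1 b⁻¹]
  have e : ∀ a b : U, -(-a * -b) = a * -b := fun a b => Subtype.ext (by
    show -(-(a : ℍ[ℝ]) * -(b : ℍ[ℝ])) = (a : ℍ[ℝ]) * -(b : ℍ[ℝ])
    rw [neg_mul, neg_neg])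
  have e' : ∀ a b : U, -(a * b) = a * -b := fun a b => Subtype.ext (by
    show -((a : ℍ[ℝ]) * (b : ℍ[ℝ])) = (a : ℍ[ℝ]) * -(b : ℍ[ℝ])
    rw [mul_neg])
  simp only [e, neg_neg] at this
  simpa only [e', mul_one, one_mul, mul_assoc] using this

/-- imaginary units -/
def qi : ℍ[ℝ] := ⟨0, 1, 0, 0⟩
/-- imaginary units -/
def qj : ℍ[ℝ] := ⟨0, 0, 1, 0⟩
/-- imaginary units -/
def qk : ℍ[ℝ] := ⟨0, 0, 0, 1⟩

/-- unnormalised stereographic parametrisation -/
noncomputable def st (θ : ℝ × ℝ × ℝ) : ℍ[ℝ] :=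
  (θ.1 ^ 2 + θ.2.1 ^ 2 + θ.2.2 ^ 2 - 1) • (1 : ℍ[ℝ]) + (2 * θ.1) • qi +
    (2 * θ.2.1) • qj + (2 * θ.2.2) • qk

theorem st_co (θ : ℝ × ℝ × ℝ) : (st θ).re = θ.1 ^ 2 + θ.2.1 ^ 2 + θ.2.2 ^ 2 - 1 ∧
    (st θ).imI = 2 * θ.1 ∧ (st θ).imJ = 2 * θ.2.1 ∧ (st θ).imK = 2 * θ.2.2 := by
  refine ⟨?_, ?_, ?_, ?_⟩ <;>
    simp only [st, re_add, imI_add, imJ_add, imK_add, re_smul, imI_smul, imJ_smul, imK_smul] <;>
    simp [qi, qj, qk]

theorem star_st (θ : ℝ × ℝ × ℝ) : star (st θ) = st (-θ) := by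
  ext <;> simp [st_co]

theorem st_smooth : ContDiff ℝ 1 st := by unfold st; fun_prop

theorem exists_st (u : U) : ∃ θ, ∃ s : ℝ, (u : ℍ[ℝ]) = s • st θ := by
  have hn : (u : ℍ[ℝ]).re ^ 2 + (u : ℍ[ℝ]).imI ^ 2 + (u : ℍ[ℝ]).imJ ^ 2 + (u : ℍ[ℝ]).imK ^ 2 = 1 := by
    rw [← normSq_def', normSq_eq_norm_mul_self, norm_U, mul_one]
  generalize (u : ℍ[ℝ]) = q at hn
  obtain ⟨a, b, c, d⟩ := q
  simp only at hn
  by_cases h : a = 1
  · subst h
    refine ⟨0, -1, ?_⟩
    ext <;> simp [st_co] <;> nlinarith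
  · have h' : 1 - a ≠ 0 := sub_ne_zero.2 (Ne.symm h)
    refine ⟨(b / (1 - a), c / (1 - a), d / (1 - a)), (1 - a) / 2, ?_⟩
    ext <;> simp [st_co] <;> field_simp
    nlinarith

theorem word_param {J : Type*} [Fintype J] (w : FreeGroup J) :
    ∃ P : (J → ℝ × ℝ × ℝ) → ℍ[ℝ], ContDiff ℝ 1 P ∧ ∀ θ (u : J → U),
      (∀ j, ∃ s : ℝ, (u j : ℍ[ℝ]) = s • st (θ j)) →
        ∃ c : ℝ, ((FreeGroup.lift u w : U) : ℍ[ℝ]) = c • P θ := by
  have hs : ∀ j : J, ContDiff ℝ 1 fun θ : J → ℝ × ℝ × ℝ => st (θ j) := fun j =>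
    st_smooth.comp (contDiff_apply ℝ _ j)
  induction w using FreeGroup.induction_on with
  | C1 => exact ⟨fun _ => 1, contDiff_const, fun _ _ _ => ⟨1, by simp⟩⟩
  | of j => exact ⟨_, hs j, fun θ u h => by simpa using h j⟩
  | inv_of j _ =>
    refine ⟨fun θ => st (-θ j), st_smooth.comp (contDiff_apply ℝ _ j).neg, fun θ u h => ?_⟩
    obtain ⟨s, hs⟩ := h j
    refine ⟨(normSq (u j : ℍ[ℝ]))⁻¹ * s, ?_⟩
    rw [map_inv, FreeGroup.lift_apply_of, Metric.unitSphere.coe_inv, Quaternion.inv_def, mul_smul]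
    nth_rw 2 [hs]
    simp [← star_st]
  | mul a b ha hb =>
    obtain ⟨P, hP, h1⟩ := ha
    obtain ⟨Q, hQ, h2⟩ := hb
    refine ⟨fun θ => P θ * Q θ, hP.mul hQ, fun θ u h => ?_⟩
    obtain ⟨c, hc⟩ := h1 θ u h
    obtain ⟨d, hd⟩ := h2 θ u h
    exact ⟨c * d, by simp [hc, hd, mul_smul, smul_comm c d]⟩

theorem exists_miss {J K : Type*} [Fintype J] [Fintype K] (hc : Fintype.card J < Fintype.card K)
    (w : K → FreeGroup J) : ∃ p : K → U, ∀ u : J → U, (fun k => FreeGroup.lift u (w k)) ≠ p := by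
  choose P hP h using fun k => word_param (w k)
  have hs : ContDiff ℝ 1 fun (z : (K → ℝ) × (J → ℝ × ℝ × ℝ)) (k : K) => z.1 k • P k z.2 :=
    contDiff_pi.2 fun k => ((contDiff_apply ℝ ℝ k).comp contDiff_fst).smul ((hP k).comp contDiff_snd)
  have hd := hs.dense_compl_range_of_finrank_lt_finrank (by
    simp [Module.finrank_pi_fintype, Quaternion.finrank_eq_four]
    omega)
  have ho : IsOpen {y : K → ℍ[ℝ] | ∀ k, y k ≠ 0} := by
    simp only [ofPred_forall]
    exact isOpen_iInter_of_finite fun j => isOpen_ne_fun (by fun_prop) continuous_const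
  obtain ⟨y, hy, hy0⟩ := hd.exists_mem_open ho ⟨1, fun _ => one_ne_zero⟩
  refine ⟨fun k => nz (y k), fun u hu => hy ?_⟩
  choose θ s hθ using fun j => exists_st (u j)
  choose c hc using fun k => h k θ u fun j => ⟨s j, hθ j⟩
  refine ⟨(fun k => ‖y k‖ * c k, θ), funext fun k => ?_⟩
  show (‖y k‖ * c k) • P k θ = y k
  rw [mul_smul, ← hc, congrFun hu k, smul_nz]

end Vale.Agent.P173.GRA
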