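import Vale.Agent.P173.Cx

namespace Vale.Agent.P173

open Set Metric

/-- induction along the unit interval by small steps -/
theorem step_ind {δ : ℝ} (hδ : 0 < δ) (P : ℝ → Prop) (h0 : P 0)
    (hs : ∀ t t', 0 ≤ t → t ≤ t' → t' ≤ 1 → t' - t < δ → P t → P t') : P 1 := by
  have key : ∀ n : ℕ, ∀ t, 0 ≤ t → t ≤ 1 → t ≤ n * (δ / 2) → P t := by
    intro n
    induction n with
    | zero => intro t a _ c; obtain rfl : t = 0 := le_antisymm (by simpa using c) a; exact h0
    | succ n ih =>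
      intro t a b c
      push_cast at c
      have hn : (0 : ℝ) ≤ n * (δ / 2) := by positivity
      rcases le_total t (n * (δ / 2)) with h | h
      · exact ih t a b h
      · exact hs _ _ hn h b (by linarith) (ih _ hn (h.trans b) le_rfl)
  obtain ⟨n, hn⟩ := exists_nat_ge (1 / (δ / 2))
  exact key n 1 zero_le_one le_rfl ((div_le_iff₀ (by positivity)).1 hn)

section conv
variable {Y : Type*} [TopologicalSpace Y] {Z : Type*} [NormedAddCommGroup Z] [NormedSpace ℝ Z]

/-- paths in a convex set with the same ends have homotopic images -/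
theorem conv_hom (G : C(Z, Y)) {S : Set Z} (hS : Convex ℝ S) {p q : Z} (α β : Path p q)
    (ha : range α ⊆ S) (hb : range β ⊆ S) :
    ∃ F : (α.map G.continuous).Homotopy (β.map G.continuous), range F ⊆ G '' S := by
  refine ⟨⟨⟨⟨fun x => G ((1 - (x.1 : ℝ)) • α x.2 + (x.1 : ℝ) • β x.2), by fun_prop⟩,
    by simp, by simp⟩, ?_⟩, ?_⟩
  · rintro s t (rfl | rfl) <;> simp [← add_smul]
  · rintro _ ⟨x, rfl⟩
    exact ⟨_, hS (ha ⟨x.2, rfl⟩) (hb ⟨x.2, rfl⟩) (sub_nonneg.2 x.1.2.2) x.1.2.1 (by ring), rfl⟩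

/-- image of a straight segment -/
noncomputable def sg (G : C(Z, Y)) (p q : Z) : Path (G p) (G q) :=
  (Path.segment p q).map G.continuous

theorem sg_apply (G : C(Z, Y)) (p q : Z) (t : unitInterval) :
    sg G p q t = G (AffineMap.lineMap p q (t : ℝ)) := rfl

theorem range_sg (G : C(Z, Y)) {S : Set Z} (hS : Convex ℝ S) {p q : Z} (hp : p ∈ S) (hq : q ∈ S) :
    range (sg G p q) ⊆ G '' S := by
  rintro _ ⟨t, rfl⟩
  exact ⟨_, hS.lineMap_mem hp hq t.2, rfl⟩

theorem sg_hom (G : C(Z, Y)) {S : Set Z} (hS : Convex ℝ S) {p q r : Z} (hp : p ∈ S) (hq : q ∈ S)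
    (hr : r ∈ S) :
    ∃ F : ((sg G p q).trans (sg G q r)).Homotopy (sg G p r), range F ⊆ G '' S := by
  have := conv_hom G hS ((Path.segment p q).trans (Path.segment q r)) (Path.segment p r)
    (by
      rw [Path.trans_range, Path.range_segment, Path.range_segment]
      exact union_subset (hS.segment_subset hp hq) (hS.segment_subset hq hr))
    (by rw [Path.range_segment]; exact hS.segment_subset hp hr)
  rw [Path.map_trans] at this
  exact this

theorem path_congr {β : Sort*} (k : ∀ {y y' : Y}, Path y y' → β) {x y x' y' : Y} (a : Path x y)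
    (b : Path x' y') (h : ∀ t, a t = b t) : k a = k b := by
  obtain rfl : x = x' := by rw [← a.source, h, b.source]
  obtain rfl : y = y' := by rw [← a.target, h, b.target]
  rw [show a = b from Path.ext (funext h)]

omit [NormedSpace ℝ Z] in
theorem leb {ι : Type*} {O : ι → Set Y} (ho : ∀ i, IsOpen (O i)) (hc : ∀ y, ∃ i, y ∈ O i)
    (G : C(Z, Y)) {A : Set Z} (hA : IsCompact A) :
    ∃ δ > 0, ∀ z ∈ A, ∃ i, G '' ball z δ ⊆ O i := by
  obtain ⟨δ, hδ, h⟩ := lebesgue_number_lemma_of_metric hA (c := fun i => G ⁻¹' O i)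
    (fun i => (ho i).preimage G.continuous) (fun z _ => mem_iUnion.2 (hc (G z)))
  exact ⟨δ, hδ, fun z hz => (h z hz).imp fun i hi => image_subset_iff.2 hi⟩

end conv

variable {Y : Type*} [TopologicalSpace Y] {ι : Type*} (O : ι → Set Y)

/-- induction over paths subordinate to an open cover -/
theorem path_ind (ho : ∀ i, IsOpen (O i)) (hc : ∀ y, ∃ i, y ∈ O i)
    (Q : ∀ {y y' : Y}, Path y y' → Prop)
    (h1 : ∀ i {y y' : Y} (a : Path y y'), range a ⊆ O i → Q a)
    (h2 : ∀ {x y z : Y} (a : Path x y) (b : Path y z), Q a → Q b → Q (a.trans b))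
    (h3 : ∀ {x y : Y} {a b : Path x y}, a.Homotopic b → Q a → Q b)
    {y y' : Y} (a : Path y y') : Q a := by
  obtain ⟨δ, hδ, h⟩ := leb ho hc a.extend (isCompact_Icc (a := (0 : ℝ)) (b := 1))
  have sm : ∀ t t', 0 ≤ t → t ≤ t' → t' ≤ 1 → t' - t < δ → Q (sg a.extend t t') := by
    intro t t' a0 a1 a2 a3
    obtain ⟨i, hi⟩ := h t ⟨a0, a1.trans a2⟩
    exact h1 i _ ((range_sg _ (convex_ball t δ) (mem_ball_self hδ)
      (by rw [mem_ball, Real.dist_eq, abs_lt]; constructor <;> linarith)).trans hi)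
  have := step_ind hδ (fun t => Q (sg a.extend 0 t))
    (sm 0 0 le_rfl le_rfl zero_le_one (by simpa using hδ)) (fun t t' a0 a1 a2 a3 ht => by
      obtain ⟨F, -⟩ := sg_hom a.extend convex_univ (mem_univ 0) (mem_univ t) (mem_univ t')
      exact h3 ⟨F⟩ (h2 _ _ ht (sm t t' a0 a1 a2 a3)))
  rwa [path_congr Q (sg a.extend 0 1) a (fun t => by simp [sg_apply, AffineMap.lineMap_apply])]
    at this

section glue
variable {H : Type*} [Group H] (k : ι → ∀ {y y' : Y}, Path y y' → H)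

/-- developing function along the unit interval -/
def Dev (G : C(ℝ, Y)) (T : ℝ) (f : ℝ → H) : Prop :=
  f 0 = 1 ∧ ∀ i t t', 0 ≤ t → t ≤ t' → t' ≤ T → G '' Icc t t' ⊆ O i →
    f t' = f t * k i (sg G t t')

variable {O k}

theorem Dev.unique (ho : ∀ i, IsOpen (O i)) (hc : ∀ y, ∃ i, y ∈ O i) {G : C(ℝ, Y)} {f g : ℝ → H}
    (hf : Dev O k G 1 f) (hg : Dev O k G 1 g) : f 1 = g 1 := by
  obtain ⟨δ, hδ, h⟩ := leb ho hc G (isCompact_Icc (a := (0 : ℝ)) (b := 1))
  refine step_ind hδ (fun t => f t = g t) (hf.1.trans hg.1.symm) fun t t' a0 a1 a2 a3 ht => ?_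
  obtain ⟨i, hi⟩ := h t ⟨a0, a1.trans a2⟩
  have : G '' Icc t t' ⊆ O i := (image_mono fun s hs => by
    rw [mem_ball, Real.dist_eq, abs_lt]; constructor <;> linarith [hs.1, hs.2]).trans hi
  rw [hf.2 i t t' a0 a1 a2 this, hg.2 i t t' a0 a1 a2 this, ht]

variable (h1 : ∀ i {x y z : Y} (a : Path x y) (b : Path y z), range a ⊆ O i → range b ⊆ O i →
      k i (a.trans b) = k i a * k i b)
    (h2 : ∀ i {x y : Y} {a b : Path x y} (F : a.Homotopy b), range F ⊆ O i → k i a = k i b)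
    (h3 : ∀ i j {x y : Y} (a : Path x y), range a ⊆ O i → range a ⊆ O j → k i a = k j a)
include h1 h2

theorem k_tri {Z : Type*} [NormedAddCommGroup Z] [NormedSpace ℝ Z] (G : C(Z, Y)) {S : Set Z}
    (hS : Convex ℝ S) {i : ι} (hi : G '' S ⊆ O i) {p q r : Z} (hp : p ∈ S) (hq : q ∈ S)
    (hr : r ∈ S) : k i (sg G p r) = k i (sg G p q) * k i (sg G q r) := by
  obtain ⟨F, hF⟩ := sg_hom G hS hp hq hr
  rw [← h2 i F (hF.trans hi), h1 i _ _ ((range_sg G hS hp hq).trans hi)
    ((range_sg G hS hq hr).trans hi)]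

omit h2 in
theorem k_const {i : ι} {x y z : Y} (a : Path x y) (hz : z ∈ O i) (ha : ∀ t, a t = z) :
    k i a = 1 := by
  rw [path_congr (k i) a (Path.refl z) ha]
  have := h1 i (Path.refl z) (Path.refl z) (by simpa) (by simpa)
  rw [Path.refl_trans_refl] at this
  simpa using this

include h3

theorem exists_dev (ho : ∀ i, IsOpen (O i)) (hc : ∀ y, ∃ i, y ∈ O i) (G : C(ℝ, Y)) :
    ∃ f, Dev O k G 1 f := by
  obtain ⟨δ, hδ, h⟩ := leb ho hc G (isCompact_Icc (a := (0 : ℝ)) (b := 1))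
  have one : ∀ i t, G t ∈ O i → k i (sg G t t) = 1 := fun i t ht =>
    k_const h1 _ ht (fun s => by simp [sg_apply])
  refine step_ind hδ (fun T => ∃ f, Dev O k G T f) ⟨fun _ => 1, rfl, fun i t t' a b c d => ?_⟩ ?_
  · obtain rfl : t' = t := by linarith
    rw [one i _ (d ⟨_, ⟨le_rfl, le_rfl⟩, rfl⟩), one_mul]
  rintro T T' a0 a1 a2 a3 ⟨f, hf⟩
  obtain ⟨j, hj⟩ := h T ⟨a0, a1.trans a2⟩
  have hj : G '' Icc T T' ⊆ O j := (image_mono fun s hs => by
    rw [mem_ball, Real.dist_eq, abs_lt]; constructor <;> linarith [hs.1, hs.2]).trans hj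
  have e1 : ∀ i t t', T ≤ t → t ≤ t' → t' ≤ T' → G '' Icc t t' ⊆ O i →
      k j (sg G t t') = k i (sg G t t') := fun i t t' a b c d =>
    h3 _ _ _ ((range_sg G (convex_Icc _ _) ⟨a, b.trans c⟩ ⟨a.trans b, c⟩).trans hj)
      ((range_sg G (convex_Icc _ _) ⟨le_rfl, b⟩ ⟨b, le_rfl⟩).trans d)
  refine ⟨fun s => if s ≤ T then f s else f T * k j (sg G T s), by simp [a0, hf.1],
    fun i t t' a b c d => ?_⟩
  by_cases c1 : t' ≤ T
  · simp only [c1, b.trans c1, if_true]
    exact hf.2 i t t' a b c1 d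
  by_cases c2 : t ≤ T
  · simp only [c1, c2, if_true, if_false]
    have c1 := (not_le.1 c1).le
    rw [hf.2 i t T a c2 le_rfl ((image_mono (Icc_subset_Icc le_rfl c1)).trans d),
      e1 i T t' le_rfl c1 c ((image_mono (Icc_subset_Icc c2 le_rfl)).trans d), mul_assoc,
      ← k_tri h1 h2 G (convex_Icc _ _) d ⟨le_rfl, b⟩ ⟨c2, c1⟩ ⟨b, le_rfl⟩]
  · simp only [c1, c2, if_false]
    have c2 := (not_le.1 c2).le
    rw [← e1 i t t' c2 b c d, mul_assoc,
      ← k_tri h1 h2 G (convex_Icc _ _) hj ⟨le_rfl, a1⟩ ⟨c2, b.trans c⟩ ⟨c2.trans b, c⟩]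

/-- horizontal slices -/
def slice (G : C(ℝ × ℝ, Y)) (s : ℝ) : C(ℝ, Y) := ⟨fun t => G (s, t), by fun_prop⟩

theorem dev_square (ho : ∀ i, IsOpen (O i)) (hc : ∀ y, ∃ i, y ∈ O i) (G : C(ℝ × ℝ, Y))
    (g0 : ∀ s, G (s, 0) = G (0, 0)) (g1 : ∀ s, G (s, 1) = G (0, 1)) (f : ℝ → ℝ → H)
    (hf : ∀ s, Dev O k (slice G s) 1 (f s)) : f 0 1 = f 1 1 := by
  obtain ⟨δ, hδ, h⟩ := leb ho hc G
    ((isCompact_Icc (a := (0 : ℝ)) (b := 1)).prod (isCompact_Icc (a := (0 : ℝ)) (b := 1)))
  refine step_ind hδ (fun s => f 0 1 = f s 1) rfl fun s s' a0 a1 a2 a3 hs => hs.trans ?_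
  have mb : ∀ t u v, s ≤ u → u ≤ s' → t ≤ v → v - t < δ → (u, v) ∈ ball (s, t) δ := by
    intro t u v b1 b2 b3 b4
    rw [mem_ball, Prod.dist_eq, max_lt_iff, Real.dist_eq, Real.dist_eq, abs_lt, abs_lt]
    refine ⟨⟨?_, ?_⟩, ?_, ?_⟩ <;> simp only <;> linarith
  have cst : ∀ i t, (∀ u, G (u, t) = G (0, t)) → range (sg G (s, t) (s', t)) ⊆ O i →
      k i (sg G (s, t) (s', t)) = 1 := fun i t e d =>
    k_const h1 _ (z := G (0, t)) (d ⟨0, by simp [e]⟩)
      (fun r => by rw [sg_apply, ← e]; congr 1; ext <;> simp; rfl)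
  have key := step_ind hδ (fun t => ∀ i, range (sg G (s, t) (s', t)) ⊆ O i →
      f s' t = f s t * k i (sg G (s, t) (s', t)))
    (fun i d => by rw [cst i 0 g0 d, (hf s).1, (hf s').1, one_mul])
    (fun t t' b0 b1 b2 b3 ht j d => by
      obtain ⟨i, hi⟩ := h (s, t) ⟨⟨a0, a1.trans a2⟩, b0, b1.trans b2⟩
      have m1 := mb t s t le_rfl a1 le_rfl (by simpa using hδ)
      have m2 := mb t s' t a1 le_rfl le_rfl (by simpa using hδ)
      have m3 := mb t s t' le_rfl a1 b1 b3
      have m4 := mb t s' t' a1 le_rfl b1 b3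
      have st : ∀ u, s ≤ u → u ≤ s' → f u t' = f u t * k i (sg G (u, t) (u, t')) := by
        intro u c1 c2
        rw [(hf u).2 i t t' b0 b1 b2 (by
          rintro _ ⟨v, hv, rfl⟩
          exact hi ⟨_, mb t u v c1 c2 hv.1 (by linarith [hv.2]), rfl⟩)]
        congr 1
        exact path_congr (k i) _ _ fun r => by
          rw [sg_apply, sg_apply]; show G _ = _; congr 1; ext <;> simp
      rw [h3 j i _ d ((range_sg G (convex_ball _ _) m3 m4).trans hi), st s' a1 le_rfl,
        st s le_rfl a1, ht i ((range_sg G (convex_ball _ _) m1 m2).trans hi), mul_assoc,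
        mul_assoc, ← k_tri h1 h2 G (convex_ball _ _) hi m1 m2 m4,
        ← k_tri h1 h2 G (convex_ball _ _) hi m1 m3 m4])
  obtain ⟨i, hi⟩ := h (s, 1) ⟨⟨a0, a1.trans a2⟩, zero_le_one, le_rfl⟩
  have d := (range_sg G (convex_ball _ _) (mb 1 s 1 le_rfl a1 le_rfl (by simpa using hδ))
    (mb 1 s' 1 a1 le_rfl le_rfl (by simpa using hδ))).trans hi
  rw [key i d, cst i 1 g1 d, mul_one]

end glue

/-- gluing of holonomies (existence half of van Kampen) -/
theorem hol_glue {H : Type*} [Group H] (ho : ∀ i, IsOpen (O i)) (hc : ∀ y, ∃ i, y ∈ O i)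
    (k : ι → ∀ {y y' : Y}, Path y y' → H)
    (h1 : ∀ i {x y z : Y} (a : Path x y) (b : Path y z), range a ⊆ O i → range b ⊆ O i →
      k i (a.trans b) = k i a * k i b)
    (h2 : ∀ i {x y : Y} {a b : Path x y} (F : a.Homotopy b), range F ⊆ O i → k i a = k i b)
    (h3 : ∀ i j {x y : Y} (a : Path x y), range a ⊆ O i → range a ⊆ O j → k i a = k j a) :
    ∃ κ : Hol Y H, ∀ i {x y : Y} (a : Path x y), range a ⊆ O i → κ.h a = k i a := by
  choose f hf using exists_dev h1 h2 h3 ho hc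
  refine ⟨⟨fun a => f a.extend 1, fun a b => ?_, ?_⟩, fun i x y a ha => ?_⟩
  · set g := f (a.trans b).extend
    have hg : Dev O k (a.trans b).extend 1 g := hf _
    have e1 : Dev O k a.extend 1 fun t => g (t / 2) := by
      refine ⟨by simpa using hg.1, fun i t t' a0 a1 a2 d => ?_⟩
      beta_reduce
      rw [hg.2 i (t / 2) (t' / 2) (by linarith) (by linarith) (by linarith) (by
        rintro _ ⟨v, hv, rfl⟩
        rw [Path.extend_trans_of_le_half _ _ (by linarith [hv.2])]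
        exact d ⟨_, ⟨by linarith [hv.1], by linarith [hv.2]⟩, rfl⟩)]
      congr 1
      refine path_congr (k i) _ _ fun r => ?_
      rw [sg_apply, sg_apply, Path.extend_trans_of_le_half]
      · congr 1; simp [AffineMap.lineMap_apply]; ring
      · simp only [AffineMap.lineMap_apply, vsub_eq_sub, smul_eq_mul, vadd_eq_add]
        nlinarith [r.2.1, r.2.2]
    have e2 : Dev O k b.extend 1 fun t => (g (1 / 2))⁻¹ * g ((t + 1) / 2) := by
      refine ⟨by simp, fun i t t' a0 a1 a2 d => ?_⟩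
      beta_reduce
      rw [hg.2 i ((t + 1) / 2) ((t' + 1) / 2) (by linarith) (by linarith) (by linarith) (by
        rintro _ ⟨v, hv, rfl⟩
        rw [Path.extend_trans_of_half_le _ _ (by linarith [hv.1])]
        exact d ⟨_, ⟨by linarith [hv.1], by linarith [hv.2]⟩, rfl⟩), mul_assoc]
      congr 2
      refine path_congr (k i) _ _ fun r => ?_
      rw [sg_apply, sg_apply, Path.extend_trans_of_half_le]
      · congr 1; simp [AffineMap.lineMap_apply]; ring
      · simp only [AffineMap.lineMap_apply, vsub_eq_sub, smul_eq_mul, vadd_eq_add]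
        nlinarith [r.2.1, r.2.2]
    rw [(hf _).unique ho hc e1, (hf _).unique ho hc e2]
    simp [g]
  · rintro x y a b ⟨F⟩
    let G : C(ℝ × ℝ, Y) := ⟨fun z => F (projIcc 0 1 zero_le_one z.1, projIcc 0 1 zero_le_one z.2),
      F.continuous.comp ((continuous_projIcc.comp continuous_fst).prodMk
        (continuous_projIcc.comp continuous_snd))⟩
    have := dev_square h1 h2 h3 ho hc G (fun s => by simp [G]) (fun s => by simp [G])
      (fun s => f (slice G s)) (fun s => hf _)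
    have e0 : slice G 0 = a.extend := by ext t; simp [G, slice]; rfl
    have e1 : slice G 1 = b.extend := by ext t; simp [G, slice]; rfl
    simpa only [e0, e1] using this
  · show f a.extend 1 = _
    rw [(hf _).2 i 0 1 le_rfl zero_le_one le_rfl
      ((image_subset_range _ _).trans (a.extend_range ▸ ha)), (hf _).1, one_mul]
    exact path_congr (k i) _ _ fun t => by simp [sg_apply, AffineMap.lineMap_apply]

end Vale.Agent.P173
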