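import Vale.Agent.P173.Cx

namespace Vale.Agent.P173

open Set Topology Filter

namespace HopfA

/-- two continuous logarithms of the same function have the same increments -/
lemma log_diff {A : Type*} [TopologicalSpace A] [PreconnectedSpace A] {L L' : A → ℂ}
    (h : Continuous L) (h' : Continuous L') (e : ∀ t, Complex.exp (L t) = Complex.exp (L' t))
    (s t : A) : L t - L s = L' t - L' s := by
  have h1 := Complex.isCoveringMap_exp.const_of_comp (g := fun t => L t - L' t) (h.sub h')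
    (fun a a' => Subtype.ext (by
      show Complex.exp (L a - L' a) = Complex.exp (L a' - L' a')
      rw [Complex.exp_sub, Complex.exp_sub, e, e, div_self (Complex.exp_ne_zero _),
        div_self (Complex.exp_ne_zero _)])) s t
  linear_combination -h1

end HopfA

open HopfA

theorem Inc.unique {f : unitInterval → ℂ} {a b : ℂ} (ha : Inc f a) (hb : Inc f b) : a = b := by
  obtain ⟨L, h1, rfl⟩ := ha
  obtain ⟨L', h2, rfl⟩ := hb
  exact log_diff L.continuous L'.continuous (fun t => (h1 t).trans (h2 t).symm) 0 1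

theorem exists_inc {f : unitInterval → ℂ} (hf : Continuous f) (h0 : ∀ t, f t ≠ 0) :
    ∃ a, Inc f a := by
  obtain ⟨L, h1, -⟩ := Complex.isCoveringMap_exp.exists_path_lifts
    ⟨fun t => ⟨f t, h0 t⟩, hf.subtype_mk _⟩ (Complex.log (f 0))
    (Subtype.ext (Complex.exp_log (h0 0)).symm)
  exact ⟨_, L, fun t => congrArg Subtype.val (congrFun h1 t), rfl⟩

theorem Inc.trans {Y : Type*} [TopologicalSpace Y] {u : Y → ℂ} {x y z : Y} {p : Path x y}
    {q : Path y z} {a b : ℂ} (ha : Inc (u ∘ p) a) (hb : Inc (u ∘ q) b) :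
    Inc (u ∘ p.trans q) (a + b) := by
  obtain ⟨L, h1, rfl⟩ := ha
  obtain ⟨L', h2, rfl⟩ := hb
  let A : Path (L 0) (L 1) := ⟨L, rfl, rfl⟩
  let B : Path (L 1) (L' 1 - L' 0 + L 1) :=
    ⟨⟨fun t => L' t - L' 0 + L 1, by fun_prop⟩, by simp, rfl⟩
  have h3 : Complex.exp (L 1) = Complex.exp (L' 0) := by rw [h1, h2]; simp
  refine ⟨(A.trans B).toContinuousMap, fun t => ?_, ?_⟩
  · show Complex.exp ((A.trans B) t) = u ((p.trans q) t)
    rw [Path.trans_apply, Path.trans_apply]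
    split_ifs
    · exact h1 _
    · show Complex.exp (L' _ - L' 0 + L 1) = _
      rw [Complex.exp_add, Complex.exp_sub, h3, div_mul_cancel₀ _ (Complex.exp_ne_zero _)]
      exact h2 _
  · show (A.trans B) 1 - (A.trans B) 0 = _
    rw [Path.source, Path.target]; ring

theorem Inc.symm {Y : Type*} [TopologicalSpace Y] {u : Y → ℂ} {x y : Y} {p : Path x y}
    {a : ℂ} (ha : Inc (u ∘ p) a) : Inc (u ∘ p.symm) (-a) := by
  obtain ⟨L, h1, rfl⟩ := ha
  refine ⟨⟨fun t => L (unitInterval.symm t), L.continuous.comp unitInterval.continuous_symm⟩,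
    fun t => h1 _, ?_⟩
  show L (unitInterval.symm 1) - L (unitInterval.symm 0) = _
  simp

theorem Inc.homotopy {F : unitInterval × unitInterval → ℂ} (hF : Continuous F) (h0 : ∀ s, F s ≠ 0)
    (h1 : ∀ s, F (s, 0) = F (0, 0)) (h2 : ∀ s, F (s, 1) = F (0, 1)) {a : ℂ}
    (ha : Inc (fun t => F (0, t)) a) : Inc (fun t => F (1, t)) a := by
  obtain ⟨L, h3, rfl⟩ := ha
  let H : C(unitInterval × unitInterval, {z : ℂ // z ≠ 0}) := ⟨fun s => ⟨F s, h0 s⟩, hF.subtype_mk _⟩
  have H0 : ∀ t, H (0, t) = ⟨Complex.exp (L t), Complex.exp_ne_zero _⟩ :=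
    fun t => Subtype.ext (h3 t).symm
  let G := Complex.isCoveringMap_exp.liftHomotopy H L H0
  have G1 : ∀ s, Complex.exp (G s) = F s := fun s =>
    congrArg Subtype.val (congrFun (Complex.isCoveringMap_exp.liftHomotopy_lifts H L H0) s)
  have G0 : ∀ t, G (0, t) = L t := Complex.isCoveringMap_exp.liftHomotopy_zero H L H0
  have key : ∀ t, (∀ s, F (s, t) = F (0, t)) → G (1, t) = L t := fun t h => by
    have h4 := log_diff (L := fun s => G (s, t)) (L' := fun _ => G (0, t)) (by fun_prop)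
      continuous_const (fun s => by rw [G1, G1, h]) 0 1
    rw [← G0]
    linear_combination h4
  refine ⟨⟨fun t => G (1, t), by fun_prop⟩, fun t => G1 _, ?_⟩
  show G (1, 1) - G (1, 0) = _
  rw [key 1 h2, key 0 h1]

namespace HopfA

lemma inc_mul {f g : unitInterval → ℂ} {a b : ℂ} (ha : Inc f a) (hb : Inc g b) :
    Inc (fun t => f t * g t) (a + b) := by
  obtain ⟨L, h1, rfl⟩ := ha
  obtain ⟨L', h2, rfl⟩ := hb
  refine ⟨L + L', fun t => ?_, ?_⟩
  · rw [ContinuousMap.add_apply, Complex.exp_add, h1, h2]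
  · simp only [ContinuousMap.add_apply]; ring

lemma inc_circ : Inc (fun t => circ t) (2 * Real.pi * Complex.I) :=
  ⟨⟨fun t => 2 * Real.pi * Complex.I * (t : ℝ), by fun_prop⟩, fun _ => rfl, by simp⟩

lemma inc_disc {l : ℂ → ℂ} (hl : Continuous l) (h0 : ∀ z, ‖z‖ ≤ 1 → l z ≠ 0) :
    Inc (fun t => l (circ t)) 0 := by
  have hb : ∀ s t : unitInterval, ‖((1 - (s : ℝ) : ℝ) : ℂ) + ((s : ℝ) : ℂ) * circ t‖ ≤ 1 := by
    intro s t
    refine (norm_add_le _ _).trans ?_
    rw [norm_mul, norm_circ, Complex.norm_real, Complex.norm_real, Real.norm_of_nonneg s.2.1,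
      Real.norm_of_nonneg (sub_nonneg.2 s.2.2)]
    linarith
  have h := Inc.homotopy
    (F := fun q => l (((1 - (q.1 : ℝ) : ℝ) : ℂ) + ((q.1 : ℝ) : ℂ) * circ q.2))
    (hl.comp (by have := circ.continuous; fun_prop)) (fun q => h0 _ (hb q.1 q.2))
    (fun s => by simp) (fun s => by simp) (a := 0)
    ⟨ContinuousMap.const _ (Complex.log (l 1)), fun t => by
      simpa using Complex.exp_log (h0 1 (by simp)), by simp⟩
  simpa using h

/-- cutoff -/
noncomputable def mm (z : ℂ) : ℂ := ((max 0 (1 - 2 * ‖z‖) : ℝ) : ℂ)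

/-- squared length of `(z, mm z)` -/
noncomputable def NN (z : ℂ) : ℂ := (starRingEnd ℂ) z * z + mm z * mm z

lemma mm_cont : Continuous mm := by unfold mm; fun_prop

lemma NN_cont : Continuous NN := by
  have := mm_cont
  unfold NN; fun_prop

lemma NN_ne (z : ℂ) : NN z ≠ 0 := by
  unfold NN mm
  rw [Complex.conj_mul']
  have h : 0 < ‖z‖ ^ 2 + max 0 (1 - 2 * ‖z‖) * max 0 (1 - 2 * ‖z‖) := by
    rcases (norm_nonneg z).eq_or_lt with h | h
    · rw [← h]; norm_num
    · positivity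
  exact_mod_cast h.ne'

lemma mm_zero {z : ℂ} (h : 1 / 2 ≤ ‖z‖) : mm z = 0 := by
  unfold mm
  rw [max_eq_left (by linarith)]; simp

/-- the dual vector -/
noncomputable def ll (z : ℂ) (v : ℂ × ℂ) : ℂ := ((starRingEnd ℂ) z * v.1 + mm z * v.2) / NN z

/-- the projection onto the first coordinate -/
noncomputable def e11 : (ℂ × ℂ) →L[ℂ] (ℂ × ℂ) :=
  (ContinuousLinearMap.inl ℂ ℂ ℂ).comp (ContinuousLinearMap.fst ℂ ℂ ℂ)

/-- the projection onto the line of `(z, mm z)` -/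
noncomputable def pr (z : ℂ) : (ℂ × ℂ) →L[ℂ] (ℂ × ℂ) :=
  ((starRingEnd ℂ) z * z / NN z) • e11 +
  (mm z * z / NN z) • (ContinuousLinearMap.inl ℂ ℂ ℂ).comp (ContinuousLinearMap.snd ℂ ℂ ℂ) +
  ((starRingEnd ℂ) z * mm z / NN z) •
    (ContinuousLinearMap.inr ℂ ℂ ℂ).comp (ContinuousLinearMap.fst ℂ ℂ ℂ) +
  (mm z * mm z / NN z) • (ContinuousLinearMap.inr ℂ ℂ ℂ).comp (ContinuousLinearMap.snd ℂ ℂ ℂ)

lemma e11_apply (v : ℂ × ℂ) : e11 v = (v.1, 0) := rfl

lemma pr_apply (z : ℂ) (v : ℂ × ℂ) : pr z v = (ll z v * z, ll z v * mm z) := by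
  refine Prod.ext ?_ ?_ <;> simp [pr, ll, e11] <;> ring

lemma pr_cont : Continuous pr := by
  have h1 := mm_cont
  have h2 := NN_cont
  have h3 := NN_ne
  unfold pr
  fun_prop (disch := exact h3)

lemma pr_idem (z : ℂ) (v : ℂ × ℂ) : pr z (pr z v) = pr z v := by
  have h : ll z (ll z v * z, ll z v * mm z) = ll z v := by
    have h1 := NN_ne z
    rw [ll, div_eq_iff h1, NN]; ring
  rw [pr_apply z v, pr_apply, h]

lemma pr_out {z : ℂ} (h : 1 / 2 ≤ ‖z‖) : pr z = e11 := by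
  have h1 := NN_ne z
  have h2 : (starRingEnd ℂ) z * z / NN z = 1 := by
    rw [div_eq_one_iff_eq h1, NN, mm_zero h]; ring
  refine ContinuousLinearMap.ext fun v => ?_
  have h3 : ll z v * z = v.1 := by
    rw [ll, mm_zero h]
    linear_combination v.1 * h2
  rw [pr_apply, e11_apply, h3, mm_zero h, mul_zero]

/-- a continuous family of idempotents on a contractible space has a section over a compact set -/
lemma exists_section {E V : Type*} [TopologicalSpace E] [ContractibleSpace E]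
    [NormedAddCommGroup V] [NormedSpace ℂ V] (P : E → V →L[ℂ] V) (hP : Continuous P)
    (h1 : ∀ y v, P y (P y v) = P y v) (h2 : ∀ y, ∃ v, P y v ≠ 0) (Q : Set E) (hQ : IsCompact Q) :
    ∃ ξ : E → V, Continuous ξ ∧ (∀ y, P y (ξ y) = ξ y) ∧ ∀ y ∈ Q, ξ y ≠ 0 := by
  obtain ⟨y0, ⟨H⟩⟩ := id_nullhomotopic E
  have : CompactSpace Q := isCompact_iff_compactSpace.1 hQ
  let Φ0 : C(unitInterval × Q, V →L[ℂ] V) :=
    ⟨fun q => P (H (q.1, q.2.1)), hP.comp (H.continuous.comp (by fun_prop))⟩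
  let Φ := Φ0.curry
  let S : Set unitInterval := {t | ∃ ξ : E → V, Continuous ξ ∧ (∀ y, P (H (t, y)) (ξ y) = ξ y) ∧
    ∀ y ∈ Q, ξ y ≠ 0}
  have step : ∀ t t', dist (Φ t) (Φ t') < 1 → t ∈ S → t' ∈ S := by
    rintro t t' hd ⟨ξ, c1, c2, c3⟩
    refine ⟨fun y => P (H (t', y)) (ξ y),
      (hP.comp (H.continuous.comp (by fun_prop))).clm_apply c1, fun y => h1 _ _,
      fun y hy e => ?_⟩
    have h3 : ‖P (H (t, y)) - P (H (t', y))‖ < 1 := by
      have h4 := (ContinuousMap.dist_apply_le_dist (f := Φ t) (g := Φ t') ⟨y, hy⟩).trans_lt hd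
      rw [dist_eq_norm] at h4
      exact h4
    have h4 := (P (H (t, y)) - P (H (t', y))).le_opNorm (ξ y)
    have e' : P (H (t', y)) (ξ y) = 0 := e
    rw [sub_apply, c2, e', sub_zero] at h4
    have h5 := norm_pos_iff.2 (c3 y hy)
    nlinarith
  have nb : ∀ t, {t' | dist (Φ t') (Φ t) < 1} ∈ 𝓝 t := fun t =>
    (isOpen_lt (Φ.continuous.dist continuous_const) continuous_const).mem_nhds (by simp)
  have hS : IsClopen S := by
    refine ⟨isOpen_compl_iff.1 (isOpen_iff_mem_nhds.2 fun t ht => ?_),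
      isOpen_iff_mem_nhds.2 fun t ht => ?_⟩
    · exact mem_of_superset (nb t) fun t' h h' => ht (step t' t h h')
    · exact mem_of_superset (nb t) fun t' h => step t t' (by rw [dist_comm]; exact h) ht
  obtain ⟨v, hv⟩ := h2 y0
  have s1 : (1 : unitInterval) ∈ S :=
    ⟨fun _ => P y0 v, continuous_const, fun y => by rw [H.apply_one]; exact h1 _ _,
      fun _ _ => hv⟩
  have s0 : (0 : unitInterval) ∈ S := by rw [hS.eq_univ ⟨1, s1⟩]; trivial
  obtain ⟨ξ, c1, c2, c3⟩ := s0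
  exact ⟨ξ, c1, fun y => by simpa using c2 y, c3⟩

lemma t2_cover {X E : Type*} [TopologicalSpace X] [TopologicalSpace E] [T2Space X] {p : E → X}
    (hp : IsCoveringMap p) : T2Space E := by
  refine ⟨fun y y' hne => ?_⟩
  by_cases h : p y = p y'
  · exact hp.isSeparatedMap y y' h hne
  · exact separated_by_continuous hp.continuous h

variable {X : Type*} [TopologicalSpace X] (K : Cx X)

lemma open_cell (c0 : K.C) {U : Set ℂ} (hU : IsOpen U) (h1 : U ⊆ Metric.ball 0 1) :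
    IsOpen (K.dc c0 '' U) := by
  have hn : ∀ z ∈ U, ‖z‖ < 1 := fun z hz => by simpa using h1 hz
  rw [← isClosed_compl_iff]
  refine K.closed2 _ ?_ fun c => ?_
  · have e : (K.dc c0 '' U)ᶜ ∩ K.X1 = K.X1 := by
      refine inter_eq_right.2 ?_
      rintro _ h ⟨z, hz, rfl⟩
      exact K.dc_not c0 z (hn z hz) h
    rw [e]
    refine K.closed1 _ subset_rfl fun e => ?_
    rw [eq_univ_of_forall (s := K.ed e ⁻¹' K.X1) (K.ed_mem e)]
    exact isClosed_univ
  · have key : ∀ z z', ‖z‖ ≤ 1 → z' ∈ U → K.dc c0 z' = K.dc c z → c0 = c ∧ z' = z := by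
      intro z z' hz hz' e
      refine K.dc_inj _ _ _ _ (hn z' hz') (lt_of_le_of_ne hz fun h => ?_) e
      exact K.dc_not c0 z' (hn z' hz') (e ▸ K.dc_bd c z h)
    by_cases hc : c0 = c
    · subst hc
      have e : K.dc c0 ⁻¹' (K.dc c0 '' U)ᶜ ∩ Metric.closedBall 0 1 =
          Uᶜ ∩ Metric.closedBall 0 1 := by
        ext z
        refine and_congr_left fun hz => ⟨fun h h' => h ⟨z, h', rfl⟩, ?_⟩
        rintro h ⟨z', h', e⟩
        exact h ((key z z' (by simpa using hz) h' e).2 ▸ h')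
      rw [e]
      exact hU.isClosed_compl.inter Metric.isClosed_closedBall
    · have e : K.dc c ⁻¹' (K.dc c0 '' U)ᶜ ∩ Metric.closedBall 0 1 = Metric.closedBall 0 1 := by
        refine inter_eq_right.2 ?_
        rintro z hz ⟨z', h', e⟩
        exact hc (key z z' (by simpa using hz) h' e).1
      rw [e]
      exact Metric.isClosed_closedBall

lemma nhds_le {E : Type*} [TopologicalSpace E] {p : E → X} (hp : IsCoveringMap p) (c0 : K.C)
    (F0 : C(ℂ, E)) (h0 : p ∘ F0 = K.dc c0) {z : ℂ} (hz : ‖z‖ < 1) {S : Set ℂ} (hS : S ∈ 𝓝 z) :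
    F0 '' S ∈ 𝓝 (F0 z) := by
  obtain ⟨W, w1, w2, w3⟩ := hp.isLocalHomeomorph.isLocallyInjective (F0 z)
  obtain ⟨U, u1, u2, u3⟩ := mem_nhds_iff.1 hS
  have hU : IsOpen (U ∩ (F0 ⁻¹' W ∩ Metric.ball 0 1)) :=
    u2.inter ((w1.preimage F0.continuous).inter Metric.isOpen_ball)
  have h1 := (open_cell K c0 hU fun _ h => h.2.2).preimage hp.continuous
  have e : ∀ z, p (F0 z) = K.dc c0 z := congrFun h0
  refine mem_of_superset ((w1.inter h1).mem_nhds ⟨w2, z, ⟨u3, w2, by simpa using hz⟩, (e z).symm⟩) ?_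
  rintro w ⟨h2, z', h3, h4⟩
  exact ⟨z', u1 h3.1, w3 h3.2.1 h2 ((e z').trans h4)⟩

end HopfA

/-- a function detecting one lifted disc -/
theorem Cx.exists_detect {X E : Type*} [TopologicalSpace X] [TopologicalSpace E] [T2Space X]
    [ContractibleSpace E] (K : Cx X) {p : E → X} (hp : IsCoveringMap p) (c0 : K.C)
    (F0 : C(ℂ, E)) (h0 : p ∘ F0 = K.dc c0) (Q : Set E) (hQ : IsCompact Q) :
    ∃ u : E → ℂ, Continuous u ∧ (∀ y ∈ Q, p y ∈ K.X1 → u y ≠ 0) ∧
      (F0 '' Metric.closedBall 0 1 ⊆ Q →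
        Inc (fun t => u (F0 (circ t))) (2 * Real.pi * Complex.I)) ∧
      ∀ (c : K.C) (F : C(ℂ, E)), p ∘ F = K.dc c → F 0 ≠ F0 0 → F '' Metric.closedBall 0 1 ⊆ Q →
        Inc (fun t => u (F (circ t))) 0 := by
  classical
  have := t2_cover hp
  have e0 : ∀ z, p (F0 z) = K.dc c0 z := congrFun h0
  let P : E → (ℂ × ℂ) →L[ℂ] (ℂ × ℂ) := fun y =>
    if h : ∃ z, ‖z‖ < 1 ∧ F0 z = y then pr h.choose else e11
  have Pin : ∀ z, ‖z‖ < 1 → P (F0 z) = pr z := fun z hz => by
    have h : ∃ z', ‖z'‖ < 1 ∧ F0 z' = F0 z := ⟨z, hz, rfl⟩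
    have h1 := h.choose_spec
    have h2 := (K.dc_inj c0 c0 _ _ h1.1 hz (by rw [← e0, ← e0, h1.2])).2
    show dite _ _ _ = _
    rw [dif_pos h, h2]
  have Pout : ∀ y, (¬ ∃ z, ‖z‖ < 1 ∧ F0 z = y) → P y = e11 := fun y h => dif_neg h
  have Pout' : ∀ y ∉ F0 '' Metric.closedBall 0 (1 / 2), P y = e11 := fun y h => by
    by_cases h1 : ∃ z, ‖z‖ < 1 ∧ F0 z = y
    · obtain ⟨z, hz, rfl⟩ := h1
      rw [Pin z hz, pr_out]
      by_contra h2
      exact h ⟨z, by simpa using (not_le.1 h2).le, rfl⟩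
    · exact Pout y h1
  have hX1 : ∀ y, p y ∈ K.X1 → ¬ ∃ z, ‖z‖ < 1 ∧ F0 z = y := by
    rintro _ h ⟨z, hz, rfl⟩
    exact K.dc_not c0 z hz (e0 z ▸ h)
  have Pc : Continuous P := by
    refine continuous_iff_continuousAt.2 fun y => ?_
    by_cases h1 : ∃ z, ‖z‖ < 1 ∧ F0 z = y
    · obtain ⟨z, hz, rfl⟩ := h1
      intro T hT
      rw [Pin z hz] at hT
      have h2 : pr ⁻¹' T ∩ Metric.ball 0 1 ∈ 𝓝 z :=
        inter_mem (pr_cont.continuousAt hT) (Metric.isOpen_ball.mem_nhds (by simpa using hz))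
      refine mem_map.2 (mem_of_superset (nhds_le K hp c0 F0 h0 hz h2) ?_)
      rintro _ ⟨z', h3, rfl⟩
      show P (F0 z') ∈ T
      rw [Pin z' (by simpa using h3.2)]
      exact h3.1
    · have h2 : IsClosed (F0 '' Metric.closedBall 0 (1 / 2)) :=
        ((isCompact_closedBall _ _).image F0.continuous).isClosed
      have h3 : y ∉ F0 '' Metric.closedBall 0 (1 / 2) := by
        rintro ⟨z, hz, rfl⟩
        refine h1 ⟨z, ?_, rfl⟩
        have : ‖z‖ ≤ 1 / 2 := by simpa using hz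
        linarith
      refine (continuousAt_const (y := e11)).congr ?_
      filter_upwards [h2.isOpen_compl.mem_nhds h3] with y' hy'
      exact (Pout' y' hy').symm
  have Pcase : ∀ y, ∃ z, P y = pr z := fun y => by
    by_cases h1 : ∃ z, ‖z‖ < 1 ∧ F0 z = y
    · obtain ⟨z, hz, rfl⟩ := h1
      exact ⟨z, Pin z hz⟩
    · exact ⟨1, by rw [Pout y h1, pr_out (by norm_num)]⟩
  obtain ⟨ξ, c1, c2, c3⟩ := exists_section P Pc
    (fun y v => by obtain ⟨z, hz⟩ := Pcase y; rw [hz, pr_idem])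
    (fun y => by
      obtain ⟨z, hz⟩ := Pcase y
      refine ⟨(z, mm z), fun e => NN_ne z ?_⟩
      have h1 : ll z (z, mm z) = 1 := div_self (NN_ne z)
      rw [hz, pr_apply, h1, one_mul, one_mul, Prod.mk_eq_zero] at e
      rw [NN, e.2, e.1]; simp) Q hQ
  have uout : ∀ y ∈ Q, (¬ ∃ z, ‖z‖ < 1 ∧ F0 z = y) → (ξ y).1 ≠ 0 := fun y hy h e => by
    refine c3 y hy ?_
    rw [← c2 y, Pout y h, e11_apply, e]; rfl
  refine ⟨fun y => (ξ y).1, c1.fst, fun y hy h => uout y hy (hX1 y h), fun hsub => ?_,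
    fun c F hF hne hsub => ?_⟩
  · have Pcl : ∀ z, ‖z‖ ≤ 1 → ξ (F0 z) = (ll z (ξ (F0 z)) * z, ll z (ξ (F0 z)) * mm z) := by
      intro z hz
      rw [← pr_apply]
      rcases hz.lt_or_eq with h | h
      · rw [← Pin z h, c2]
      · rw [pr_out (by linarith), ← Pout _ (hX1 _ (e0 z ▸ K.dc_bd c0 z h)), c2]
    have lc : Continuous fun z => ll z (ξ (F0 z)) := by
      have h1 := mm_cont
      have h2 := NN_cont
      have h3 := NN_ne
      have h4 := F0.continuous
      unfold ll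
      fun_prop (disch := exact h3)
    have h1 := inc_mul (inc_disc lc fun z hz e => c3 _ (hsub ⟨z, by simpa using hz, rfl⟩) (by
      rw [Pcl z hz, e]; simp)) inc_circ
    rw [zero_add] at h1
    have e : (fun t => (ξ (F0 (circ t))).1) = fun t => ll (circ t) (ξ (F0 (circ t))) * circ t :=
      funext fun t => congrArg Prod.fst (Pcl _ (norm_circ t).le)
    rw [e]; exact h1
  · have e1 : ∀ z, p (F z) = K.dc c z := congrFun hF
    refine inc_disc (l := fun z => (ξ (F z)).1) (c1.fst.comp F.continuous) fun z hz =>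
      uout _ (hsub ⟨z, by simpa using hz, rfl⟩) ?_
    rintro ⟨z', hz', e⟩
    have h1 : K.dc c0 z' = K.dc c z := by rw [← e0, ← e1, e]
    obtain ⟨rfl, rfl⟩ := K.dc_inj _ _ _ _ hz' (lt_of_le_of_ne hz fun h =>
      K.dc_not c0 z' hz' (h1 ▸ K.dc_bd c z h)) h1
    exact hne (congrFun (hp.eq_of_comp_eq F.continuous F0.continuous (hF.trans h0.symm) z'
      e.symm) 0)

end Vale.Agent.P173
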