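import Vale.Agent.P173.Sig

set_option linter.unusedSectionVars false

namespace Vale.Agent.P173

open Quaternion Filter Asymptotics

variable {Γ E T : Type} [Group Γ] (D : Tri Γ E T)

theorem exists_tree (A : Finset (Γ × E)) : ∃ T0 : Set (Γ × E),
    LinearIndepOn ℤ (fun p => D.d1 (Finsupp.single p 1)) T0 ∧ T0 ⊆ A ∧ ∀ (X : Type) (φ : Γ → X),
      (∀ p ∈ T0, φ (p.1 * D.g p.2) = φ p.1) → ∀ p ∈ A, φ (p.1 * D.g p.2) = φ p.1 := by
  classical
  obtain ⟨s, h1, h2⟩ := exists_maximal_linearIndepOn ℤ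
    ((fun p => D.d1 (Finsupp.single p 1)) ∘ (Subtype.val : A → Γ × E))
  refine ⟨Subtype.val '' s, h1.image_of_comp _ _, by rintro _ ⟨p, -, rfl⟩; exact p.2,
    fun X φ hφ p hp => ?_⟩
  by_contra hne
  obtain ⟨n, hn, h3⟩ := h2 ⟨p, hp⟩ fun h => hne (hφ p ⟨_, h, rfl⟩)
  let L : (Γ →₀ ℤ) →ₗ[ℤ] ℤ := Finsupp.linearCombination ℤ fun γ => if φ γ = φ p.1 then 1 else 0
  have : Submodule.span ℤ (((fun p => D.d1 (Finsupp.single p 1)) ∘ (Subtype.val : A → Γ × E)) '' s)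
      ≤ LinearMap.ker L := by
    rw [Submodule.span_le]
    rintro _ ⟨e, he, rfl⟩
    simp [L, Tri.d1, hφ e ⟨_, he, rfl⟩]
  simpa [L, Tri.d1, hne, hn] using this h3

/-- linearised curvature -/
noncomputable def tv (u : Γ × E → ℍ[ℝ]) (p : Γ × T) : ℍ[ℝ] :=
  u (p.1, D.a p.2) + u (p.1 * D.g (D.a p.2), D.b p.2) - u (p.1, D.c p.2)

theorem exists_lower (A : Finset (Γ × E)) (B : Finset (Γ × T)) (T0 : Set (Γ × E)) (hT : T0 ⊆ A)
    (hB : ∀ p ∈ B, (p.1, D.a p.2) ∈ A ∧ (p.1 * D.g (D.a p.2), D.b p.2) ∈ A ∧ (p.1, D.c p.2) ∈ A)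
    (h1 : ∀ w : Γ × E → ℝ, (∀ p ∈ B, w (p.1, D.a p.2) + w (p.1 * D.g (D.a p.2), D.b p.2) =
      w (p.1, D.c p.2)) → ∃ φ : Γ → ℝ, ∀ p ∈ A, w p = φ (p.1 * D.g p.2) - φ p.1)
    (h2 : ∀ φ : Γ → ℝ,
      (∀ p ∈ T0, φ (p.1 * D.g p.2) = φ p.1) → ∀ p ∈ A, φ (p.1 * D.g p.2) = φ p.1) :
    ∃ C > (0 : ℝ), ∀ u : Γ × E → ℍ[ℝ], (∀ p ∈ T0, u p = 0) →
      ‖fun p : A => u p‖ ≤ C * ‖fun p : B => tv D u p‖ := by
  classical
  let L : (A → ℍ[ℝ]) →ₗ[ℝ] (B → ℍ[ℝ]) × (A → ℍ[ℝ]) :=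
    { toFun u := (fun p => u ⟨_, (hB _ p.2).1⟩ + u ⟨_, (hB _ p.2).2.1⟩ - u ⟨_, (hB _ p.2).2.2⟩,
        fun p => if p.1 ∈ T0 then u p else 0)
      map_add' u v := by
        refine Prod.ext (funext fun p => ?_) (funext fun p => ?_)
        · simp only [Pi.add_apply, Prod.fst_add]; abel
        · simp only [Pi.add_apply, Prod.snd_add]; split_ifs <;> simp
      map_smul' c u := by
        refine Prod.ext (funext fun p => ?_) (funext fun p => ?_) <;> simp [smul_sub] }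
  have hL : LinearMap.ker L = ⊥ := by
    refine LinearMap.ker_eq_bot'.2 fun u hu => ?_
    have key : ∀ l : ℍ[ℝ] →+ ℝ, ∀ p, l (u p) = 0 := fun l p => by
      obtain ⟨φ, hφ⟩ := h1 (fun p => if h : p ∈ A then l (u ⟨p, h⟩) else 0) fun p hp => by
        obtain ⟨b1, b2, b3⟩ := hB p hp
        have := congrArg l (congrFun (congrArg Prod.fst hu) ⟨p, hp⟩)
        simpa [L, b1, b2, b3, sub_eq_zero] using this
      have := h2 φ (fun p hp => by
        have h3 := hφ p (hT hp)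
        have h4 := congrFun (congrArg Prod.snd hu) ⟨p, hT hp⟩
        simp only [L, LinearMap.coe_mk, AddHom.coe_mk, hp, if_true, Prod.snd_zero,
          Pi.zero_apply] at h4
        rw [dif_pos (show p ∈ A from hT hp), h4, map_zero] at h3
        linarith) p p.2
      simpa [this] using hφ p p.2
    funext p
    ext
    · exact key (QuaternionAlgebra.reₗ _ _ _).toAddMonoidHom p
    · exact key (QuaternionAlgebra.imIₗ _ _ _).toAddMonoidHom p
    · exact key (QuaternionAlgebra.imJₗ _ _ _).toAddMonoidHom p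
    · exact key (QuaternionAlgebra.imKₗ _ _ _).toAddMonoidHom p
  obtain ⟨C, hC, h⟩ := L.exists_antilipschitzWith hL
  refine ⟨C, hC, fun u hu => (ZeroHomClass.bound_of_antilipschitz L h _).trans_eq ?_⟩
  have : L (fun p : A => u p) = (fun p : B => tv D u p, 0) :=
    Prod.ext rfl (funext fun p => by by_cases h : p.1 ∈ T0 <;> simp [L, h, hu])
  rw [this]
  simp [Prod.norm_def]

theorem taylor : ∃ C > (0 : ℝ), ∀ (x y z : ℍ[ℝ]) (m : ℝ), x.re = 0 → y.re = 0 → z.re = 0 →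
    ‖x‖ ≤ m → ‖y‖ ≤ m → ‖z‖ ≤ m → m ≤ 1 →
    ‖((nrm (1 + x) * nrm (1 + y) * (nrm (1 + z))⁻¹ : U) : ℍ[ℝ]) - 1 - (x + y - z)‖ ≤ C * m ^ 2 := by
  let F : Filter ((Fin 3 → ℍ[ℝ]) × ℝ) := 𝓟 {s | |s.2| ≤ 1 ∧ ∀ i, (s.1 i).re = 0 ∧ ‖s.1 i‖ ≤ |s.2|}
  have h : ∀ i, App F Prod.snd (fun s => nrm (1 + s.1 i)) fun s => s.1 i := fun i =>
    app_nrm (.of_bound' fun s hs => by simpa using hs.1) (.of_bound' fun s hs => (hs.2 i).2)
      fun s hs => (hs.2 i).1
  obtain ⟨C, hC, h'⟩ := (((h 0).mul (h 1)).mul (h 2).inv).h2.exists_pos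
  refine ⟨C, hC, fun x y z m h1 h2 h3 h4 h5 h6 h7 => ?_⟩
  have h0 := abs_of_nonneg ((norm_nonneg _).trans h4)
  have := eventually_principal.1 h'.bound (![x, y, z], m) ⟨by simpa [h0], fun i => by
    fin_cases i <;> simp [*]⟩
  simpa [sq, sub_eq_add_neg] using this

/-- gnomonic coordinate -/
noncomputable def gn (b : U) : ℍ[ℝ] := (max (b : ℍ[ℝ]).re (1 / 2))⁻¹ • (b : ℍ[ℝ]).im

theorem gn_re (b : U) : (gn b).re = 0 := by simp [gn]

theorem cont_gn : Continuous gn :=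
  (((continuous_re.comp continuous_subtype_val).max continuous_const).inv₀ fun _ =>
    (lt_max_of_lt_right one_half_pos).ne').smul (continuous_im.comp continuous_subtype_val)

theorem half_le_re {b : U} (h : ‖(b : ℍ[ℝ]) - 1‖ ≤ 1 / 2) : 1 / 2 ≤ (b : ℍ[ℝ]).re := by
  have : ((b : ℍ[ℝ]) - 1).re ^ 2 ≤ ‖(b : ℍ[ℝ]) - 1‖ ^ 2 := by
    rw [sq ‖_‖, ← normSq_eq_norm_mul_self, normSq_def']
    nlinarith [sq_nonneg ((b : ℍ[ℝ]) - 1).imI, sq_nonneg ((b : ℍ[ℝ]) - 1).imJ,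
      sq_nonneg ((b : ℍ[ℝ]) - 1).imK]
  have := (abs_le_of_sq_le_sq' this (norm_nonneg _)).1
  simp only [re_sub, re_one] at this
  linarith

theorem nrm_gn {b : U} (h : ‖(b : ℍ[ℝ]) - 1‖ ≤ 1 / 2) (μ : ℝ) :
    nrm (b - (1 - μ) • (b : ℍ[ℝ]).im) = nrm (1 + μ • gn b) := by
  have h1 := half_le_re h
  have h2 : 0 < (b : ℍ[ℝ]).re := by linarith
  rw [← nrm_smul h2 (1 + _), gn, max_eq_left h1]
  congr 1
  ext <;> simp <;> field_simp <;> ring

theorem norm_gn_le (b : U) : ‖gn b‖ ≤ 2 * ‖(b : ℍ[ℝ]) - 1‖ := by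
  have h1 : ‖(b : ℍ[ℝ]).im‖ ≤ ‖(b : ℍ[ℝ]) - 1‖ := by
    refine abs_le_of_sq_le_sq' ?_ (norm_nonneg _) |>.2
    rw [sq ‖_‖, sq ‖_‖, ← normSq_eq_norm_mul_self, ← normSq_eq_norm_mul_self, normSq_def',
      normSq_def']
    simp
    nlinarith [sq_nonneg ((b : ℍ[ℝ]).re - 1)]
  rw [gn, norm_smul, norm_inv, Real.norm_of_nonneg (le_max_of_le_right one_half_pos.le)]
  refine mul_le_mul ?_ h1 (norm_nonneg _) zero_le_two
  exact inv_le_of_inv_le₀ two_pos (le_max_of_le_right (by norm_num))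

theorem le_norm_gn {b : U} (h : ‖(b : ℍ[ℝ]) - 1‖ ≤ 1 / 2) : ‖(b : ℍ[ℝ]) - 1‖ ≤ 2 * ‖gn b‖ := by
  have h1 := nrm_app (gn_re b)
  have h2 := nrm_gn h 1
  simp only [sub_self, zero_smul, sub_zero, nrm_U, one_smul] at h2
  rw [← h2] at h1
  have h3 := norm_le_norm_add_norm_sub' ((b : ℍ[ℝ]) - 1) (gn b)
  nlinarith [norm_gn_le b, norm_nonneg (gn b)]

open Classical in
theorem top (hS : D.Scale) {K : ℝ} (hK : 0 ≤ K) :
    ∃ (A : Finset (Γ × E)) (B : Finset (Γ × T)) (T0 : Set (Γ × E))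
      (Ψ : ℝ × (Γ × E → U) → (Γ × T → ℍ[ℝ]) × (Γ × E → U)),
      (∀ p ∈ B, (p.1, D.a p.2) ∈ A ∧ (p.1 * D.g (D.a p.2), D.b p.2) ∈ A ∧ (p.1, D.c p.2) ∈ A) ∧
      LinearIndepOn ℤ (fun p => D.d1 (Finsupp.single p 1)) T0 ∧ Continuous Ψ ∧
      (∀ s p, ((Ψ s).1 p).re = 0) ∧ (∀ a, (Ψ (0, a)).1 = 0) ∧
      (∀ a, ∀ p ∈ A, (Ψ (0, a)).2 p = if p ∈ T0 then 1 else a p) ∧
      ∀ a, ¬ Good D K A B (Ψ (1, a)).1 (Ψ (1, a)).2 := by
  obtain ⟨δ, hδ, hδ1, hKδ⟩ : ∃ δ > (0 : ℝ), δ ≤ 1 ∧ K * δ ≤ 1 / 2 := by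
    refine ⟨1 / (2 * (K + 1)), by positivity, ?_, ?_⟩
    · rw [div_le_one (by positivity)]; linarith
    · rw [mul_one_div, div_le_div_iff₀ (by positivity) two_pos]; linarith
  obtain ⟨A, B, α, hB, hH, hα, hα0, hε, hfl, hng⟩ := hS (δ / 4) (by positivity)
  obtain ⟨T0, hT, hTA, hT'⟩ := exists_tree D A
  obtain ⟨L, hL, hL'⟩ := exists_lower D A B T0 hTA hB hH (hT' ℝ)
  obtain ⟨C, hC, hC'⟩ := taylor
  obtain ⟨ρ0, hρ, hρ1, hρ2⟩ : ∃ ρ0 > (0 : ℝ), ρ0 ≤ 1 / 4 ∧ C * L * ρ0 ≤ 1 / 8 := by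
    refine ⟨min (1 / 4) (1 / (8 * (C * L))), by positivity, min_le_left _ _, ?_⟩
    refine (mul_le_mul_of_nonneg_left (min_le_right _ _) (by positivity)).trans_eq ?_
    field_simp
  obtain ⟨ab, hab⟩ : ∃ ab : (Γ × E → U) → Γ × E → U,
    ab = fun a p => if p ∈ A ∧ p ∉ T0 then a p else 1 := ⟨_, rfl⟩
  obtain ⟨ρ, hρe⟩ : ∃ ρ : (Γ × E → U) → ℝ, ρ = fun a => ‖fun p : A => (ab a p : ℍ[ℝ]) - 1‖ :=
    ⟨_, rfl⟩
  obtain ⟨χ, hχ⟩ : ∃ χ : (Γ × E → U) → ℝ, χ = fun a => max 0 (min 1 (2 - ρ a / ρ0)) := ⟨_, rfl⟩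
  obtain ⟨v, hv⟩ : ∃ v : (Γ × E → U) → Γ × T → ℍ[ℝ], v = fun a => tv D fun p => gn (ab a p) :=
    ⟨_, rfl⟩
  obtain ⟨N, hN⟩ : ∃ N : (Γ × E → U) → ℝ, N = fun a => ‖fun p : B => v a p‖ := ⟨_, rfl⟩
  have cab : ∀ p, Continuous fun a => ab a p := fun p => by
    rw [hab]; dsimp only; split_ifs <;> fun_prop
  have cρ : Continuous ρ := hρe ▸ (continuous_pi fun p =>
    (continuous_subtype_val.comp (cab _)).sub continuous_const).norm
  have cχ : Continuous χ := by rw [hχ]; fun_prop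
  have cv : ∀ p, Continuous fun a => v a p := fun p => by
    rw [hv]; exact ((cont_gn.comp (cab _)).add (cont_gn.comp (cab _))).sub (cont_gn.comp (cab _))
  have cN : Continuous N := hN ▸ (continuous_pi fun p => cv _).norm
  have hle : ∀ a p, ‖(ab a p : ℍ[ℝ]) - 1‖ ≤ ρ a := fun a p => by
    by_cases h : p ∈ A
    · rw [hρe]; exact norm_le_pi_norm (fun p : A => (ab a p : ℍ[ℝ]) - 1) ⟨p, h⟩
    · simp [hab, hρe, h]
  have hχ0 : ∀ a, χ a ≠ 0 → ρ a ≤ 2 * ρ0 := fun a h => by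
    by_contra h'
    refine h (by rw [hχ]; refine max_eq_left (min_le_of_right_le ?_); rw [sub_nonpos, le_div_iff₀ hρ]
                 linarith)
  have hν : 0 < ρ0 / (2 * L) := by positivity
  refine ⟨A, B, T0, fun s => (fun p => if p ∈ B then -(min (2 * (s.1 * χ s.2)) 1 * δ /
      max (N s.2) (ρ0 / (2 * L))) • v s.2 p else 0, fun p => nrm (ab s.2 p -
      (1 - max (1 - 2 * (s.1 * χ s.2)) 0) • (ab s.2 p : ℍ[ℝ]).im) *
      α (max (2 * (s.1 * χ s.2) - 1) 0) p), hB, hT, Continuous.prodMk (continuous_pi fun p => ?_)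
      (continuous_pi fun p => Continuous.mul (cont_nrm ?_ fun s => ?_) ?_), fun s p => ?_,
      fun a => ?_, fun a p hp => ?_, fun a hG => ?_⟩
  · by_cases h : p ∈ B <;> simp only [h, if_false, if_true]
    · refine Continuous.smul (Continuous.neg (Continuous.div (by fun_prop) (by fun_prop) fun s =>
        (lt_max_of_lt_right hν).ne')) ((cv p).comp continuous_snd)
    · exact continuous_const
  · have := continuous_subtype_val.comp ((cab p).comp (continuous_snd (X := ℝ)))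
    refine this.fun_sub (Continuous.fun_smul ?_ (continuous_im.comp this))
    fun_prop
  · by_cases h : χ s.2 = 0
    · simpa [h] using ne_zero_of_mem_unit_sphere _
    · intro h'
      have := half_le_re ((hle s.2 p).trans (by linarith [hχ0 _ h]))
      have h2 := congrArg (·.re) h'
      simp at h2
      linarith
  · exact (continuous_apply p).comp (hα.comp (by fun_prop))
  · dsimp only; split_ifs <;> simp [hv, tv, gn_re]
  · funext p; simp
  · by_cases h : p ∈ T0 <;> simp [hα0, hab, hp, h]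
  simp only [one_mul] at hG
  obtain ⟨G1, G2⟩ := hG
  by_cases h0 : χ a = 0
  · obtain ⟨φ, hφ⟩ := G1 (by funext p; simp [h0])
    simp only [h0, mul_zero, sub_zero, zero_le_one, sup_of_le_left, sub_self, zero_smul, nrm_U,
      zero_sub, Left.neg_nonpos_iff, sup_of_le_right, hα0, Pi.one_apply, mul_one] at hφ
    have h1 := hT' U φ fun p hp => by
      have := hφ p (hTA hp)
      simp only [hab, hp, not_true, and_false, if_false] at this
      exact (inv_mul_eq_one.1 this.symm).symm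
    have h2 : ρ a = 0 := by
      rw [hρe, norm_eq_zero]
      funext p
      simp [hφ _ p.2, h1 _ p.2]
    simp [hχ, h2] at h0
  have hb : ∀ p, ‖(ab a p : ℍ[ℝ]) - 1‖ ≤ 1 / 2 := fun p => (hle a p).trans (by linarith [hχ0 _ h0])
  simp only [nrm_gn (hb _)] at G1 G2
  obtain ⟨m, hm⟩ : ∃ m, m = ‖fun p : A => gn (ab a p)‖ := ⟨_, rfl⟩
  have m0 : 0 ≤ m := hm ▸ norm_nonneg _
  have m1 : m ≤ L * N a := by
    rw [hm, hN, hv]
    exact hL' (fun p => gn (ab a p)) fun p hp => by simp [hab, hp, gn]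
  have m2 : m ≤ 4 * ρ0 := hm ▸ (pi_norm_le_iff_of_nonneg (by positivity)).2 fun p =>
    (norm_gn_le _).trans (by linarith [hχ0 _ h0, hle a p])
  have m3 : ∀ p ∈ A, ‖gn (ab a p)‖ ≤ m := fun p hp =>
    hm ▸ norm_le_pi_norm (fun p : A => gn (ab a p)) ⟨p, hp⟩
  have m4 : ρ a ≤ 2 * m := by
    rw [hρe]
    exact (pi_norm_le_iff_of_nonneg (by positivity)).2 fun p =>
      (le_norm_gn (hb _)).trans (by linarith [m3 _ p.2])
  have c0 : 0 ≤ χ a := hχ ▸ le_max_left _ _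
  have c1 : χ a ≤ 1 := hχ ▸ max_le zero_le_one (min_le_left _ _)
  have c2 : χ a ≠ 1 → ρ0 / (2 * L) ≤ N a := fun h => by
    rw [div_le_iff₀ (by positivity)]
    by_contra h'
    refine h (by rw [hχ]; dsimp only; rw [min_eq_left, max_eq_right zero_le_one]
                 rw [le_sub_comm, div_le_iff₀ hρ]; linarith)
  have N0 : 0 ≤ N a := hN ▸ norm_nonneg _
  obtain ⟨κ, hκ⟩ : ∃ κ, κ = min (2 * χ a) 1 := ⟨_, rfl⟩
  obtain ⟨s, hs⟩ : ∃ s, s = κ * δ / max (N a) (ρ0 / (2 * L)) := ⟨_, rfl⟩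
  rw [← hκ, ← hs] at G1 G2
  have k0 : 0 ≤ κ := hκ ▸ le_min (by linarith) zero_le_one
  have k1 : κ ≤ 1 := hκ ▸ min_le_right _ _
  have s0 : 0 ≤ s := by rw [hs]; positivity
  have s1 : s * N a ≤ κ * δ := by
    rw [hs, div_mul_eq_mul_div, div_le_iff₀ (lt_max_of_lt_right hν)]
    exact mul_le_mul_of_nonneg_left (le_max_left _ _) (by positivity)
  have s2 : χ a ≠ 1 → s * N a = κ * δ := fun h => by
    rw [hs, max_eq_left (c2 h), div_mul_cancel₀ _ (hν.trans_le (c2 h)).ne']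
  have s3 : ∀ p, ‖if p ∈ B then -s • v a p else 0‖ ≤ s * N a := fun p => by
    split_ifs with h
    · rw [norm_smul, norm_neg, Real.norm_of_nonneg s0, hN]
      exact mul_le_mul_of_nonneg_left (norm_le_pi_norm (fun p : B => v a p) ⟨p, h⟩) s0
    · simpa using mul_nonneg s0 N0
  have s4 : s * N a ≤ δ := s1.trans (mul_le_of_le_one_left hδ.le k1)
  have G3 := G2 _ (s4.trans hδ1) s3
  have s5 : K * (s * N a) ^ 2 ≤ s * N a / 2 := by
    nlinarith [mul_nonneg s0 N0, mul_le_mul_of_nonneg_left s4 hK]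
  have key : ∀ μ e : ℝ, 0 ≤ μ → 0 ≤ e → (∀ p ∈ B, ∃ x : ℍ[ℝ], ‖x - μ • v a p‖ ≤ e ∧
      ‖x - -s • v a p‖ ≤ K * (s * N a) ^ 2) → (μ + s / 2) * N a ≤ e := fun μ e h1 h2 h3 => by
    have : ‖(μ + s) • fun p : B => v a p‖ ≤ e + K * (s * N a) ^ 2 :=
      (pi_norm_le_iff_of_nonneg (by positivity)).2 fun p => by
        obtain ⟨x, h4, h5⟩ := h3 p p.2
        have : (μ + s) • v a p = (x - -s • v a p) - (x - μ • v a p) := by module
        rw [Pi.smul_apply, this]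
        exact (norm_sub_le _ _).trans (by linarith)
    rw [norm_smul, Real.norm_of_nonneg (by positivity), ← show N a = _ from congrFun hN a] at this
    linarith
  rcases le_total (χ a) (1 / 2) with h | h
  · have h1 : χ a ≠ 1 := by linarith
    obtain ⟨μ, hμ⟩ : ∃ μ, μ = 1 - 2 * χ a := ⟨_, rfl⟩
    have μ0 : 0 ≤ μ := by linarith
    have μ1 : μ * m ≤ m := mul_le_of_le_one_left m0 (by linarith)
    rw [← hμ, max_eq_left μ0, max_eq_right (by linarith), hα0] at G3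
    have := key μ (C * (μ * m) ^ 2) μ0 (by positivity) fun p hp => ⟨_, ?_, by
      simpa only [hp, if_true] using G3 p hp⟩
    · have h2 := s2 h1
      rw [hκ, min_eq_left (by linarith)] at h2
      have h3 : C * (μ * m) ^ 2 ≤ μ * N a / 2 := by
        calc C * (μ * m) ^ 2 = C * μ * (m * (μ * m)) := by ring
          _ ≤ C * μ * (L * N a * (4 * ρ0)) := by have := μ1.trans m2; gcongr
          _ = 4 * (μ * N a) * (C * L * ρ0) := by ring
          _ ≤ 4 * (μ * N a) * (1 / 8) := by gcongr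
          _ = _ := by ring
      have := mul_pos (c0.lt_of_ne' h0) hδ
      nlinarith [mul_nonneg μ0 N0]
    · obtain ⟨b1, b2, b3⟩ := hB p hp
      have h4 : ∀ p ∈ A, ‖μ • gn (ab a p)‖ ≤ μ * m := fun p hp => by
        rw [norm_smul, Real.norm_of_nonneg μ0]; exact mul_le_mul_of_nonneg_left (m3 p hp) μ0
      have := hC' _ _ _ (μ * m) (by simp [gn_re]) (by simp [gn_re]) (by simp [gn_re]) (h4 _ b1)
        (h4 _ b2) (h4 _ b3) (by linarith)
      simpa only [Tri.cur, Pi.one_apply, mul_one, hv, tv, smul_add, smul_sub] using this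
  rw [max_eq_right (by linarith : 1 - 2 * χ a ≤ 0)] at G1 G3
  simp only [zero_smul, add_zero, nrm_one, one_mul] at G1 G3
  by_cases h1 : χ a = 1
  · rw [h1, show max (2 * 1 - 1 : ℝ) 0 = 1 by norm_num] at G1 G3
    have := key 0 0 le_rfl le_rfl fun p hp => ⟨0, by simp, by
      simpa [hp, hfl p hp] using G3 p hp⟩
    exact hng (G1 (funext fun p => norm_le_zero_iff.1 ((s3 p).trans (by linarith))))
  · have := key 0 (δ / 4) le_rfl (by positivity) fun p hp => ⟨_, by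
      simpa using hε (max (2 * χ a - 1) 0) p hp, by
      simpa only [hp, if_true] using G3 p hp⟩
    have h2 := s2 h1
    rw [hκ, min_eq_right (by linarith)] at h2
    linarith

end Vale.Agent.P173
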