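import Vale.Agent.P173.Solve
import Vale.Agent.P173.Top

namespace Vale.Agent.P173

theorem no_asph {Γ E T : Type} [Group Γ] [Finite T] (D : Tri Γ E T) (hE : D.Exact) (hS : D.Scale)
    {S R : Type*} (π : FreeGroup S →* Γ) (r : R → FreeGroup S) : ¬ Asph π r := fun hA => by
  obtain ⟨K, hK, h⟩ := solve hE hA
  obtain ⟨A, B, T0, Ψ, h1, h2, h3, h4, h5, h6, h7⟩ := top D hS hK
  exact (h A B T0 Ψ h1 h2 h3 h4 h5 h6).elim h7

end Vale.Agent.P173
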