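import Vale.Agent.P173.Push

namespace Vale.Agent.P173.Cx

open Set unitInterval

variable {X : Type*} [TopologicalSpace X] (K : Cx X)

theorem closed_one {S : Set K.X1} (h : ∀ e, IsClosed (K.ed1 e ⁻¹' S)) : IsClosed S := by
  have := K.closed1 (Subtype.val '' S) (Subtype.coe_image_subset _ _) fun e => by
    have : K.ed e ⁻¹' (Subtype.val '' S) = K.ed1 e ⁻¹' S := by
      ext t
      exact Subtype.val_injective.mem_set_image (a := K.ed1 e t)
    rw [this]
    exact h e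
  rw [← preimage_image_eq S Subtype.val_injective]
  exact this.preimage continuous_subtype_val

theorem open_one {S : Set K.X1} (h : ∀ e, IsOpen (K.ed1 e ⁻¹' S)) : IsOpen S :=
  isClosed_compl_iff.1 (K.closed_one fun e => (h e).isClosed_compl)

theorem cont_one {Z : Type*} [TopologicalSpace Z] {f : K.X1 → Z}
    (h : ∀ e, Continuous fun t => f (K.ed1 e t)) : Continuous f :=
  continuous_iff_isClosed.2 fun _ hs => K.closed_one fun e => hs.preimage (h e)

theorem cases_one (y : K.X1) :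
    (∃ v, K.pt1 v = y) ∨ ∃ e t, 0 < t ∧ t < 1 ∧ K.ed1 e t = y := by
  obtain ⟨y, hy⟩ := y
  have hy' := hy
  rw [K.X1_eq] at hy'
  rcases hy' with ⟨v, rfl⟩ | h
  · exact Or.inl ⟨v, rfl⟩
  · obtain ⟨e, t, rfl⟩ := mem_iUnion.1 h
    rcases eq_or_lt_of_le (nonneg' (t := t)) with rfl | h0
    · exact Or.inl ⟨K.src e, (K.ed1 e).source.symm⟩
    rcases eq_or_lt_of_le (le_one' (t := t)) with rfl | h1
    · exact Or.inl ⟨K.tgt e, (K.ed1 e).target.symm⟩
    exact Or.inr ⟨e, t, h0, h1, rfl⟩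

theorem pt1_inj : Function.Injective K.pt1 := fun _ _ h => K.pt_inj (congrArg Subtype.val h)

theorem ends {e : K.E} {t : I} {v : K.V} (h : K.pt1 v = K.ed1 e t) :
    t = 0 ∧ v = K.src e ∨ t = 1 ∧ v = K.tgt e := by
  rcases eq_or_lt_of_le (nonneg' (t := t)) with rfl | h0
  · exact Or.inl ⟨rfl, K.pt1_inj (h.trans (K.ed1 e).source)⟩
  rcases eq_or_lt_of_le (le_one' (t := t)) with rfl | h1
  · exact Or.inr ⟨rfl, K.pt1_inj (h.trans (K.ed1 e).target)⟩
  exact (K.ed_ne e t v h0 h1 (congrArg Subtype.val h).symm).elim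

theorem ed1_inj {e e' : K.E} {t t' : I} (h0 : 0 < t) (h1 : t < 1) (h : K.ed1 e t = K.ed1 e' t') :
    e = e' ∧ t = t' := by
  have h' : K.ed e t = K.ed e' t' := congrArg Subtype.val h
  rcases eq_or_lt_of_le (nonneg' (t := t')) with rfl | h0'
  · exact (K.ed_ne e t _ h0 h1 (h'.trans (K.ed e').source)).elim
  rcases eq_or_lt_of_le (le_one' (t := t')) with rfl | h1'
  · exact (K.ed_ne e t _ h0 h1 (h'.trans (K.ed e').target)).elim
  exact K.ed_inj _ _ _ _ h0 h1 h0' h1' h'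

theorem mem_img {e e' : K.E} {J : Set I} (hJ : J ⊆ Ioo 0 1) {t : I} :
    K.ed1 e' t ∈ K.ed1 e '' J ↔ e' = e ∧ t ∈ J := by
  refine ⟨fun ⟨s, hs, h⟩ => ?_, fun ⟨h, ht⟩ => ⟨t, ht, h ▸ rfl⟩⟩
  obtain ⟨rfl, rfl⟩ := K.ed1_inj (hJ hs).1 (hJ hs).2 h
  exact ⟨rfl, hs⟩

theorem open_img (e : K.E) {J : Set I} (hJ : J ⊆ Ioo 0 1) (ho : IsOpen J) :
    IsOpen (K.ed1 e '' J) := K.open_one fun e' => by
  by_cases h : e' = e
  · have : K.ed1 e' ⁻¹' (K.ed1 e '' J) = J := by ext t; simp only [mem_preimage, K.mem_img hJ, h, true_and]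
    rwa [this]
  · have : K.ed1 e' ⁻¹' (K.ed1 e '' J) = ∅ := by
      ext t; simp only [mem_preimage, K.mem_img hJ, h, false_and, mem_empty_iff_false]
    rw [this]
    exact isOpen_empty

theorem via_edge (e : K.E) {y y' : K.X1} (a : Path y y') (ha : range a ⊆ K.ed1 e '' Ioo 0 1) :
    ∃ p : C(I, I), (∀ s, p s ∈ Ioo 0 1) ∧ ∀ s, a s = K.ed1 e (p s) := by
  choose p hp h using fun s => ha ⟨s, rfl⟩
  refine ⟨⟨p, continuous_def.2 fun J hJ => ?_⟩, hp, fun s => (h s).symm⟩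
  have : p ⁻¹' J = a ⁻¹' (K.ed1 e '' (J ∩ Ioo 0 1)) := by
    ext s
    simp only [mem_preimage, ← h s, K.mem_img inter_subset_right, true_and, mem_inter_iff, hp s,
      and_true]
  rw [this]
  exact (K.open_img e inter_subset_right (hJ.inter isOpen_Ioo)).preimage a.continuous

theorem exists_map1 {Z : Type*} (φ : K.E → I → Z) (ψ : K.V → Z) (h0 : ∀ e, φ e 0 = ψ (K.src e))
    (h1 : ∀ e, φ e 1 = ψ (K.tgt e)) :
    ∃ f : K.X1 → Z, (∀ e t, f (K.ed1 e t) = φ e t) ∧ ∀ v, f (K.pt1 v) = ψ v := by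
  have : ∀ y : K.X1, ∃ z, (∀ e t, K.ed1 e t = y → z = φ e t) ∧ ∀ v, K.pt1 v = y → z = ψ v := by
    intro y
    rcases K.cases_one y with ⟨v, rfl⟩ | ⟨e, t, a, b, rfl⟩
    · refine ⟨ψ v, fun e t h => ?_, fun w h => by rw [K.pt1_inj h]⟩
      rcases K.ends h.symm with ⟨rfl, rfl⟩ | ⟨rfl, rfl⟩
      · exact (h0 e).symm
      · exact (h1 e).symm
    · refine ⟨φ e t, fun e' t' h => ?_, fun w h => (K.ed_ne e t w a b
        (congrArg Subtype.val h).symm).elim⟩
      obtain ⟨rfl, rfl⟩ := K.ed1_inj a b h.symm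
      rfl
  choose f a b using this
  exact ⟨f, fun e t => a _ e t rfl, fun v => b _ v rfl⟩

/-- closed middle third -/
def mid : Set I := {t | 1 / 3 ≤ (t : ℝ) ∧ (t : ℝ) ≤ 2 / 3}

theorem mid_sub : mid ⊆ Ioo 0 1 := fun t ht =>
  ⟨show (0 : ℝ) < t by linarith [ht.1], show (t : ℝ) < 1 by linarith [ht.2]⟩

/-- an open cover of the one-skeleton -/
def cov1 : Option K.E → Set K.X1
  | none => (⋃ e, K.ed1 e '' mid)ᶜ
  | some e => K.ed1 e '' Ioo 0 1

theorem mem_cov1 {e : K.E} {t : I} : K.ed1 e t ∈ K.cov1 none ↔ t ∉ mid := by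
  simp [cov1, K.mem_img mid_sub, -mem_image]

theorem cov1_open : ∀ i, IsOpen (K.cov1 i)
  | none => K.open_one fun e => by
    have : K.ed1 e ⁻¹' K.cov1 none = midᶜ := Set.ext fun _ => K.mem_cov1
    rw [this, isOpen_compl_iff]
    exact (isClosed_le continuous_const continuous_subtype_val).inter
      (isClosed_le continuous_subtype_val continuous_const)
  | some e => K.open_img e subset_rfl isOpen_Ioo

theorem cov1_cover (y : K.X1) : ∃ i, y ∈ K.cov1 i := by
  by_cases h : y ∈ K.cov1 none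
  · exact ⟨_, h⟩
  · obtain ⟨e, he⟩ := mem_iUnion.1 (not_not.1 h)
    exact ⟨some e, image_mono mid_sub he⟩

theorem exists_hol1 : ∃ k : Hol K.X1 (FreeGroup K.E), ∀ e, k.h (K.ed1 e) = FreeGroup.of e := by
  classical
  let up : Set I := {t | 1 / 2 < (t : ℝ)} ∩ Ioo 0 1
  let s : Option K.E → K.X1 → FreeGroup K.E := fun i y =>
    i.elim 1 fun e => if y ∈ K.ed1 e '' up then FreeGroup.of e else 1
  have aux : ∀ e {x y} (a : Path x y), range a ⊆ K.cov1 none → range a ⊆ K.cov1 (some e) →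
      (s (some e) x)⁻¹ * s (some e) y = 1 := by
    intro e x y a h1 h2
    obtain ⟨p, hp, h⟩ := K.via_edge e a h2
    have hm : ∀ t, p t ∉ mid := fun t => K.mem_cov1.1 (h t ▸ h1 ⟨t, rfl⟩)
    have hx : x = K.ed1 e (p 0) := by simpa using h 0
    have hy : y = K.ed1 e (p 1) := by simpa using h 1
    have : 1 / 2 < (p 0 : ℝ) ↔ 1 / 2 < (p 1 : ℝ) := by
      have hc : Continuous fun t => (p t : ℝ) := by fun_prop
      have ne : (1 / 2 : ℝ) ∉ range fun t => (p t : ℝ) := fun ⟨t, ht⟩ =>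
        hm t ⟨by simp only at ht; linarith, by simp only at ht; linarith⟩
      refine ⟨fun h => not_le.1 fun h' => ne (intermediate_value_univ 1 0 hc ⟨h', h.le⟩),
        fun h => not_le.1 fun h' => ne (intermediate_value_univ 0 1 hc ⟨h', h.le⟩)⟩
    simp only [s, Option.elim, hx, hy, K.mem_img inter_subset_right, true_and, up, mem_inter_iff,
      hp, and_true, mem_ofPred_eq, this, inv_mul_cancel]
  obtain ⟨κ, hκ⟩ := hol_glue K.cov1 K.cov1_open K.cov1_cover
    (fun i {y y'} _ => (s i y)⁻¹ * s i y') (by intros; simp [mul_assoc]) (by intros; rfl) (by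
      rintro (_ | e) (_ | e') x y a h1 h2
      · rfl
      · rw [aux _ a h1 h2]; simp [s]
      · rw [aux _ a h2 h1]; simp [s]
      · obtain ⟨t, ht, h⟩ := h1 ⟨0, rfl⟩
        have := h2 ⟨0, rfl⟩
        rw [← h] at this
        rw [((K.mem_img subset_rfl).1 this).1])
  refine ⟨κ, fun e => ?_⟩
  let q1 : I := ⟨1 / 4, by norm_num⟩
  let q3 : I := ⟨3 / 4, by norm_num⟩
  have h1 : q1 ≤ q3 := show (1 / 4 : ℝ) ≤ 3 / 4 by norm_num
  rw [κ.congr (b := (K.ed1 e).subpath 0 1) (by simp),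
    ← κ.hom ⟨Path.Homotopy.subpathTransSubpath _ 0 q1 1⟩, κ.mul,
    ← κ.hom ⟨Path.Homotopy.subpathTransSubpath _ q1 q3 1⟩, κ.mul, hκ none, hκ (some e), hκ none]
  · have a : q1 ∉ up := fun h => by have := h.1; norm_num [q1] at this
    have b : q3 ∈ up := ⟨by norm_num [q3], show (0 : ℝ) < 3 / 4 by norm_num,
      show (3 / 4 : ℝ) < 1 by norm_num⟩
    simp [s, K.mem_img (J := up) inter_subset_right, a, b, -mem_image]
  · rw [Path.range_subpath_of_le _ _ _ le_one']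
    rintro _ ⟨t, ht, rfl⟩
    exact K.mem_cov1.2 fun h => by linarith [h.2, show (3 / 4 : ℝ) ≤ t from ht.1]
  · rw [Path.range_subpath_of_le _ _ _ h1]
    refine image_mono fun t ht => ⟨show (0 : ℝ) < t from ?_, show (t : ℝ) < 1 from ?_⟩
    · linarith [show (1 / 4 : ℝ) ≤ t from ht.1]
    · linarith [show (t : ℝ) ≤ 3 / 4 from ht.2]
  · rw [Path.range_subpath_of_le _ _ _ nonneg']
    rintro _ ⟨t, ht, rfl⟩
    exact K.mem_cov1.2 fun h => by linarith [h.1, show (t : ℝ) ≤ 1 / 4 from ht.2]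

theorem closed_vert {S : Set K.X1} (h : S ⊆ range K.pt1) : IsClosed S :=
  K.closed_one fun e => Set.Finite.isClosed ((Set.toFinite {0, 1}).subset fun t ht => by
    obtain ⟨v, hv⟩ := h ht
    rcases K.ends hv with ⟨rfl, -⟩ | ⟨rfl, -⟩ <;> simp)

theorem exists_ep {v w : K.V} (a : Path (K.pt1 v) (K.pt1 w)) :
    ∃ (b : Path (K.pt1 v) (K.pt1 w)) (W : FreeGroup K.E), K.EP b W ∧ a.Homotopic b := by
  have := contr_I
  let g : C(I × I, I) := ⟨fun p => projIcc 0 1 zero_le_one (p.1 + p.2 * (2 * p.1 - 1)), by fun_prop⟩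
  have g0 : ∀ s, g (0, s) = 0 := fun s => projIcc_of_le_left zero_le_one (by simpa using s.2.1)
  have g1 : ∀ s, g (1, s) = 1 := fun s => projIcc_of_right_le zero_le_one (by
    simp only [Icc.coe_one]
    linarith [s.2.1])
  obtain ⟨f, f1, f2⟩ := K.exists_map1 (Z := C(I, K.X1))
    (fun e t => ((K.ed1 e).toContinuousMap.comp g).curry t) (fun v => .const _ (K.pt1 v))
    (fun e => by ext1 s; simp [g0]) (fun e => by ext1 s; simp [g1])
  have hf : Continuous f := K.cont_one fun e => by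
    simp only [f1]
    exact map_continuous _
  have f1' : ∀ e t s, f (K.ed1 e t) s = K.ed1 e (g (t, s)) := fun e t s => by rw [f1]; rfl
  refine push_abs K.pt1 (fun e t => K.ed1 e t) (fun e => (K.ed1 e).continuous)
    (fun {v w} a => ∃ (b : Path (K.pt1 v) (K.pt1 w)) (W : FreeGroup K.E), K.EP b W ∧ a.Homotopic b)
    ?_ ?_ ?_ ?_ ?_ ?_ (fun e => ⟨0, _, (K.ed1 e).source.symm⟩) K.cov1 K.cov1_open K.cov1_cover ?_
    (fun p => f p.2 p.1) (by fun_prop) ?_ ?_ ?_ a
  · rintro u v w a b ⟨a', W, h1, h2⟩ ⟨b', W', h3, h4⟩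
    exact ⟨_, _, h1.trans h3, h2.hcomp h4⟩
  · rintro u v a ⟨a', W, h1, h2⟩
    exact ⟨_, _, h1.symm, h2.symm₂⟩
  · rintro u v a b h ⟨a', W, h1, h2⟩
    exact ⟨_, _, h1, h.symm.trans h2⟩
  · intro u v a ha
    have hl : IsLocallyConstant a := fun S => by
      have : a ⁻¹' S = (a ⁻¹' (Sᶜ ∩ range K.pt1))ᶜ := by
        ext t
        simp only [mem_preimage, mem_compl_iff, mem_inter_iff, ha ⟨t, rfl⟩, and_true, not_not]
      rw [this]
      exact ((K.closed_vert inter_subset_right).preimage a.continuous).isOpen_compl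
    have h0 : ∀ t, a t = K.pt1 u := fun t =>
      (hl.apply_eq_of_preconnectedSpace t 0).trans a.source
    obtain rfl : v = u := K.pt1_inj (a.target.symm.trans (h0 1))
    exact ⟨_, _, EP.refl v, by rw [show a = Path.refl _ from Path.ext (funext h0)]⟩
  · intro e z z' u v a h
    have v1 : Via (K.ed1 e) (K.ed1 e) 0 1 := ⟨Path.id, fun _ => rfl⟩
    have hc := (K.ed1 e).continuous
    rcases K.ends h.src with ⟨rfl, rfl⟩ | ⟨rfl, rfl⟩ <;>
      rcases K.ends h.tgt with ⟨rfl, rfl⟩ | ⟨rfl, rfl⟩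
    · exact ⟨_, _, (EP.edge e).trans (EP.edge e).symm, h.hom hc (v1.trans v1.symm)⟩
    · exact ⟨_, _, EP.edge e, h.hom hc v1⟩
    · exact ⟨_, _, (EP.edge e).symm, h.hom hc v1.symm⟩
    · exact ⟨_, _, (EP.edge e).symm.trans (EP.edge e), h.hom hc (v1.symm.trans v1)⟩
  · intro e e' t t' h hn
    rcases K.cases_one (K.ed1 e t) with hv | ⟨e'', t'', a, b, c⟩
    · exact (hn hv).elim
    · obtain ⟨rfl, rfl⟩ := K.ed1_inj a b c
      exact K.ed1_inj a b h
  · intro e y y' a ha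
    obtain ⟨p, -, h⟩ := K.via_edge e a ha
    exact ⟨p 0, p 1, ⟨p, rfl, rfl⟩, h⟩
  · intro y
    rcases K.cases_one y with ⟨v, rfl⟩ | ⟨e, t, -, -, rfl⟩
    · simp [f2]
    · simp [f1', g]
  · intro y hy
    rcases K.cases_one y with ⟨v, rfl⟩ | ⟨e, t, -, -, rfl⟩
    · exact ⟨v, by simp [f2]⟩
    · simp only [f1']
      rcases not_and_or.1 (K.mem_cov1.1 hy) with h | h
      · have : g (t, 1) = 0 := projIcc_of_le_left zero_le_one (by simp only [Icc.coe_one]; linarith)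
        exact ⟨K.src e, by simp [this]⟩
      · have : g (t, 1) = 1 := projIcc_of_right_le zero_le_one (by simp only [Icc.coe_one]; linarith)
        exact ⟨K.tgt e, by simp [this]⟩
  · intro y
    rcases K.cases_one y with ⟨v, rfl⟩ | ⟨e, t, -, -, rfl⟩
    · exact Or.inl fun s => by simp [f2]
    · exact Or.inr ⟨e, g.curry t, fun s => f1' e t s⟩

end Vale.Agent.P173.Cx
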