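import Vale.Agent.P173.Glue

namespace Vale.Agent.P173

open Set unitInterval

section via
variable {Z Y : Type*} [TopologicalSpace Z] [TopologicalSpace Y]

/-- a path is the image of a path with the given ends -/
def Via (Φ : Z → Y) {y y' : Y} (a : Path y y') (z z' : Z) : Prop :=
  ∃ p : Path z z', ∀ s, a s = Φ (p s)

variable {Φ : Z → Y} {x y w : Y} {z z' z'' : Z}

theorem Via.src {a : Path x y} (h : Via Φ a z z') : x = Φ z := by
  obtain ⟨p, hp⟩ := h
  simpa using hp 0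

theorem Via.tgt {a : Path x y} (h : Via Φ a z z') : y = Φ z' := by
  obtain ⟨p, hp⟩ := h
  simpa using hp 1

theorem Via.trans {a : Path x y} {b : Path y w} (h : Via Φ a z z') (h' : Via Φ b z' z'') :
    Via Φ (a.trans b) z z'' := by
  obtain ⟨p, hp⟩ := h
  obtain ⟨q, hq⟩ := h'
  refine ⟨p.trans q, fun s => ?_⟩
  rw [Path.trans_apply, Path.trans_apply]
  split_ifs
  · exact hp _
  · exact hq _

theorem Via.symm {a : Path x y} (h : Via Φ a z z') : Via Φ a.symm z' z := by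
  obtain ⟨p, hp⟩ := h
  exact ⟨p.symm, fun s => hp _⟩

theorem Via.hom [SimplyConnectedSpace Z] (hΦ : Continuous Φ) {a b : Path x y} (h : Via Φ a z z')
    (h' : Via Φ b z z') : a.Homotopic b := by
  obtain rfl := h.src
  obtain rfl := h.tgt
  obtain ⟨p, hp⟩ := h
  obtain ⟨q, hq⟩ := h'
  rw [show a = p.map hΦ from Path.ext (funext hp), show b = q.map hΦ from Path.ext (funext hq)]
  exact (SimplyConnectedSpace.paths_homotopic p q).map ⟨Φ, hΦ⟩

theorem exists_via [PathConnectedSpace Z] (hΦ : Continuous Φ) (hx : x = Φ z) (hy : y = Φ z') :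
    ∃ a : Path x y, Via Φ a z z' := by
  subst hx hy
  exact ⟨(PathConnectedSpace.somePath z z').map hΦ, _, fun _ => rfl⟩

end via

theorem contr_I : ContractibleSpace I := (convex_Icc (0 : ℝ) 1).contractibleSpace ⟨0, by simp⟩

namespace Hol
variable {Y H : Type*} [TopologicalSpace Y] [Group H] (k : Hol Y H)

theorem congr {x y x' y' : Y} {a : Path x y} {b : Path x' y'} (h : ∀ t, a t = b t) :
    k.h a = k.h b := by
  obtain rfl : x = x' := by simpa using h 0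
  obtain rfl : y = y' := by simpa using h 1
  rw [show a = b from Path.ext (funext h)]

theorem via {Z : Type*} [TopologicalSpace Z] [SimplyConnectedSpace Z] {Φ : Z → Y}
    (hΦ : Continuous Φ) {x y x' y' : Y} {a : Path x y} {b : Path x' y'} {z z' : Z}
    (h : Via Φ a z z') (h' : Via Φ b z z') : k.h a = k.h b := by
  obtain rfl : x = x' := h.src.trans h'.src.symm
  obtain rfl : y = y' := h.tgt.trans h'.tgt.symm
  exact k.hom (h.hom hΦ h')

end Hol

theorem q_cancel {Y : Type*} [TopologicalSpace Y] {x y z : Y} (a : Path.Homotopic.Quotient x y)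
    (b : Path.Homotopic.Quotient y z) : a.symm.trans (a.trans b) = b := by
  rw [← Path.Homotopic.Quotient.trans_assoc, Path.Homotopic.Quotient.symm_trans,
    Path.Homotopic.Quotient.refl_trans]

theorem push_abs {Y B D C : Type*} [TopologicalSpace Y] [TopologicalSpace D]
    [SimplyConnectedSpace D] (ι : B → Y) (Φ : C → D → Y) (hΦ : ∀ c, Continuous (Φ c))
    (T : ∀ {u v : B}, Path (ι u) (ι v) → Prop)
    (t1 : ∀ {u v w} {a : Path (ι u) (ι v)} {b : Path (ι v) (ι w)}, T a → T b → T (a.trans b))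
    (t2 : ∀ {u v} {a : Path (ι u) (ι v)}, T a → T a.symm)
    (t3 : ∀ {u v} {a b : Path (ι u) (ι v)}, a.Homotopic b → T a → T b)
    (t4 : ∀ {u v} (a : Path (ι u) (ι v)), range a ⊆ range ι → T a)
    (t5 : ∀ c z z' {u v} (a : Path (ι u) (ι v)), Via (Φ c) a z z' → T a)
    (inj : ∀ c c' z z', Φ c z = Φ c' z' → Φ c z ∉ range ι → c = c' ∧ z = z')
    (bd : ∀ c, ∃ z u, ι u = Φ c z) (O : Option C → Set Y) (ho : ∀ i, IsOpen (O i))
    (hc : ∀ y, ∃ i, y ∈ O i)
    (cell : ∀ c {y y'} (a : Path y y'), range a ⊆ O (some c) → ∃ z z', Via (Φ c) a z z')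
    (G : I × Y → Y) (hG : Continuous G) (G0 : ∀ y, G (0, y) = y)
    (G1 : ∀ y ∈ O none, G (1, y) ∈ range ι)
    (G2 : ∀ y, (∀ s, G (s, y) = y) ∨ ∃ c, ∃ p : C(I, D), ∀ s, G (s, y) = Φ c (p s))
    {u v : B} (a : Path (ι u) (ι v)) : T a := by
  have := contr_I
  let Sh : ∀ {u : B} {y : Y}, Path (ι u) y → Prop := fun ρ =>
    range ρ ⊆ range ι ∨ ∃ c z z', Via (Φ c) ρ z z'
  have hss : ∀ {u v y} (ρ : Path (ι u) y) (τ : Path (ι v) y), Sh ρ → Sh τ →
      T (ρ.trans τ.symm) := by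
    intro u v y ρ τ h h'
    by_cases hy : y ∈ range ι
    · obtain ⟨w, rfl⟩ := hy
      have : ∀ {u} (ρ : Path (ι u) (ι w)), Sh ρ → T ρ := fun ρ h =>
        h.elim (t4 ρ) fun ⟨c, z, z', h⟩ => t5 c z z' ρ h
      exact t1 (this ρ h) (t2 (this τ h'))
    · obtain ⟨c, z, z', h⟩ := h.resolve_left fun e => hy (e ⟨1, ρ.target⟩)
      obtain ⟨c', w, w', h'⟩ := h'.resolve_left fun e => hy (e ⟨1, τ.target⟩)
      obtain ⟨rfl, rfl⟩ := inj c c' z' w' (h.tgt.symm.trans h'.tgt) (h.tgt ▸ hy)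
      exact t5 _ _ _ _ (h.trans h'.symm)
  have key := path_ind O ho hc (fun {y y'} a => ∃ u v, ∃ (ρ : Path (ι u) y) (τ : Path (ι v) y'),
    Sh ρ ∧ Sh τ ∧ T (ρ.trans (a.trans τ.symm))) ?_ ?_ ?_ a
  · obtain ⟨u', v', ρ, τ, h1, h2, h3⟩ := key
    have r : ∀ u, Sh (Path.refl (ι u)) := fun u => Or.inl (by simp)
    refine t3 ?_ (t1 (hss _ _ (r u) h1) (t1 h3 (hss _ _ h2 (r v))))
    rw [← Path.Homotopic.Quotient.eq]
    simp only [Path.Homotopic.Quotient.mk_trans, Path.Homotopic.Quotient.mk_symm, Path.refl_symm,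
      Path.Homotopic.Quotient.mk_refl]
    simp [q_cancel]
  · rintro (_ | c) y y' a ha
    · have aux : ∀ y ∈ O none, ∃ u, ∃ ρ : Path (ι u) y, Sh ρ ∧ ∀ s, ρ s = G (σ s, y) := by
        intro y hy
        obtain ⟨u, hu⟩ := G1 y hy
        refine ⟨u, ⟨⟨fun s => G (σ s, y), by fun_prop⟩, by simp [hu], by simp [G0]⟩, ?_, fun _ => rfl⟩
        rcases G2 y with h | ⟨c, p, h⟩
        · refine Or.inl ?_
          rintro _ ⟨s, rfl⟩
          exact ⟨u, hu.trans ((h 1).trans (h _).symm)⟩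
        · exact Or.inr ⟨c, p 1, p 0, ⟨⟨fun s => p (σ s), by fun_prop⟩, by simp, by simp⟩,
            fun s => h _⟩
      obtain ⟨u, α, h1, e1⟩ := aux y (ha ⟨0, a.source⟩)
      obtain ⟨v, β, h2, e2⟩ := aux y' (ha ⟨1, a.target⟩)
      refine ⟨u, v, α, β, h1, h2, ?_⟩
      let Ψ : I × I → Y := fun p => G (p.1, a p.2)
      have hΨ : Continuous Ψ := by fun_prop
      let b : Path (ι u) (ι v) := ⟨⟨fun s => G (1, a s), by fun_prop⟩,
        by simpa using (e1 0).symm, by simpa using (e2 0).symm⟩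
      have v1 : Via Ψ α (1, 0) (0, 0) :=
        ⟨⟨⟨fun s => (σ s, 0), by fun_prop⟩, by simp, by simp⟩, fun s => by simp [Ψ, e1]⟩
      have v2 : Via Ψ a (0, 0) (0, 1) :=
        ⟨⟨⟨fun s => (0, s), by fun_prop⟩, by simp, by simp⟩, fun s => by simp [Ψ, G0]⟩
      have v3 : Via Ψ β (1, 1) (0, 1) :=
        ⟨⟨⟨fun s => (σ s, 1), by fun_prop⟩, by simp, by simp⟩, fun s => by simp [Ψ, e2]⟩
      have v4 : Via Ψ b (1, 0) (1, 1) :=
        ⟨⟨⟨fun s => (1, s), by fun_prop⟩, by simp, by simp⟩, fun s => rfl⟩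
      refine t3 (v4.hom hΨ (v1.trans (v2.trans v3.symm))) (t4 b ?_)
      rintro _ ⟨s, rfl⟩
      exact G1 _ (ha ⟨s, rfl⟩)
    · obtain ⟨z, z', h⟩ := cell c a ha
      obtain ⟨z0, u, hu⟩ := bd c
      obtain ⟨α, h1⟩ := exists_via (hΦ c) hu h.src
      obtain ⟨β, h2⟩ := exists_via (hΦ c) hu h.tgt
      exact ⟨u, u, α, β, Or.inr ⟨_, _, _, h1⟩, Or.inr ⟨_, _, _, h2⟩,
        t5 _ _ _ _ (h1.trans (h.trans h2.symm))⟩
  · rintro x y z a b ⟨u, v, α, β, h1, h2, h3⟩ ⟨u', v', α', β', h1', h2', h3'⟩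
    refine ⟨u, v', α, β', h1, h2', t3 ?_ (t1 h3 (t1 (hss _ _ h2 h1') h3'))⟩
    rw [← Path.Homotopic.Quotient.eq]
    simp only [Path.Homotopic.Quotient.mk_trans, Path.Homotopic.Quotient.mk_symm]
    simp [q_cancel]
  · rintro x y a b h ⟨u, v, α, β, h1, h2, h3⟩
    exact ⟨u, v, α, β, h1, h2, t3 ((Path.Homotopic.refl _).hcomp
      (h.hcomp (Path.Homotopic.refl _))) h3⟩

end Vale.Agent.P173
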