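import Vale.Agent.P173.RaagB

set_option linter.unusedSectionVars false

namespace Vale.Agent.P173

namespace Rg

open Finsupp

variable {V : Type} [LinearOrder V] {G : SimpleGraph V}

/-- top vertex of a square -/
def t2 (e : Ed G) : RA G := gen G e.1.1 * gen G e.1.2

/-- top vertex of a cube -/
def t3 (t : Tr G) : RA G := gen G t.1.1 * gen G t.1.2.1 * gen G t.1.2.2

variable (G) in
/-- ascending boundary of squares -/
noncomputable def p2 : (RA G × Ed G →₀ ℤ) →ₗ[ℤ] (RA G × V →₀ ℤ) :=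
  (tw (gen G)).symm.toLinearMap ∘ₗ fib G (l1 G) ∘ₗ (tw t2).toLinearMap

variable (G) in
/-- ascending boundary of cubes -/
noncomputable def p3 : (RA G × Tr G →₀ ℤ) →ₗ[ℤ] (RA G × Ed G →₀ ℤ) :=
  (tw t2).symm.toLinearMap ∘ₗ fib G (l2 G) ∘ₗ (tw t3).toLinearMap

lemma m2_single (g : RA G) (e : Ed G) :
    fib G (l1 G) (single (g, e) 1) = single (g, e.1.2) 1 - single (g, e.1.1) 1 := by
  simp [fib_single, l1]

lemma m3_single (g : RA G) (t : Tr G) : fib G (l2 G) (single (g, t) 1) =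
    single (g, e01 t) 1 + single (g, e12 t) 1 - single (g, e02 t) 1 := by
  simp [fib_single, l2]

lemma p2_single (g : RA G) (e : Ed G) : p2 G (single (g, e) 1) =
    single (g * gen G e.1.1, e.1.2) 1 - single (g * gen G e.1.2, e.1.1) 1 := by
  have h : g * t2 e * (gen G e.1.1)⁻¹ = g * gen G e.1.2 := by
    rw [t2, (gen_comm G e.2.2).eq, ← mul_assoc, mul_inv_cancel_right]
  simp only [p2, LinearMap.comp_apply, LinearEquiv.coe_coe, tw_single, m2_single, map_sub,
    tw_symm_single, h]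
  rw [t2, ← mul_assoc, mul_inv_cancel_right]

lemma p3_single (g : RA G) (t : Tr G) : p3 G (single (g, t) 1) =
    single (g * gen G t.1.2.2, e01 t) 1 + single (g * gen G t.1.1, e12 t) 1 -
      single (g * gen G t.1.2.1, e02 t) 1 := by
  have h1 := gen_comm G t.2.2.2.1
  have h2 := gen_comm G t.2.2.2.2.1
  have h3 := gen_comm G t.2.2.2.2.2
  have e1 : t3 t = gen G t.1.2.2 * t2 (e01 t) := (h3.mul_left h2).eq
  have e2 : t3 t = gen G t.1.1 * t2 (e12 t) := mul_assoc _ _ _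
  have e3 : t3 t = gen G t.1.2.1 * t2 (e02 t) := by rw [t3, h1.eq, mul_assoc]; rfl
  have e4 : ∀ a b, t3 t = a * b → g * t3 t * b⁻¹ = g * a := fun a b h => by
    rw [h, ← mul_assoc, mul_inv_cancel_right]
  simp only [p3, LinearMap.comp_apply, LinearEquiv.coe_coe, tw_single, m3_single, map_sub, map_add,
    tw_symm_single, e4 _ _ e1, e4 _ _ e2, e4 _ _ e3]

lemma m2_m3 (x : RA G × Tr G →₀ ℤ) : fib G (l1 G) (fib G (l2 G) x) = 0 :=
  hom_ext (f := fib G (l1 G) ∘ₗ fib G (l2 G)) (g := 0) (fun a s => by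
    simp [m2_single, m3_single, e01, e12, e02]) x

lemma p2_p3 (x : RA G × Tr G →₀ ℤ) : p2 G (p3 G x) = 0 := by simp [p2, p3, m2_m3]

lemma p3_inj (h : Acyc G) (x : RA G × Tr G →₀ ℤ) (hx : p3 G x = 0) : x = 0 := by
  simpa using fib_inj h.2.2.1 (x := tw t3 x) (by simpa [p3] using hx)

lemma p2_exact (h : Acyc G) (y : RA G × Ed G →₀ ℤ) (hy : p2 G y = 0) : ∃ x, p3 G x = y := by
  obtain ⟨x, hx⟩ := fib_exact h.2.2.2 (tw t2 y) (by simpa [p2] using hy)
  exact ⟨(tw t3).symm x, by simp [p3, hx]⟩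

attribute [local irreducible] p2 p3 fib

lemma D2_D3 (x : RA G × Tr G →₀ ℤ) : (p2 G - fib G (l1 G)) ((p3 G - fib G (l2 G)) x) = 0 := by
  have := hom_ext (f := p2 G ∘ₗ fib G (l2 G) + fib G (l1 G) ∘ₗ p3 G) (g := 0) (fun a s => by
    simp only [LinearMap.add_apply, LinearMap.comp_apply, m2_single, m3_single, p2_single,
      p3_single, map_add, map_sub, e01, e12, e02, LinearMap.zero_apply]
    abel) x
  simp only [LinearMap.add_apply, LinearMap.comp_apply, LinearMap.zero_apply] at this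
  simp only [LinearMap.sub_apply, map_sub, m2_m3, p2_p3, eq_neg_of_add_eq_zero_left this]
  abel

lemma pr_m2 (n : ℤ) (x : RA G × Ed G →₀ ℤ) : pr n (fib G (l1 G) x) = fib G (l1 G) (pr n x) :=
  hom_ext (f := pr n ∘ₗ fib G (l1 G)) (g := fib G (l1 G) ∘ₗ pr n) (fun a s => by
    by_cases h : hh a = n <;> simp [m2_single, pr_single, h]) x

lemma pr_m3 (n : ℤ) (x : RA G × Tr G →₀ ℤ) : pr n (fib G (l2 G) x) = fib G (l2 G) (pr n x) :=
  hom_ext (f := pr n ∘ₗ fib G (l2 G)) (g := fib G (l2 G) ∘ₗ pr n) (fun a s => by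
    by_cases h : hh a = n <;> simp [m3_single, pr_single, h]) x

lemma pr_p2 (n : ℤ) (x : RA G × Ed G →₀ ℤ) : pr n (p2 G x) = p2 G (pr (n - 1) x) :=
  hom_ext (f := pr n ∘ₗ p2 G) (g := p2 G ∘ₗ pr (n - 1)) (fun a s => by
    simp only [LinearMap.comp_apply, p2_single, map_sub, pr_single, hh_mul, hh_gen,
      eq_sub_iff_add_eq (b := n)]
    split_ifs <;> simp [p2_single]) x

lemma pr_p3 (n : ℤ) (x : RA G × Tr G →₀ ℤ) : pr n (p3 G x) = p3 G (pr (n - 1) x) :=
  hom_ext (f := pr n ∘ₗ p3 G) (g := p3 G ∘ₗ pr (n - 1)) (fun a s => by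
    simp only [LinearMap.comp_apply, p3_single, map_sub, map_add, pr_single, hh_mul, hh_gen,
      eq_sub_iff_add_eq (b := n)]
    split_ifs <;> simp [p3_single]) x

lemma Cl_cases (h : G.CliqueFree 4) {N : Submodule ℤ (KK G)} (h0 : ∀ g, single (g, []) 1 ∈ N)
    (h1 : ∀ g u, single (g, [u]) 1 ∈ N) (h2 : ∀ g (e : Ed G), single (g, [e.1.1, e.1.2]) 1 ∈ N)
    (h3 : ∀ g (t : Tr G), single (g, [t.1.1, t.1.2.1, t.1.2.2]) 1 ∈ N) {W : Set V} {x : KK G}
    (hx : x ∈ Cl G W) : x ∈ N := by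
  refine Cl_le (fun g s hs _ => ?_) hx
  match s, hs with
  | [], _ => exact h0 g
  | [u], _ => exact h1 g u
  | [u, v], hs => exact h2 g ⟨(u, v), by simpa using hs⟩
  | [u, v, w], hs =>
    simp only [List.pairwise_cons, List.forall_mem_cons] at hs
    exact h3 g ⟨(u, v, w), hs.1.1.1, hs.2.1.1.1, hs.1.1.2, hs.2.1.1.2, hs.1.2.1.2⟩
  | u :: v :: w :: x :: s, hs =>
    refine (h.mono (show 4 ≤ (u :: v :: w :: x :: s).length by simp) _ ⟨?_,
      List.toFinset_card_of_nodup (hs.imp fun h => h.1.ne)⟩).elim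
    have : Std.Symm G.Adj := ⟨fun _ _ h => h.symm⟩
    rw [List.coe_toFinset]
    exact (hs.imp fun h => h.2).set_pairwise

variable (G) in
/-- edges as chains -/
noncomputable def i1 : (RA G × V →₀ ℤ) →ₗ[ℤ] KK G := lm fun p => (p.1, [p.2])

variable (G) in
/-- squares as chains -/
noncomputable def i2 : (RA G × Ed G →₀ ℤ) →ₗ[ℤ] KK G :=
  lm fun p => (p.1, [p.2.1.1, p.2.1.2])

variable (G) in
/-- the edge part of a chain -/
noncomputable def j1 : KK G →ₗ[ℤ] (RA G × V →₀ ℤ) := linearCombination ℤ fun p =>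
  match p.2 with
  | [v] => single (p.1, v) 1
  | _ => 0

open Classical in
variable (G) in
/-- the square part of a chain -/
noncomputable def j2 : KK G →ₗ[ℤ] (RA G × Ed G →₀ ℤ) := linearCombination ℤ fun p =>
  match p.2 with
  | [u, v] => if h : u < v ∧ G.Adj u v then single (p.1, ⟨(u, v), h⟩) 1 else 0
  | _ => 0

variable [Fintype V]

lemma exact1 (h : G.CliqueFree 4) {y : RA G × V →₀ ℤ} (hy : dd (i1 G y) = 0) :
    ∃ x, (p2 G - fib G (l1 G)) x = y := by
  obtain ⟨x, hx, hz⟩ := acyclic Finset.univ (i1 G y) (hom_mem (fun g u => by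
    simpa [i1] using single_mem g (s := [u]) (by simp) (by simp)) y) hy
  have h1 := Cl_eq (f := j1 G) (f' := 0) (fun g s _ h => by
    simp [List.eq_nil_iff_forall_not_mem.mpr h, j1]) hz
  rw [map_sub, LinearMap.zero_apply, sub_eq_zero] at h1
  have h2 := hom_ext (f := j1 G ∘ₗ i1 G) (g := LinearMap.id) (fun g u => by simp [i1, j1]) y
  rw [show y = _ from h2.symm.trans h1]
  exact Cl_cases h (N := (LinearMap.range _).comap (j1 G ∘ₗ dd))
    (fun g => by simp [dl]) (fun g u => by simp [dl, j1])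
    (fun g e => ⟨single (g, e) 1, by
      simp only [LinearMap.sub_apply, p2_single, m2_single]
      simp [dl, j1]
      abel⟩) (fun g t => by simp [dl, j1]) hx

lemma exact2 (h : G.CliqueFree 4) {y : RA G × Ed G →₀ ℤ} (hy : (p2 G - fib G (l1 G)) y = 0) :
    ∃ x, (p3 G - fib G (l2 G)) x = y := by
  have h0 := hom_ext (f := dd ∘ₗ i2 G) (g := i1 G ∘ₗ (p2 G - fib G (l1 G))) (fun g e => by
    simp only [LinearMap.comp_apply, LinearMap.sub_apply, p2_single, m2_single, map_sub]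
    simp [dl, i1, i2]
    abel) y
  obtain ⟨x, hx, hz⟩ := acyclic Finset.univ (i2 G y) (hom_mem (fun g e => by
    simpa [i2] using single_mem g (s := [e.1.1, e.1.2]) (by simpa using e.2) (by simp)) y)
    (h0.trans (by rw [LinearMap.comp_apply, hy, map_zero]))
  have h1 := Cl_eq (f := j2 G) (f' := 0) (fun g s _ h => by
    simp [List.eq_nil_iff_forall_not_mem.mpr h, j2]) hz
  rw [map_sub, LinearMap.zero_apply, sub_eq_zero] at h1
  have h3 : ∀ g (e : Ed G), j2 G (single (g, [e.1.1, e.1.2]) 1) = single (g, e) 1 :=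
    fun g e => by simp [j2, e.2]
  have h2 := hom_ext (f := j2 G ∘ₗ i2 G) (g := LinearMap.id) (fun g u => by simp [i2, h3]) y
  rw [show y = _ from h2.symm.trans h1]
  exact Cl_cases h (N := (LinearMap.range _).comap (j2 G ∘ₗ dd))
    (fun g => by simp [dl]) (fun g u => by simp [dl, j2]) (fun g e => by simp [dl, j2])
    (fun g t => ⟨single (g, t) 1, by
      simp only [LinearMap.sub_apply, p3_single, m3_single, ← h3]
      simp [dl, e01, e12, e02]
      abel⟩) hx

lemma closure_eq (h : G.Connected) : Subgroup.closure (Set.range (bbTri G).g) = ⊤ := by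
  let N := (Subgroup.closure (Set.range (bbTri G).g)).map (BB G).subtype
  have h1 : ∀ u v, G.Adj u v → (gen G u)⁻¹ * gen G v ∈ N := fun u v huv => by
    rcases huv.ne.lt_or_gt with h | h
    · exact ⟨_, Subgroup.subset_closure ⟨⟨(u, v), h, huv⟩, rfl⟩, rfl⟩
    · simpa using N.inv_mem (show (gen G v)⁻¹ * gen G u ∈ N from
        ⟨_, Subgroup.subset_closure ⟨⟨(v, u), h, huv.symm⟩, rfl⟩, rfl⟩)
  have h2 : ∀ u v, (gen G u)⁻¹ * gen G v ∈ N ∧ gen G v * (gen G u)⁻¹ ∈ N := fun u v => by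
    obtain ⟨w⟩ := h u v
    induction w with
    | nil => simp
    | cons a _ ih =>
      refine ⟨by simpa [mul_assoc] using mul_mem (h1 _ _ a) ih.1, ?_⟩
      have := mul_mem ih.2 (h1 _ _ a)
      rw [(gen_comm G a).inv_left.eq] at this
      simpa [mul_assoc] using this
  have h3 : ∀ c : RA G, (∀ e : Ed G, c * ((gen G e.1.1)⁻¹ * gen G e.1.2) * c⁻¹ ∈ N) →
      ∀ a ∈ N, c * a * c⁻¹ ∈ N := by
    rintro c hc _ ⟨a, ha, rfl⟩
    exact (Subgroup.closure_le (N.comap ((MulAut.conj c).toMonoidHom.comp (BB G).subtype))).mpr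
      (by rintro _ ⟨e, rfl⟩; exact hc e) ha
  have : N.Normal := ⟨fun a ha c => by
    have hc : c ∈ Subgroup.closure (Set.range (gen G)) :=
      (PresentedGroup.closure_range_of (rels G)).ge (Subgroup.mem_top c)
    induction hc using Subgroup.closure_induction'' generalizing a with
    | one => simpa using ha
    | mem x hx =>
      obtain ⟨w, rfl⟩ := hx
      exact h3 _ (fun e => by simpa [mul_assoc] using mul_mem (h2 e.1.1 w).2 (h2 w e.1.2).2) a ha
    | inv_mem x hx =>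
      obtain ⟨w, rfl⟩ := hx
      refine h3 _ (fun e => ?_) a ha
      rw [(gen_comm G e.2.2).inv_left.eq]
      simpa [mul_assoc] using mul_mem (h2 w e.1.2).1 (h2 e.1.1 w).1
    | mul x y _ _ hx hy => simpa [mul_assoc] using hx _ (hy a ha)⟩
  obtain ⟨v⟩ := h.nonempty
  have h4 : QuotientGroup.mk' N = (zpowersHom _ (QuotientGroup.mk' N (gen G v))).comp (ht G) :=
    PresentedGroup.ext fun u => by
      have : ht G (PresentedGroup.of u) = .ofAdd 1 := raLift_gen ..
      rw [MonoidHom.comp_apply, this, zpowersHom_apply, toAdd_ofAdd, zpow_one]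
      exact QuotientGroup.eq.mpr (h2 u v).1
  refine eq_top_iff.mpr fun a _ => ?_
  obtain ⟨b, hb, e⟩ := (QuotientGroup.eq_one_iff (N := N) a.1).mp (by
    have := DFunLike.congr_fun h4 a.1
    rwa [MonoidHom.comp_apply, a.2, map_one] at this)
  exact Subtype.ext e ▸ hb

variable (G) in
/-- edges of the level set as squares -/
def fe (p : BB G × Ed G) : RA G × Ed G := (p.1.1 * (gen G p.2.1.1)⁻¹, p.2)

variable (G) in
/-- triangles of the level set as cubes -/
def ft (p : BB G × Tr G × Bool) : RA G × Tr G :=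
  (p.1.1 * (if p.2.2 then gen G p.2.1.1.1 else t2 (e01 p.2.1))⁻¹, p.2.1)

lemma fe_inj : Function.Injective (fe G) := by
  rintro ⟨a, e⟩ ⟨b, e'⟩ h
  obtain ⟨h1, rfl⟩ := Prod.mk.inj h
  exact Prod.ext (Subtype.ext (mul_right_cancel h1)) rfl

lemma ft_inj : Function.Injective (ft G) := by
  rintro ⟨a, e, x⟩ ⟨b, e', y⟩ h
  obtain ⟨h1, rfl⟩ := Prod.mk.inj h
  obtain rfl : x = y := by
    have := congrArg hh h1
    cases x <;> cases y <;> simp [t2] at this ⊢
  exact Prod.ext (Subtype.ext (mul_right_cancel h1)) rfl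

lemma pr_fe (y : BB G × Ed G →₀ ℤ) : pr (-1) (lm (fe G) y) = lm (fe G) y :=
  LinearMap.congr_fun (f := pr (-1) ∘ₗ lm (fe G)) (lhom_ext' fun p =>
    LinearMap.ext_ring (by simp [fe, pr_single])) y

lemma pr_ft (x : BB G × Tr G × Bool →₀ ℤ) : pr (-1) (lm (ft G) x) +
    pr (-2) (lm (ft G) x) = lm (ft G) x :=
  LinearMap.congr_fun (f := pr (-1) ∘ₗ lm (ft G) + pr (-2) ∘ₗ lm (ft G))
    (lhom_ext' fun ⟨g, t, b⟩ => LinearMap.ext_ring (by cases b <;> simp [ft, pr_single, t2])) x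

lemma fe_d2 (x : BB G × Tr G × Bool →₀ ℤ) : lm (fe G) ((bbTri G).d2 x) =
    fib G (l2 G) (pr (-1) (lm (ft G) x)) +
      p3 G (pr (-2) (lm (ft G) x)) := by
  refine LinearMap.congr_fun (f := lm (fe G) ∘ₗ (bbTri G).d2)
    (g := fib G (l2 G) ∘ₗ pr (-1) ∘ₗ lm (ft G) +
      p3 G ∘ₗ pr (-2) ∘ₗ lm (ft G)) (lhom_ext' fun ⟨g, t, b⟩ =>
        LinearMap.ext_ring ?_) x
  have h1 := (gen_comm G t.2.2.2.1).inv_inv.eq
  have h2 := (gen_comm G t.2.2.2.2.2).inv_left.eq
  cases b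
  · have h3 : ∀ x, (gen G t.1.2.1)⁻¹ * ((gen G t.1.1)⁻¹ * x) =
        (gen G t.1.1)⁻¹ * ((gen G t.1.2.1)⁻¹ * x) := fun x => by rw [← mul_assoc, ← h1, mul_assoc]
    simp [ft, fe, pr_single, t2, p3_single, Tri.d2, bbTri, e01, e12, e02, mul_assoc, ← h2, h3]
    rw [add_comm]
  · simp [ft, fe, pr_single, m3_single, Tri.d2, bbTri, e01, e12, e02, mul_assoc]

lemma dd_fe (y : BB G × Ed G →₀ ℤ) : dd (i1 G (fib G (l1 G) (lm (fe G) y))) =
    lm (fun g : BB G => (g.1, [])) ((bbTri G).d1 y) :=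
  LinearMap.congr_fun (f := dd ∘ₗ i1 G ∘ₗ fib G (l1 G) ∘ₗ lm (fe G))
    (g := lm (fun g : BB G => (g.1, [])) ∘ₗ (bbTri G).d1) (lhom_ext' fun ⟨g, e⟩ =>
      LinearMap.ext_ring (by simp [fe, m2_single, i1, dl, Tri.d1, bbTri, mul_assoc])) y

end Rg

open Rg Finsupp in
theorem bb_exact {V : Type} [LinearOrder V] [Fintype V] (G : SimpleGraph V) (h : Acyc G) :
    (bbTri G).Exact := by
  have m3i : ∀ x, fib G (l2 G) x = 0 → x = 0 := fun x => fib_inj h.2.2.1
  have p3i := p3_inj h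
  have m2e := fib_exact (G := G) h.2.2.2
  have p2e := p2_exact h
  refine ⟨closure_eq h.2.1, (injective_iff_map_eq_zero _).mpr fun x hx => ?_, fun y hy => ?_⟩
  · have h1 := fe_d2 x
    rw [hx, map_zero, eq_comm] at h1
    set a := pr (-1) (lm (ft G) x) with ha
    obtain ⟨z, hz⟩ := exact2 h.1 (y := fib G (l2 G) a) (by
      rw [LinearMap.sub_apply, m2_m3, eq_neg_of_add_eq_zero_left h1, map_neg, p2_p3, neg_zero,
        sub_zero])
    obtain ⟨w, -, hw⟩ := push (Z := Empty) (m' := 0) (p' := 0) pr_m3 pr_p3 (by simp) (by simp)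
      (fun y hy => ⟨0, (m3i y hy).symm⟩) (fun y hy => ⟨0, (p3i y hy).symm⟩) (by simp) (w := z)
      (by rw [hz, pr_m3, ha, pr_pr, if_pos rfl])
    rw [p3i z (by simpa using hw), map_zero, eq_comm] at hz
    rw [hz, zero_add] at h1
    have h2 := pr_ft x
    rw [← ha, m3i _ hz, p3i _ h1, add_zero, eq_comm] at h2
    exact lm_inj ft_inj (h2.trans (map_zero _).symm)
  · obtain ⟨w, hw⟩ := exact1 h.1 ((dd_fe y).trans (by rw [hy, map_zero]))
    obtain ⟨z, h1, h2⟩ := push pr_m2 pr_p2 pr_m3 pr_p3 m2e p2e D2_D3 (w := w)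
      (by rw [hw, pr_m2, pr_fe])
    rw [← add_zero ((p2 G - fib G (l1 G)) w), ← D2_D3 z, ← map_add] at hw
    set w := w + (p3 G - fib G (l2 G)) z
    obtain ⟨a, ha⟩ := m2e (lm (fe G) y + w) (by
      rw [map_add, ← hw, LinearMap.sub_apply, h2, zero_sub, neg_add_cancel])
    obtain ⟨b, hb⟩ := p2e w h2
    obtain ⟨x, h3⟩ := lm_surj ft_inj (y := pr (-1) a - pr (-2) b) fun ⟨g, t⟩ hg => by
      by_cases e1 : hh g = -1
      · exact ⟨(⟨g * gen G t.1.1, Multiplicative.toAdd.injective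
          (show hh _ = 0 by simp [e1])⟩, t, true), by simp [ft]⟩
      by_cases e2 : hh g = -2
      · exact ⟨(⟨g * t2 (e01 t), Multiplicative.toAdd.injective
          (show hh _ = 0 by simp [e2, t2])⟩, t, false), by simp [ft]⟩
      · simp [pr_apply, e1, e2] at hg
    refine ⟨x, lm_inj fe_inj ((fe_d2 _).trans ?_)⟩
    rw [h3]
    have e3 := pr_p3 (-1) b
    rw [hb, h1] at e3
    simp only [map_sub, pr_pr, if_true, ← pr_m3, ha, map_add, pr_fe, h1]
    simp [show p3 G (pr (-2) b) = w from e3.symm]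

end Vale.Agent.P173
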