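import Vale.Agent.P173.Basic

/-! The universal cover of the Salvetti complex is acyclic. -/

set_option linter.unusedSectionVars false

namespace Vale.Agent.P173.Rg

open Finsupp

variable {V : Type} [LinearOrder V] {G : SimpleGraph V}

/-- chains -/
abbrev KK (G : SimpleGraph V) := RA G × List V →₀ ℤ

/-- adding a first letter -/
noncomputable def cn (v : V) : KK G →ₗ[ℤ] KK G := lmapDomain ℤ ℤ fun p => (p.1, v :: p.2)

/-- right translation -/
noncomputable def sh (v : V) : KK G →ₗ[ℤ] KK G := lmapDomain ℤ ℤ fun p => (p.1 * gen G v, p.2)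

/-- boundary of a cube -/
noncomputable def dl : List V → RA G → KK G
  | [], _ => 0
  | v :: s, g => single (g * gen G v, s) 1 - single (g, s) 1 - cn v (dl s g)

/-- boundary -/
noncomputable def dd : KK G →ₗ[ℤ] KK G := linearCombination ℤ fun p => dl p.2 p.1

@[simp] lemma cn_single (v : V) (g : RA G) (s : List V) (n : ℤ) :
    cn v (single (g, s) n) = single (g, v :: s) n := by simp [cn]

@[simp] lemma sh_single (v : V) (g : RA G) (s : List V) (n : ℤ) :
    sh v (single (g, s) n) = single (g * gen G v, s) n := by simp [sh]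

@[simp] lemma dd_single (g : RA G) (s : List V) : dd (single (g, s) 1) = dl s g := by simp [dd]

lemma hom_ext {X M : Type*} [AddCommGroup M] {f g : (RA G × X →₀ ℤ) →ₗ[ℤ] M}
    (h : ∀ a s, f (single (a, s) 1) = g (single (a, s) 1)) (x : RA G × X →₀ ℤ) : f x = g x :=
  LinearMap.congr_fun (lhom_ext' fun p => LinearMap.ext_ring (h p.1 p.2)) x

lemma hom_mem {X M : Type*} [AddCommGroup M] {f : (RA G × X →₀ ℤ) →ₗ[ℤ] M} {N : Submodule ℤ M}
    (h : ∀ a s, f (single (a, s) 1) ∈ N) (x : RA G × X →₀ ℤ) : f x ∈ N :=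
  (Submodule.Quotient.mk_eq_zero N).mp (hom_ext (f := N.mkQ ∘ₗ f) (g := 0)
    (fun a s => (Submodule.Quotient.mk_eq_zero N).mpr (h a s)) x)

lemma dd_cn (v : V) (x : KK G) : dd (cn v x) = sh v x - x - cn v (dd x) :=
  hom_ext (f := dd ∘ₗ cn v) (g := sh v - LinearMap.id - cn v ∘ₗ dd) (fun a s => by simp [dl]) x

lemma sh_cn (u v : V) (x : KK G) : sh v (cn u x) = cn u (sh v x) :=
  hom_ext (f := sh v ∘ₗ cn u) (g := cn u ∘ₗ sh v) (fun a s => by simp) x

lemma sh_dl {v : V} {s : List V} (h : ∀ u ∈ s, G.Adj v u) (g : RA G) :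
    sh v (dl s g) = dl s (g * gen G v) := by
  induction s with
  | nil => simp [dl]
  | cons u s ih =>
    simp only [dl, map_sub, sh_single, sh_cn, ih fun w hw => h w (by simp [hw]), mul_assoc,
      (gen_comm G (h u (by simp))).eq]

variable (G) in
/-- chains of cubes with directions in a set -/
noncomputable def Cl (W : Set V) : Submodule ℤ (KK G) :=
  Submodule.span ℤ {x | ∃ g s, s.Pairwise (fun a b => a < b ∧ G.Adj a b) ∧ (∀ a ∈ s, a ∈ W) ∧
    x = single (g, s) 1}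

lemma single_mem {W : Set V} (g : RA G) {s : List V}
    (h1 : s.Pairwise fun a b => a < b ∧ G.Adj a b) (h2 : ∀ a ∈ s, a ∈ W) :
    single (g, s) 1 ∈ Cl G W := Submodule.subset_span ⟨g, s, h1, h2, rfl⟩

lemma Cl_le {W : Set V} {N : Submodule ℤ (KK G)} (h : ∀ g s,
    s.Pairwise (fun a b => a < b ∧ G.Adj a b) → (∀ a ∈ s, a ∈ W) → single (g, s) 1 ∈ N)
    {x : KK G} (hx : x ∈ Cl G W) : x ∈ N :=
  Submodule.span_le.mpr (by rintro _ ⟨g, s, h1, h2, rfl⟩; exact h g s h1 h2) hx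

lemma Cl_eq {M : Type*} [AddCommGroup M] {W : Set V} {f f' : KK G →ₗ[ℤ] M} (h : ∀ g s,
    s.Pairwise (fun a b => a < b ∧ G.Adj a b) → (∀ a ∈ s, a ∈ W) →
      f (single (g, s) 1) = f' (single (g, s) 1)) {x : KK G} (hx : x ∈ Cl G W) : f x = f' x :=
  Cl_le (N := LinearMap.eqLocus f f') h hx

lemma Cl_mono {W W' : Set V} (h : W ⊆ W') {x : KK G} (hx : x ∈ Cl G W) : x ∈ Cl G W' :=
  Cl_le (fun g _ h1 h2 => single_mem g h1 fun a ha => h (h2 a ha)) hx

lemma cn_mem {W : Set V} {v : V} (hv : v ∈ W) {x : KK G}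
    (hx : x ∈ Cl G {a | a ∈ W ∧ v < a ∧ G.Adj v a}) : cn v x ∈ Cl G W :=
  Cl_le (N := (Cl G W).comap (cn v)) (fun g s h1 h2 => by
    rw [Submodule.mem_comap, cn_single]
    exact single_mem g (List.pairwise_cons.mpr ⟨fun a ha => (h2 a ha).2, h1⟩)
      (List.forall_mem_cons.mpr ⟨hv, fun a ha => (h2 a ha).1⟩)) hx

lemma sh_mem {W : Set V} (v : V) {x : KK G} (hx : x ∈ Cl G W) : sh v x ∈ Cl G W :=
  Cl_le (N := (Cl G W).comap (sh v)) (fun g s h1 h2 => by
    rw [Submodule.mem_comap, sh_single]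
    exact single_mem _ h1 h2) hx

/-- evaluation on the degree zero part -/
noncomputable def ev {M : Type*} [AddCommGroup M] (φ : RA G → M) : KK G →ₗ[ℤ] M :=
  linearCombination ℤ fun p => if p.2 = [] then φ p.1 else 0

section ev

variable {M : Type*} [AddCommGroup M] {φ Φ : RA G → M}

@[simp] lemma ev_single (g : RA G) (s : List V) :
    ev φ (single (g, s) 1) = if s = [] then φ g else 0 := by simp [ev]

lemma ev_cn (v : V) (x : KK G) : ev φ (cn v x) = 0 :=
  hom_ext (f := ev φ ∘ₗ cn v) (g := 0) (fun a s => by simp) x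

lemma ev_dd {W : Set V} (h : ∀ u ∈ W, ∀ g, φ (g * gen G u) = φ g) {x : KK G} (hx : x ∈ Cl G W) :
    ev φ (dd x) = 0 :=
  Cl_eq (f := ev φ ∘ₗ dd) (f' := 0) (fun g s _ h2 => by
    cases s with
    | nil => simp [dl]
    | cons u s => simp [dl, ev_cn, h u (h2 u (by simp))]) hx

lemma ev_sh {v : V} (h : ∀ g, Φ (g * gen G v) - Φ g = φ g) (x : KK G) :
    ev Φ (sh v x - x) = ev φ x :=
  hom_ext (f := ev Φ ∘ₗ (sh v - LinearMap.id)) (fun a s => by
    by_cases hs : s = [] <;> simp [hs, h]) x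

lemma tr_apply {Γ N : Type*} [Group Γ] [Group N] (a g : Γ) (f : Γ → N) :
    tr Γ N a f g = f (g * a) := rfl

lemma exists_prim {W : Set V} {v : V} (hv : v ∉ W)
    (h : ∀ u ∈ W, G.Adj v u → ∀ g, φ (g * gen G u) = φ g) :
    ∃ Φ : RA G → M, (∀ u ∈ W, ∀ g, Φ (g * gen G u) = Φ g) ∧
      ∀ g, Φ (g * gen G v) - Φ g = φ g := by
  classical
  let f : V → (RA G → Multiplicative M) ⋊[tr (RA G) _] RA G := fun u =>
    if u = v then ⟨fun g => .ofAdd (φ g), gen G v⟩ else if u ∈ W then ⟨1, gen G u⟩ else 1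
  have f1 : f v = ⟨fun g => .ofAdd (φ g), gen G v⟩ := if_pos rfl
  have f2 : ∀ u ∈ W, f u = ⟨1, gen G u⟩ := fun u hu => by
    simp [f, hu, show u ≠ v from fun e => hv (e ▸ hu)]
  have f3 : ∀ u, u ≠ v → u ∉ W → f u = 1 := fun u h1 h2 => by simp [f, h1, h2]
  have f4 : ∀ u, G.Adj v u → Commute (f v) (f u) := fun u hu => by
    by_cases h1 : u ∈ W
    · rw [f1, f2 u h1]
      refine SemidirectProduct.ext (funext fun g => ?_) (gen_comm G hu).eq
      simp [tr_apply, h u h1 hu]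
    · rw [f3 u hu.ne' h1]; exact Commute.one_right _
  let ψ := raLift G f fun a b hab => by
    by_cases ha : a = v
    · exact ha ▸ f4 b (ha ▸ hab)
    by_cases hb : b = v
    · exact hb ▸ (f4 a (hb ▸ hab.symm)).symm
    by_cases h1 : a ∈ W
    · by_cases h2 : b ∈ W
      · rw [f2 a h1, f2 b h2]
        exact SemidirectProduct.ext (by simp) (gen_comm G hab).eq
      · rw [f3 b hb h2]; exact Commute.one_right _
    · rw [f3 a ha h1]; exact Commute.one_left _
  refine ⟨fun g => ((ψ g).left (g * (ψ g).right⁻¹)).toAdd, fun u hu g => ?_, fun g => ?_⟩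
  · simp [ψ, f2 u hu, mul_assoc]
  · simp [ψ, f1, mul_assoc, tr_apply]

end ev

/-- removing the first letter -/
noncomputable def tl (v : V) : KK G →ₗ[ℤ] KK G :=
  linearCombination ℤ fun p => if p.2.head? = some v then single (p.1, p.2.tail) 1 else 0

lemma tl_cn (v : V) (x : KK G) : tl v (cn v x) = x :=
  hom_ext (f := tl v ∘ₗ cn v) (g := LinearMap.id) (fun a s => by simp [tl]) x

lemma tl_eq_zero {W : Set V} {v : V} (hv : v ∉ W) {x : KK G} (hx : x ∈ Cl G W) : tl v x = 0 :=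
  Cl_eq (f' := 0) (fun g s _ h2 => by
    simpa [tl] using fun h => hv (h2 v (List.mem_of_mem_head? h))) hx

lemma dl_mem {W : Set V} {s : List V} (h1 : s.Pairwise fun a b => a < b ∧ G.Adj a b)
    (h2 : ∀ a ∈ s, a ∈ W) (g : RA G) : dl s g ∈ Cl G W := by
  induction s generalizing W with
  | nil => exact zero_mem _
  | cons u s ih =>
    rw [List.pairwise_cons] at h1
    rw [List.forall_mem_cons] at h2
    exact sub_mem (sub_mem (single_mem _ h1.2 h2.2) (single_mem _ h1.2 h2.2))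
      (cn_mem h2.1 (ih h1.2 fun a ha => ⟨h2.2 a ha, h1.1 a ha⟩))

lemma dd_mem {W : Set V} {x : KK G} (hx : x ∈ Cl G W) : dd x ∈ Cl G W :=
  Cl_le (N := (Cl G W).comap dd) (fun g s h1 h2 => by
    rw [Submodule.mem_comap, dd_single]
    exact dl_mem h1 h2 g) hx

theorem acyclic (W : Finset V) : ∀ x ∈ Cl G W, dd x = 0 →
    ∃ y ∈ Cl G W, x - dd y ∈ Cl G ∅ := by
  induction W using Finset.strongInduction with | H W ih => ?_
  intro x hx h0
  rcases W.eq_empty_or_nonempty with rfl | hW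
  · exact ⟨0, zero_mem _, by simpa using hx⟩
  classical
  obtain ⟨v, hv, hm⟩ := W.exists_min_image id hW
  set L : Set V := {a | a ∈ (W : Set V) ∧ v < a ∧ G.Adj v a}
  have hL : ((W.filter fun a => v < a ∧ G.Adj v a : Finset V) : Set V) = L := Finset.coe_filter _ _
  have ih1 := ih _ (W.erase_ssubset hv)
  have ih2 := hL ▸ ih (W.filter fun a => v < a ∧ G.Adj v a)
    (Finset.filter_ssubset.mpr ⟨v, hv, by simp⟩)
  set U : Set V := ↑(W.erase v)
  have hU : v ∉ U := by simp [U]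
  have hLU : L ⊆ U := fun a ha => by simpa [U] using ⟨ha.1, ha.2.1.ne'⟩
  have hUW : U ⊆ W := fun a ha => Finset.mem_of_mem_erase ha
  obtain ⟨x0, hx0, _, ⟨x1, hx1, rfl⟩, rfl⟩ := Submodule.mem_sup.mp
    (Cl_le (N := Cl G U ⊔ (Cl G L).map (cn v)) (fun g s h1 h2 => by
      by_cases h : v ∈ s
      · obtain _ | ⟨u, s⟩ := s
        · simp at h
        rw [List.pairwise_cons] at h1
        obtain rfl : v = u := (List.mem_cons.mp h).elim id fun h =>
          absurd (h1.1 v h).1 (hm u (h2 u (by simp))).not_gt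
        exact Submodule.mem_sup_right ⟨_, single_mem g h1.2 fun a ha =>
          ⟨h2 a (by simp [ha]), h1.1 a ha⟩, cn_single ..⟩
      · exact Submodule.mem_sup_left (single_mem g h1 fun a ha => by
          simpa [U] using ⟨h2 a ha, fun e => h (e ▸ ha)⟩)) hx)
  have hR : ∀ y ∈ Cl G L, sh v y - y ∈ Cl G U := fun y hy =>
    Cl_mono hLU (sub_mem (sh_mem v hy) hy)
  have h1 : dd x0 + (sh v x1 - x1) = cn v (dd x1) := by
    rw [map_add, dd_cn, ← add_sub_assoc, sub_eq_zero] at h0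
    exact h0
  have h2 : dd x1 = 0 := by
    rw [← tl_cn v (dd x1), ← h1]
    exact tl_eq_zero hU (add_mem (dd_mem hx0) (hR _ hx1))
  rw [h2, map_zero] at h1
  obtain ⟨y1, hy1, rfl⟩ : x1 ∈ (Cl G L).map dd := by
    obtain ⟨y, hy, hz⟩ := ih2 x1 hx1 h2
    let φ : RA G → _ := fun g => ((Cl G L).map dd).mkQ (single (g, []) 1)
    have hφ : ∀ u ∈ L, ∀ g, φ (g * gen G u) = φ g := fun u hu g =>
      (Submodule.Quotient.eq _).mpr ⟨single (g, [u]) 1, single_mem g (by simp) (by simpa using hu),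
        by simp [dl]⟩
    obtain ⟨Φ, e1, e2⟩ := exists_prim (φ := φ) hU fun u hu h => hφ u ⟨hUW hu,
      (hm u (hUW hu)).lt_of_ne h.ne, h⟩
    have e3 := congrArg (ev Φ) h1
    rw [map_add, ev_dd e1 hx0, ev_sh e2, zero_add, map_zero] at e3
    have e4 := Cl_eq (f := ev φ) (f' := ((Cl G L).map dd).mkQ) (fun g s _ h => by
      obtain rfl := List.eq_nil_iff_forall_not_mem.mpr h
      simp [φ]) hz
    rw [map_sub, e3, ev_dd hφ hy, sub_zero, eq_comm, Submodule.mkQ_apply,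
      Submodule.Quotient.mk_eq_zero] at e4
    simpa using add_mem e4 ⟨y, hy, rfl⟩
  have h3 : dd (sh v y1) = sh v (dd y1) := Cl_eq (f := dd ∘ₗ sh v) (f' := sh v ∘ₗ dd)
    (fun g s _ h => by simp [sh_dl fun u hu => (h u hu).2.2]) hy1
  obtain ⟨y, hy, hz⟩ := ih1 _ (add_mem hx0 (hR _ hy1)) (by rw [map_add, map_sub, h3, h1])
  refine ⟨y - cn v y1, sub_mem (Cl_mono hUW hy) (cn_mem hv hy1), ?_⟩
  rw [map_sub, dd_cn]
  exact Set.mem_of_eq_of_mem (by abel) hz

end Vale.Agent.P173.Rg
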