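import Vale.Agent.P173.RaagA

/-! Ascending and descending parts of the boundary, and pushing chains to one level. -/

set_option linter.unusedSectionVars false

namespace Vale.Agent.P173.Rg

open Finsupp

variable {V : Type} [LinearOrder V] {G : SimpleGraph V} {X Y Z : Type}

/-- push forward of chains -/
noncomputable def lm {X Y : Type*} (f : X → Y) : (X →₀ ℤ) →ₗ[ℤ] (Y →₀ ℤ) := lmapDomain ℤ ℤ f

@[simp] lemma lm_single {X Y : Type*} (f : X → Y) (a : X) (n : ℤ) :
    lm f (single a n) = single (f a) n := mapDomain_single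

lemma lm_inj {X Y : Type*} {f : X → Y} (hf : f.Injective) : Function.Injective (lm f) :=
  mapDomain_injective hf

lemma lm_surj {X Y : Type*} {f : X → Y} (hf : f.Injective) {y : Y →₀ ℤ}
    (hy : ∀ a, y a ≠ 0 → a ∈ Set.range f) : ∃ x, lm f x = y :=
  ⟨_, mapDomain_comapDomain f hf y fun a ha => hy a (mem_support_iff.mp ha)⟩

section fib

variable (G) in
/-- fibrewise action of a linear map -/
noncomputable def fib (l : (X →₀ ℤ) →ₗ[ℤ] (Y →₀ ℤ)) : (RA G × X →₀ ℤ) →ₗ[ℤ] (RA G × Y →₀ ℤ) :=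
  (curryLinearEquiv ℤ).symm.toLinearMap ∘ₗ mapRange.linearMap l ∘ₗ
    (curryLinearEquiv ℤ).toLinearMap

lemma fib_apply (l : (X →₀ ℤ) →ₗ[ℤ] (Y →₀ ℤ)) (x : RA G × X →₀ ℤ) (g : RA G) (y : Y) :
    fib G l x (g, y) = l (x.curry g) y := rfl

lemma fib_single (l : (X →₀ ℤ) →ₗ[ℤ] (Y →₀ ℤ)) (g : RA G) (x : X) :
    fib G l (single (g, x) 1) = lm (Prod.mk g) (l (single x 1)) := by
  ext ⟨a, y⟩
  rw [fib_apply, curry_single, lm, lmapDomain_apply]
  rcases eq_or_ne a g with rfl | h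
  · rw [mapDomain_apply (Prod.mk_right_injective a), single_eq_same]
  · rw [mapDomain_of_notMem_range _ _ (by simp [h.symm]), single_eq_of_ne h, map_zero,
      Finsupp.zero_apply]

lemma fib_exact {l : (Y →₀ ℤ) →ₗ[ℤ] (Z →₀ ℤ)} {l' : (X →₀ ℤ) →ₗ[ℤ] (Y →₀ ℤ)}
    (h : ∀ y, l y = 0 → ∃ x, l' x = y) (y : RA G × Y →₀ ℤ) (hy : fib G l y = 0) :
    ∃ x, fib G l' x = y := by
  classical
  choose x hx using fun g => h (y.curry g) (Finsupp.ext fun z => congr($hy (g, z)))
  refine ⟨(onFinset y.curry.support (fun g => if y.curry g = 0 then 0 else x g) fun g hg =>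
    mem_support_iff.mpr fun h => hg (if_pos h)).uncurry, Finsupp.ext fun ⟨g, b⟩ => ?_⟩
  rw [fib_apply, curry_uncurry, onFinset_apply, ← curry_apply]
  split_ifs with h1
  · rw [map_zero, h1]
  · rw [hx]

lemma fib_inj {l : (X →₀ ℤ) →ₗ[ℤ] (Y →₀ ℤ)} (h : Function.Injective l) {x : RA G × X →₀ ℤ}
    (hx : fib G l x = 0) : x = 0 := by
  ext ⟨g, a⟩
  exact congr($((map_eq_zero_iff l h (x := x.curry g)).mp
    (Finsupp.ext fun z => congr($hx (g, z)))) a)

/-- reindexing by the top vertex -/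
noncomputable def tw (f : X → RA G) : (RA G × X →₀ ℤ) ≃ₗ[ℤ] (RA G × X →₀ ℤ) :=
  Finsupp.domLCongr (Equiv.prodCongrLeft fun x => Equiv.mulRight (f x))

lemma tw_single (f : X → RA G) (g : RA G) (x : X) :
    tw f (single (g, x) 1) = single (g * f x, x) 1 := by simp [tw]

lemma tw_symm_single (f : X → RA G) (g : RA G) (x : X) :
    (tw f).symm (single (g, x) 1) = single (g * (f x)⁻¹, x) 1 := by
  rw [LinearEquiv.symm_apply_eq, tw_single, inv_mul_cancel_right]

end fib

/-- integer height -/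
def hh (g : RA G) : ℤ := (ht G g).toAdd

@[simp] lemma hh_mul (a b : RA G) : hh (a * b) = hh a + hh b := by simp [hh]
@[simp] lemma hh_inv (a : RA G) : hh a⁻¹ = -hh a := by simp [hh]
@[simp] lemma hh_gen (v : V) : hh (gen G v) = 1 := by simp [hh, ht]
@[simp] lemma hh_bb (a : BB G) : hh a.1 = 0 := congrArg Multiplicative.toAdd a.2

/-- projection to a level -/
noncomputable def pr (n : ℤ) : (RA G × X →₀ ℤ) →ₗ[ℤ] (RA G × X →₀ ℤ) :=
  (filterAddHom fun p : RA G × X => hh p.1 = n).toIntLinearMap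

lemma pr_apply (n : ℤ) (x : RA G × X →₀ ℤ) (p : RA G × X) :
    pr n x p = if hh p.1 = n then x p else 0 := rfl

lemma pr_single (n : ℤ) (g : RA G) (x : X) :
    pr n (single (g, x) 1) = if hh g = n then single (g, x) 1 else 0 := by
  split_ifs with h
  exacts [filter_single_of_pos _ h, filter_single_of_neg _ h]

lemma pr_pr (n k : ℤ) (x : RA G × X →₀ ℤ) : pr n (pr k x) = if n = k then pr k x else 0 := by
  ext p
  split_ifs with h <;> simp only [pr_apply, Finsupp.zero_apply] <;> grind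

lemma push {m p : (RA G × Y →₀ ℤ) →ₗ[ℤ] (RA G × X →₀ ℤ)}
    {m' p' : (RA G × Z →₀ ℤ) →ₗ[ℤ] (RA G × Y →₀ ℤ)} (hm : ∀ n x, pr n (m x) = m (pr n x))
    (hp : ∀ n x, pr n (p x) = p (pr (n - 1) x)) (hm' : ∀ n x, pr n (m' x) = m' (pr n x))
    (hp' : ∀ n x, pr n (p' x) = p' (pr (n - 1) x)) (em : ∀ y, m y = 0 → ∃ x, m' x = y)
    (ep : ∀ y, p y = 0 → ∃ x, p' x = y) (hD : ∀ x, (p - m) ((p' - m') x) = 0)
    {w : RA G × Y →₀ ℤ} (hw : pr (-1) ((p - m) w) = (p - m) w) :
    ∃ z, pr (-1) (w + (p' - m') z) = w + (p' - m') z ∧ p (w + (p' - m') z) = 0 := by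
  obtain ⟨N, hN⟩ : ∃ N : ℕ, ∀ n : ℤ, N < (n + 1).natAbs → pr n w = 0 := by
    refine ⟨w.support.sup fun q => (hh q.1 + 1).natAbs, fun n hn => Finsupp.ext fun q => ?_⟩
    rw [pr_apply, Finsupp.zero_apply]
    split_ifs with h
    · by_contra h1
      exact (h ▸ hn).not_ge (Finset.le_sup (f := fun q : RA G × Y => (hh q.1 + 1).natAbs)
        (mem_support_iff.mpr h1))
    · rfl
  induction N generalizing w with
  | zero =>
    have h1 : pr (-1) w = w := Finsupp.ext fun q => by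
      rw [pr_apply]
      split_ifs with h
      · rfl
      · simpa [pr_apply] using congr($(hN (hh q.1) (by omega)) q).symm
    have h2 := congrArg (pr 0) hw
    rw [pr_pr, if_neg (by simp), LinearMap.sub_apply, map_sub, hm, hp, zero_sub, h1,
      hN 0 (by omega), map_zero, sub_zero] at h2
    exact ⟨0, by simp [h1, ← h2]⟩
  | succ N ih =>
    have h0 : ∀ n, n ≠ -1 → p (pr (n - 1) w) = m (pr n w) := fun n hn => by
      have h2 := congrArg (pr n) hw
      rwa [pr_pr, if_neg hn, LinearMap.sub_apply, map_sub, hm, hp, eq_comm, sub_eq_zero] at h2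
    obtain ⟨a, ha⟩ := em (pr (-2 - N) w) (by
      rw [← h0 _ (by omega), hN _ (by omega), map_zero])
    obtain ⟨b, hb⟩ := ep (pr (N + 1 - 1) w) (by rw [h0 _ (by omega), hN _ (by omega), map_zero])
    rw [add_sub_cancel_right] at hb
    have e1 : m' (pr (-2 - N) a) = pr (-2 - N) w := by rw [← hm', ha, pr_pr, if_pos rfl]
    have e2 : p' (pr (N - 1) b) = pr N w := by rw [← hp', hb, pr_pr, if_pos rfl]
    obtain ⟨z, hz⟩ := ih (w := w + (p' - m') (pr (-2 - N) a - pr (N - 1) b))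
      (by rwa [map_add (p - m), hD, add_zero]) fun n hn => by
        simp only [LinearMap.sub_apply, map_sub, map_add, e1, e2, hm', hp']
        simp only [pr_pr, if_neg (show n - 1 ≠ -2 - N by omega), if_neg (show n ≠ N - 1 by omega)]
        by_cases h1 : n = N
        · simp [h1, show (N : ℤ) ≠ -2 - N by omega]
        by_cases h2 : n = -2 - N
        · simp [h2, show -2 - (N : ℤ) ≠ N by omega]
        · simp [h1, h2, hN n (by omega)]
    exact ⟨pr (-2 - N) a - pr (N - 1) b + z, by rwa [map_add (p' - m'), ← add_assoc]⟩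

end Vale.Agent.P173.Rg
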