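import Vale.Agent.P173.App

set_option linter.unusedSectionVars false

namespace Vale.Agent.P173

open Quaternion

theorem exists_P (a : U) : ∃ P : ℝ → ℍ[ℝ], ContDiff ℝ 1 P ∧ P 0 = 1 ∧ P 1 = a ∧ ∀ t, P t ≠ 0 := by
  by_cases h : (a : ℍ[ℝ]) = -1
  · obtain ⟨i, i1, i2⟩ : ∃ i : ℍ[ℝ], i.re = 0 ∧ i.imI = 1 := ⟨⟨0, 1, 0, 0⟩, rfl, rfl⟩
    refine ⟨fun t => (1 - 2 * t) • (1 : ℍ[ℝ]) + (t * (1 - t)) • i, by fun_prop, by simp,
      by norm_num [h], fun t ht => ?_⟩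
    have h1 := congrArg (·.re) ht
    have h2 := congrArg (·.imI) ht
    simp [i1, i2] at h1 h2
    rcases h2 with h2 | h2 <;> linarith
  · refine ⟨fun t => (1 - t) • (1 : ℍ[ℝ]) + t • (a : ℍ[ℝ]), by fun_prop, by simp, by simp,
      fun t ht => h ?_⟩
    have h1 := eq_neg_of_add_eq_zero_right ht
    have h2 := congrArg norm h1
    simp only [norm_smul, norm_U, mul_one, norm_neg, norm_one, Real.norm_eq_abs] at h2
    obtain h2 | h2 := abs_eq_abs.1 h2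
    · obtain rfl : t = 1 / 2 := by linarith
      refine smul_right_injective _ (by norm_num : (1 / 2 : ℝ) ≠ 0) (h1.trans ?_)
      norm_num
    · linarith

theorem exists_fill {P Q : ℝ → ℍ[ℝ]} (hP : ContDiff ℝ 1 P) (hQ : ContDiff ℝ 1 Q)
    (hP0 : ∀ t, P t ≠ 0) (hQ0 : ∀ t, Q t ≠ 0) (h0 : P 0 = Q 0) (h1 : P 1 = Q 1) :
    ∃ B : ℝ × ℝ → U, Continuous B ∧ (∀ t, B (t, 0) = nrm (P t)) ∧ (∀ t, B (t, 1) = nrm (Q t)) ∧
      (∀ s, B (0, s) = nrm (P 0)) ∧ ∀ s, B (1, s) = nrm (P 1) := by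
  have hf : ContDiff ℝ 1 fun z : ℝ × ℝ × ℝ => z.1 • ((1 - z.2.2) • P z.2.1 + z.2.2 • Q z.2.1) := by
    fun_prop
  obtain ⟨y, hy⟩ := (hf.dense_compl_range_of_finrank_lt_finrank
    (by simp [Quaternion.finrank_eq_four])).nonempty
  have cP := hP.continuous
  have cQ := hQ.continuous
  refine ⟨fun z => nrm ((1 - z.2) • P z.1 + z.2 • Q z.1 - (z.2 * (1 - z.2) * z.1 * (1 - z.1)) • y),
    cont_nrm (by fun_prop) fun z hz => ?_, by simp, by simp, fun s => ?_, fun s => ?_⟩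
  · rw [sub_eq_zero] at hz
    by_cases hc : z.2 * (1 - z.2) * z.1 * (1 - z.1) = 0
    · rw [hc, zero_smul] at hz
      simp only [mul_eq_zero, sub_eq_zero] at hc
      rcases hc with ((hc | hc) | hc) | hc
      · simp [hc, hP0] at hz
      · simp [← hc, hQ0] at hz
      · simp [hc, ← h0, ← add_smul, hP0] at hz
      · simp [← hc, ← h1, ← add_smul, hP0] at hz
    · exact hy ⟨(_, z.1, z.2), by dsimp only; rw [hz, inv_smul_smul₀ hc]⟩
  · simp [← h0, ← add_smul]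
  · simp [← h1, ← add_smul]

theorem nrm_star_mul {x y : ℍ[ℝ]} (hx : x ≠ 0) (hy : y ≠ 0) :
    nrm (star x * y) = (nrm x)⁻¹ * nrm y := by
  rw [eq_inv_mul_iff_mul_eq]
  refine Subtype.ext ?_
  have := norm_ne_zero_iff.2 hx
  rw [Metric.unitSphere.coe_mul, coe_nrm hx, coe_nrm hy, coe_nrm (by simp [hx, hy]),
    smul_mul_smul_comm, ← mul_assoc x, self_mul_star, normSq_eq_norm_mul_self, coe_mul_eq_smul,
    smul_smul, norm_mul, norm_star]
  congr 1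
  field_simp

/-- paths of connections on the edges and fillings on the triangles -/
theorem exists_paths {V : Type} (ψ : V → V → U) :
    ∃ (p : V → V → ℝ → U) (B : V × V × V → ℝ × ℝ → U), (∀ u v, Continuous (p u v)) ∧
      (∀ u v, p u v 0 = 1) ∧ (∀ u v, p u v 1 = ψ u v) ∧ (∀ x, Continuous (B x)) ∧
      (∀ x s, B x (0, s) = 1) ∧ ∀ x y z, ψ x y * ψ y z = ψ x z →
        (∀ t, B (x, y, z) (t, 0) = (p x y t)⁻¹ * p x z t) ∧ (∀ t, B (x, y, z) (t, 1) = p y z t) ∧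
        ∀ s, B (x, y, z) (1, s) = ψ y z := by
  choose P h1 h2 h3 h4 using fun u v => exists_P (ψ u v)
  have hs : ContDiff ℝ 1 (star : ℍ[ℝ] → ℍ[ℝ]) := (IsLinearMap.mk' (star : ℍ[ℝ] → ℍ[ℝ])
    ⟨star_add, Quaternion.star_smul (S := ℝ)⟩).toContinuousLinearMap.contDiff
  have : ∀ w : V × V × V, ∃ B : ℝ × ℝ → U, Continuous B ∧ (∀ s, B (0, s) = 1) ∧
      (ψ w.1 w.2.1 * ψ w.2.1 w.2.2 = ψ w.1 w.2.2 →
        (∀ t, B (t, 0) = (nrm (P w.1 w.2.1 t))⁻¹ * nrm (P w.1 w.2.2 t)) ∧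
        (∀ t, B (t, 1) = nrm (P w.2.1 w.2.2 t)) ∧ ∀ s, B (1, s) = ψ w.2.1 w.2.2) := by
    rintro ⟨x, y, z⟩
    by_cases h : ψ x y * ψ y z = ψ x z
    · have e : star (P x y 1) * P x z 1 = P y z 1 := by
        rw [h3, h3, h3, ← h, Metric.unitSphere.coe_mul, ← mul_assoc, star_mul_self,
          normSq_eq_norm_mul_self]
        simp
      obtain ⟨B, b1, b2, b3, b4, b5⟩ := exists_fill (P := fun t => star (P x y t) * P x z t)
        (Q := P y z) ((hs.comp (h1 x y)).mul (h1 x z)) (h1 y z)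
        (fun t => by simp [h4]) (h4 y z) (by simp [h2]) e
      exact ⟨B, b1, by simpa [h2] using b4, fun _ => ⟨fun t => by
        rw [b2, nrm_star_mul (h4 _ _ _) (h4 _ _ _)], b3, fun s => by rw [b5, e, h3, nrm_U]⟩⟩
    · exact ⟨fun _ => 1, continuous_const, fun _ => rfl, fun h' => (h h').elim⟩
  choose B b1 b2 b3 using this
  exact ⟨fun u v t => nrm (P u v t), B, fun u v => cont_nrm (h1 u v).continuous (h4 u v),
    by simp [h2], by simp [h3], b1, b2, fun x y z => b3 (x, y, z)⟩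

theorem exists_mesh {W : Type} [Finite W] (B : W → ℝ × ℝ → U) (hB : ∀ x, Continuous (B x)) {ε : ℝ}
    (hε : 0 < ε) : ∃ k : ℕ, 0 < k ∧ ∀ x t, t ∈ Set.Icc (0 : ℝ) 1 → ∀ r : ℕ, 1 ≤ r → r ≤ k →
      ‖(B x (t, r / k) : ℍ[ℝ]) - B x (t, (r - 1) / k)‖ ≤ ε := by
  cases nonempty_fintype W
  have hc : Continuous fun z x => (B x z : ℍ[ℝ]) :=
    continuous_pi fun x => continuous_subtype_val.comp (hB x)
  obtain ⟨δ, hδ, h⟩ := Metric.uniformContinuousOn_iff_le.1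
    ((isCompact_Icc.prod isCompact_Icc : IsCompact (Set.Icc (0 : ℝ) 1 ×ˢ Set.Icc (0 : ℝ) 1)
      ).uniformContinuousOn_of_continuous hc.continuousOn) ε hε
  obtain ⟨k, hk⟩ := exists_nat_one_div_lt hδ
  refine ⟨k + 1, k.succ_pos, fun x t ht r h1 h2 => ?_⟩
  have h1' : (1 : ℝ) ≤ r := by exact_mod_cast h1
  have h2' : (r : ℝ) ≤ (k + 1 : ℕ) := by exact_mod_cast h2
  have hk0 : (0 : ℝ) < (k + 1 : ℕ) := by positivity
  have := h (t, r / (k + 1 : ℕ)) ⟨ht, by positivity, (div_le_one hk0).2 h2'⟩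
    (t, (r - 1) / (k + 1 : ℕ)) ⟨ht, div_nonneg (by linarith) hk0.le,
      (div_le_one hk0).2 (by linarith)⟩ (by
      rw [Prod.dist_eq, dist_self, Real.dist_eq, ← sub_div, sub_sub_cancel, abs_of_pos (by positivity)]
      exact max_le hδ.le (by simpa using hk.le))
  exact (dist_eq_norm _ _).ge.trans ((dist_le_pi_dist _ _ x).trans this)

end Vale.Agent.P173
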