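import Vale.Agent.P173.Basic

set_option linter.unusedSectionVars false

namespace Vale.Agent.P173

variable {V : Type} [LinearOrder V] (G : SimpleGraph V)

/-- the support is a clique -/
def Cl (m : Multiset V) : Prop := ∀ x ∈ m, ∀ y ∈ m, x ≠ y → G.Adj x y

variable {G}

theorem Cl.mono {m n : Multiset V} (h : Cl G n) (hmn : ∀ x ∈ m, x ∈ n) : Cl G m :=
  fun x hx y hy => h x (hmn x hx) y (hmn y hy)

theorem h1_zero (h : Acyc G) (w : Ed G → ℝ) (hw : ∀ t, w (e01 t) + w (e12 t) = w (e02 t)) :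
    ∃ φ : V → ℝ, ∀ e, w e = φ e.1.2 - φ e.1.1 := by
  obtain ⟨v0⟩ := h.2.1.nonempty
  have : ∀ v, ∃ c, l1 G c = Finsupp.single v0 1 - Finsupp.single v 1 := fun v => by
    obtain ⟨p⟩ := h.2.1 v v0
    induction p with
    | nil => exact ⟨0, by simp⟩
    | @cons a b c hab p ih =>
      obtain ⟨y, hy⟩ := ih
      rcases lt_or_gt_of_ne hab.ne with h' | h'
      · exact ⟨y + Finsupp.single ⟨(a, b), h', hab⟩ 1, by rw [map_add, hy]; simp [l1]⟩
      · exact ⟨y - Finsupp.single ⟨(b, a), h', hab.symm⟩ 1, by rw [map_sub, hy]; simp [l1]⟩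
  choose c hc using this
  refine ⟨fun v => - Finsupp.linearCombination ℤ w (c v), fun e => ?_⟩
  obtain ⟨x, hx⟩ := h.2.2.2 (c e.1.2 + Finsupp.single e 1 - c e.1.1) (by
    rw [map_sub, map_add, hc, hc]; simp [l1])
  have h0 : (Finsupp.linearCombination ℤ w).comp (l2 G) = 0 := by ext t; simp [l2, hw]
  have := DFunLike.congr_fun h0 x
  simp [hx] at this
  linarith

/-- vanishing of the first cohomology at a given scale -/
def H1 (G : SimpleGraph V) (k : ℕ) : Prop :=
  ∀ W : Multiset V → V → V → ℝ, (∀ m x y, W m x y = - W m y x) →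
    (∀ m x y z, m.card = k → Cl G (x ::ₘ y ::ₘ z ::ₘ m) → W m x y + W m y z + W m z x = 0) →
    (∀ m x y z, m.card + 1 = k → Cl G (x ::ₘ y ::ₘ z ::ₘ m) →
      W (x ::ₘ m) y z + W (y ::ₘ m) z x + W (z ::ₘ m) x y = 0) →
    ∃ φ : Multiset V → ℝ, ∀ m x y, m.card = k → Cl G (x ::ₘ y ::ₘ m) →
      W m x y = φ (y ::ₘ m) - φ (x ::ₘ m)

theorem cl_tr (t : Tr G) : Cl G (t.1.1 ::ₘ t.1.2.1 ::ₘ t.1.2.2 ::ₘ 0) := by
  obtain ⟨⟨a, b, c⟩, -, -, h1, h2, h3⟩ := t
  intro x hx y hy hne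
  simp only [Multiset.mem_cons, Multiset.notMem_zero, or_false] at hx hy
  rcases hx with rfl | rfl | rfl <;> rcases hy with rfl | rfl | rfl <;>
    first | exact (hne rfl).elim | assumption | (symm; assumption)

theorem h1_all (h : Acyc G) (k : ℕ) : H1 G k := by
  induction k with
  | zero =>
    intro W h1 h2 _
    obtain ⟨φ, hφ⟩ := h1_zero h (fun e => W 0 e.1.1 e.1.2) fun t => by
      have := h2 0 _ _ _ rfl (cl_tr t)
      rw [h1 0 t.1.2.2] at this
      simp only [e01, e12, e02]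
      linarith
    refine ⟨fun m => (m.map φ).sum, fun m x y hm hc => ?_⟩
    obtain rfl := Multiset.card_eq_zero.1 hm
    rcases lt_trichotomy x y with h' | rfl | h'
    · simpa using hφ ⟨(x, y), h', hc x (by simp) y (by simp) h'.ne⟩
    · linarith [h1 0 x x]
    · have := hφ ⟨(y, x), h', hc y (by simp) x (by simp) h'.ne⟩
      rw [h1]
      simp at this ⊢
      linarith
  | succ k ih =>
    intro W h1 h2 h3
    have := h.2.1.nonempty
    obtain ⟨p, hp⟩ : ∃ p : Multiset V → V, ∀ m, m ≠ 0 → p m ∈ m := by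
      choose! p hp using fun m : Multiset V => Multiset.exists_mem_of_ne_zero (s := m)
      exact ⟨p, hp⟩
    have h4 : ∀ m x y, m.card = k + 1 → Cl G (x ::ₘ y ::ₘ m) →
        W m x y = W m (p m) y - W m (p m) x := fun m x y hm hc => by
      have := h2 m (p m) x y hm (hc.mono (by
        have := hp m (by rintro rfl; simp at hm)
        simp +contextual [this]))
      linarith [h1 m y (p m)]
    obtain ⟨φ, hφ⟩ := ih (fun m x y => W (x ::ₘ m) (p (x ::ₘ m)) y - W (y ::ₘ m) (p (y ::ₘ m)) x)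
      (by simp) (fun m x y z hm hc => by
        have := h3 m x y z (by omega) hc
        rw [h4 _ y z (by simp [hm]) (hc.mono (by simp +contextual [or_imp])),
          h4 _ z x (by simp [hm]) (hc.mono (by simp +contextual [or_imp])),
          h4 _ x y (by simp [hm]) (hc.mono (by simp +contextual [or_imp]))] at this
        linarith) (fun m x y z _ _ => by
        rw [Multiset.cons_swap y x, Multiset.cons_swap z x, Multiset.cons_swap z y]; ring)
    have h5 : ∀ m v, m.card = k + 1 → Cl G (v ::ₘ m) → W ((v ::ₘ m).erase (p (v ::ₘ m)))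
        (p ((v ::ₘ m).erase (p (v ::ₘ m)))) (p (v ::ₘ m)) + φ ((v ::ₘ m).erase (p (v ::ₘ m))) =
        W m (p m) v + φ m := fun m v hm hc => by
      rcases Multiset.mem_cons.1 (hp (v ::ₘ m) (by simp)) with e | e
      · simp [e]
      · generalize p (v ::ₘ m) = u at e
        obtain ⟨n, rfl⟩ := Multiset.exists_cons_of_mem e
        rw [Multiset.cons_swap, Multiset.erase_cons_head]
        linarith [hφ n v u (by simpa using hm) hc]
    refine ⟨fun n => W (n.erase (p n)) (p (n.erase (p n))) (p n) + φ (n.erase (p n)),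
      fun m x y hm hc => ?_⟩
    dsimp only
    rw [h5 m y hm (hc.mono (by simp +contextual)),
      h5 m x hm (hc.mono (by simp +contextual [or_imp])), h4 m x y hm hc]
    ring

/-- the ordered form -/
theorem h1_ord (h : Acyc G) (k : ℕ) (w : Multiset V → Ed G → ℝ)
    (h2 : ∀ m (t : Tr G), m.card = k → Cl G (t.1.1 ::ₘ t.1.2.1 ::ₘ t.1.2.2 ::ₘ m) →
      w m (e01 t) + w m (e12 t) = w m (e02 t))
    (h3 : ∀ m (t : Tr G), m.card + 1 = k → Cl G (t.1.1 ::ₘ t.1.2.1 ::ₘ t.1.2.2 ::ₘ m) →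
      w (t.1.1 ::ₘ m) (e12 t) + w (t.1.2.2 ::ₘ m) (e01 t) = w (t.1.2.1 ::ₘ m) (e02 t)) :
    ∃ φ : Multiset V → ℝ, ∀ m (e : Ed G), m.card = k → Cl G (e.1.1 ::ₘ e.1.2 ::ₘ m) →
      w m e = φ (e.1.2 ::ₘ m) - φ (e.1.1 ::ₘ m) := by
  classical
  obtain ⟨w', hw', hw0⟩ : ∃ w' : Multiset V → V → V → ℝ, (∀ m (e : Ed G), w' m e.1.1 e.1.2 = w m e) ∧
      ∀ m x y, y ≤ x → w' m x y = 0 :=
    ⟨fun m x y => if h : x < y ∧ G.Adj x y then w m ⟨(x, y), h⟩ else 0, fun m e => dif_pos e.2,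
      fun m x y h => dif_neg fun h' => h'.1.not_ge h⟩
  have key : ∀ (F : V → V → V → ℝ) (m : Multiset V), (∀ x y z, F x y z = F y z x) →
      (∀ x y z, F x y z = - F y x z) → (∀ t : Tr G, Cl G (t.1.1 ::ₘ t.1.2.1 ::ₘ t.1.2.2 ::ₘ m) →
      F t.1.1 t.1.2.1 t.1.2.2 = 0) → ∀ x y z, Cl G (x ::ₘ y ::ₘ z ::ₘ m) → F x y z = 0 := by
    intro F m a1 a2 a3 x y z hc
    have a4 : ∀ x y z, x < y → y < z → Cl G (x ::ₘ y ::ₘ z ::ₘ m) → F x y z = 0 :=
      fun x y z b1 b2 hc => a3 ⟨(x, y, z), b1, b2, hc _ (by simp) _ (by simp) b1.ne,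
        hc _ (by simp) _ (by simp) b2.ne, hc _ (by simp) _ (by simp) (b1.trans b2).ne⟩ hc
    have a5 : ∀ x y z, x < y → Cl G (x ::ₘ y ::ₘ z ::ₘ m) → F x y z = 0 := fun x y z b1 hc => by
      rcases lt_trichotomy y z with b | rfl | b
      · exact a4 _ _ _ b1 b hc
      · linarith [a1 x y y, a2 y y x]
      · rcases lt_trichotomy x z with b' | rfl | b'
        · linarith [a4 _ _ _ b' b (hc.mono (by simp +contextual [or_imp])), a1 y x z, a2 x y z]
        · linarith [a1 x x y, a2 x x y]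
        · linarith [a4 _ _ _ b' b1 (hc.mono (by simp +contextual [or_imp])), a1 z x y]
    rcases lt_trichotomy x y with b | rfl | b
    · exact a5 _ _ _ b hc
    · linarith [a2 x x z]
    · linarith [a5 _ _ z b (hc.mono (by simp +contextual [or_imp])), a2 x y z]
  obtain ⟨φ, hφ⟩ := h1_all h k (fun m x y => w' m x y - w' m y x) (by simp)
    (fun m x y z hm => key (fun x y z => w' m x y - w' m y x + (w' m y z - w' m z y) +
      (w' m z x - w' m x z)) m (by intros; ring) (by intros; ring) (fun t ht => by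
        have := h2 m t hm ht
        rw [← hw', ← hw', ← hw'] at this
        rw [hw0 _ _ _ t.2.1.le, hw0 _ _ _ t.2.2.1.le, hw0 _ _ _ (t.2.1.trans t.2.2.1).le]
        simp only [e01, e12, e02] at this
        linarith) x y z)
    (fun m x y z hm => key (fun x y z => w' (x ::ₘ m) y z - w' (x ::ₘ m) z y + (w' (y ::ₘ m) z x -
      w' (y ::ₘ m) x z) + (w' (z ::ₘ m) x y - w' (z ::ₘ m) y x)) m (by intros; ring)
      (by intros; ring) (fun t ht => by
        have := h3 m t hm ht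
        rw [← hw', ← hw', ← hw'] at this
        rw [hw0 _ _ _ t.2.1.le, hw0 _ _ _ t.2.2.1.le, hw0 _ _ _ (t.2.1.trans t.2.2.1).le]
        simp only [e01, e12, e02] at this
        linarith) x y z)
  exact ⟨φ, fun m e hm hc => by simpa [hw', hw0 _ _ _ e.2.1.le] using hφ m _ _ hm hc⟩

end Vale.Agent.P173
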