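import Vale.Agent.P173.Sc1
import Vale.Agent.P173.Sc2

set_option linter.unusedSectionVars false

namespace Vale.Agent.P173

open Quaternion

variable {V : Type} [LinearOrder V] (G : SimpleGraph V)

/-- monomials -/
noncomputable def mon (m : Multiset V) : RA G := (m.toList.map (gen G)).prod

theorem mon_cons {v : V} {m : Multiset V} (h : Cl G (v ::ₘ m)) :
    mon G (v ::ₘ m) = mon G m * gen G v := by
  have : (v ::ₘ m).toList.Perm (m.toList ++ [v]) := by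
    rw [← Multiset.coe_eq_coe, ← Multiset.coe_add]; simp [add_comm m]
  rw [mon, (this.map _).prod_eq', mon]
  · simp
  · refine List.pairwise_map.2 (List.pairwise_of_forall_mem_list fun x hx y hy => ?_)
    by_cases e : x = y
    · rw [e]
    · exact gen_comm G (h x (by simpa using hx) y (by simpa using hy) e)

theorem hom_mon {M : Type} [AddCommMonoid M] (f : RA G →* Multiplicative M) (m : Multiset V) :
    f (mon G m) = Multiplicative.ofAdd (m.map fun v => (f (gen G v)).toAdd).sum := by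
  rw [mon, map_list_prod, ← Multiset.prod_coe, List.map_map, ← Multiset.map_coe,
    Multiset.coe_toList]
  induction m using Multiset.induction_on with
  | empty => simp
  | cons a s ih => simp [ofAdd_add]

theorem mon_inj : Function.Injective (mon G) := fun m n h => by
  ext v
  have := congrArg (raLift G (fun u => Multiplicative.ofAdd (if u = v then (1 : ℤ) else 0))
    fun _ _ _ => Commute.all _ _) h
  have key : ∀ m : Multiset V, (m.map fun u => if u = v then (1 : ℤ) else 0).sum = m.count v :=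
    fun m => by
      induction m using Multiset.induction_on with
      | empty => simp
      | cons a s ih => by_cases e : a = v <;> simp [ih, e, add_comm, Ne.symm]
  simpa [hom_mon, key] using this

/-- points of the scaled link -/
noncomputable def gam (v0 : V) (m : Multiset V) : BB G :=
  ⟨(gen G v0 ^ m.card)⁻¹ * mon G m, by simp [MonoidHom.mem_ker, hom_mon, ht, ← ofAdd_nsmul]⟩

theorem gam_edge (v0 : V) {m : Multiset V} {e : Ed G} (h : Cl G (e.1.1 ::ₘ e.1.2 ::ₘ m)) :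
    gam G v0 (e.1.1 ::ₘ m) * (bbTri G).g e = gam G v0 (e.1.2 ::ₘ m) :=
  Subtype.ext (by
    simp [gam, bbTri, mon_cons G (h.mono (m := e.1.1 ::ₘ m) (by simp +contextual [or_imp])),
      mon_cons G (h.mono (m := e.1.2 ::ₘ m) (by simp +contextual)), mul_assoc])

/-- recovering the point -/
noncomputable def un (v0 : V) (k : ℕ) (γ : BB G) : Multiset V :=
  Function.invFun (mon G) (gen G v0 ^ (k + 1) * γ)

theorem un_gam (v0 : V) {k : ℕ} {m : Multiset V} (h : m.card = k + 1) :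
    un G v0 k (gam G v0 m) = m := by
  simp [un, gam, h, Function.leftInverse_invFun (mon_inj G) m]

section conn
variable [Nonempty V]

/-- largest element -/
noncomputable def mx (n : Multiset V) : V := Classical.epsilon fun y => y ∈ n ∧ ∀ z ∈ n, z ≤ y
/-- smallest element -/
noncomputable def mn (n : Multiset V) : V := Classical.epsilon fun y => y ∈ n ∧ ∀ z ∈ n, y ≤ z

theorem mx_eq {n : Multiset V} {y : V} (h : y ∈ n) (h' : ∀ z ∈ n, z ≤ y) : mx n = y :=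
  have := Classical.epsilon_spec (p := fun y => y ∈ n ∧ ∀ z ∈ n, z ≤ y) ⟨y, h, h'⟩
  le_antisymm (h' _ this.1) (this.2 _ h)

theorem mn_eq {n : Multiset V} {y : V} (h : y ∈ n) (h' : ∀ z ∈ n, y ≤ z) : mn n = y :=
  have := Classical.epsilon_spec (p := fun y => y ∈ n ∧ ∀ z ∈ n, y ≤ z) ⟨y, h, h'⟩
  le_antisymm (this.2 _ h) (h' _ this.1)

variable (p : V → V → ℝ → U) (B : V × V × V → ℝ × ℝ → U) (k : ℕ)

open Classical in
/-- the connection -/
noncomputable def cn (t : ℝ) (n : Multiset V) (v : V) : U :=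
  if ∃ x ∈ n, v ≤ x then 1 else if mn n = mx n then p (mx n) v t
  else B (mn n, mx n, v) (t, (n.count (mx n) - 1) / k)

theorem cn_one {t : ℝ} {n : Multiset V} {v x : V} (h : x ∈ n) (h' : v ≤ x) : cn p B k t n v = 1 :=
  if_pos ⟨x, h, h'⟩

theorem cn_rep {t : ℝ} {n : Multiset V} {v x : V} (h : x ∈ n) (h' : ∀ z ∈ n, z = x) (hv : x < v) :
    cn p B k t n v = p x v t := by
  rw [cn, if_neg (by rintro ⟨z, hz, h2⟩; exact hv.not_ge (h' z hz ▸ h2)),
    mx_eq h fun z hz => (h' z hz).le, mn_eq h fun z hz => (h' z hz).ge, if_pos rfl]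

theorem cn_two {t : ℝ} {n : Multiset V} {x y v : V} (hy : y ∈ n) (h' : ∀ z ∈ n, z = x ∨ z = y)
    (hxy : x < y) (hv : y < v) (hk : 0 < k) (hn : n.card = k + 1)
    (hB : B (x, y, v) (t, 1) = p y v t) :
    cn p B k t n v = B (x, y, v) (t, (n.count y - 1) / k) := by
  have h1 : ∀ z ∈ n, z ≤ y := fun z hz => (h' z hz).elim (fun e => e ▸ hxy.le) le_of_eq
  by_cases hx : x ∈ n
  · rw [cn, if_neg (by rintro ⟨z, hz, h2⟩; exact hv.not_ge (h2.trans (h1 z hz))), mx_eq hy h1,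
      mn_eq hx fun z hz => (h' z hz).elim ge_of_eq fun e => e ▸ hxy.le, if_neg hxy.ne]
  · have h2 : ∀ z ∈ n, z = y := fun z hz => (h' z hz).resolve_left fun e => hx (e ▸ hz)
    rw [cn_rep p B k hy h2 hv, Multiset.count_eq_card.2 fun z hz => (h2 z hz).symm, hn, ← hB]
    simp [hk.ne']

end conn

theorem mem_tr {G : SimpleGraph V} (h : G.CliqueFree 4) (t : Tr G) {m : Multiset V}
    (hc : Cl G (t.1.1 ::ₘ t.1.2.1 ::ₘ t.1.2.2 ::ₘ m)) :
    ∀ z ∈ m, z = t.1.1 ∨ z = t.1.2.1 ∨ z = t.1.2.2 := fun z hz => by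
  by_contra h'
  simp only [not_or] at h'
  refine h {z, t.1.1, t.1.2.1, t.1.2.2} ⟨fun a ha b hb => hc a ?_ b ?_, ?_⟩
  · simp at ha ⊢; rcases ha with rfl | ha <;> tauto
  · simp at hb ⊢; rcases hb with rfl | hb <;> tauto
  · have := t.2.1.ne
    have := t.2.2.1.ne
    have := (t.2.1.trans t.2.2.1).ne
    rw [Finset.card_insert_of_notMem (by simp [*]), Finset.card_insert_of_notMem (by simp [*]),
      Finset.card_pair (by simp [*])]

theorem cn_up [Nonempty V] {G : SimpleGraph V} (h : G.CliqueFree 4) (p : V → V → ℝ → U)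
    (B : V × V × V → ℝ × ℝ → U) {k : ℕ} (hk : 0 < k) (s : ℝ) (t : Tr G) {m : Multiset V}
    (hm : m.card = k) (hc : Cl G (t.1.1 ::ₘ t.1.2.1 ::ₘ t.1.2.2 ::ₘ m))
    (h0 : B t.1 (s, 0) = (p t.1.1 t.1.2.1 s)⁻¹ * p t.1.1 t.1.2.2 s)
    (h1 : B t.1 (s, 1) = p t.1.2.1 t.1.2.2 s) :
    cn p B k s (t.1.1 ::ₘ m) t.1.2.1 * cn p B k s (t.1.2.1 ::ₘ m) t.1.2.2 *
      (cn p B k s (t.1.1 ::ₘ m) t.1.2.2)⁻¹ = 1 ∨ ∃ r : ℕ, 1 ≤ r ∧ r ≤ k ∧
    cn p B k s (t.1.1 ::ₘ m) t.1.2.1 * cn p B k s (t.1.2.1 ::ₘ m) t.1.2.2 *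
      (cn p B k s (t.1.1 ::ₘ m) t.1.2.2)⁻¹ = B t.1 (s, r / k) * (B t.1 (s, (r - 1) / k))⁻¹ := by
  have h2 := mem_tr h t hc
  obtain ⟨⟨x, y, z⟩, hxy, hyz, _⟩ := t
  dsimp only at *
  by_cases hz : z ∈ m
  · left
    rw [cn_one p B k (x := z) (by simp [hz]) hyz.le, cn_one p B k (x := z) (by simp [hz]) le_rfl,
      cn_one p B k (x := z) (by simp [hz]) le_rfl]
    simp
  have h3 : ∀ w ∈ m, w = x ∨ w = y := fun w hw => by
    rcases h2 w hw with e | e | e
    exacts [.inl e, .inr e, (hz (e ▸ hw)).elim]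
  rw [cn_two p B k (n := y ::ₘ m) (by simp) (by simpa using h3) hxy hyz hk (by simp [hm]) h1]
  by_cases hy : y ∈ m
  · refine .inr ⟨m.count y, Multiset.one_le_count_iff_mem.2 hy, hm ▸ Multiset.count_le_card _ _, ?_⟩
    rw [cn_two p B k (n := x ::ₘ m) (by simp [hy]) (by simpa using h3) hxy hyz hk (by simp [hm]) h1,
      cn_one p B k (x := y) (by simp [hy]) le_rfl]
    simp [hxy.ne']
  · have h4 : ∀ w ∈ x ::ₘ m, w = x := by
      simpa using fun w hw => (h3 w hw).resolve_right fun e => hy (e ▸ hw)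
    left
    rw [cn_rep p B k (by simp) h4 hxy, cn_rep p B k (by simp) h4 (hxy.trans hyz)]
    simp [Multiset.count_eq_zero.2 hy, h0]

theorem cur_up (a : BB G → V → U) (γ : BB G) (t : Tr G) :
    (bbTri G).cur (fun x => a x.1 x.2.1.2) (γ, t, true) =
      a γ t.1.2.1 * a (γ * (bbTri G).g (e01 t)) t.1.2.2 * (a γ t.1.2.2)⁻¹ := rfl

theorem cur_dn (a : BB G → V → U) (γ : BB G) (t : Tr G) :
    (bbTri G).cur (fun x => a x.1 x.2.1.2) (γ, t, false) =
      a γ t.1.2.2 * a (γ * (bbTri G).g (e12 t)) t.1.2.1 * (a γ t.1.2.2)⁻¹ := rfl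

theorem bb_scale {V : Type} [LinearOrder V] [Fintype V] (G : SimpleGraph V) (h : Acyc G)
    (ψ : V → V → U) (h1 : ∀ t : Tr G, ψ t.1.1 t.1.2.1 * ψ t.1.2.1 t.1.2.2 = ψ t.1.1 t.1.2.2)
    (h2 : ¬ ∃ φ : V → U, ∀ e : Ed G, ψ e.1.1 e.1.2 = (φ e.1.1)⁻¹ * φ e.1.2) :
    (bbTri G).Scale := by
  intro ε hε
  have := h.2.1.nonempty
  obtain ⟨v0⟩ := h.2.1.nonempty
  obtain ⟨p, β, p1, p2, p3, b1, b2, b3⟩ := exists_paths ψ
  obtain ⟨k, hk, hβ⟩ := exists_mesh β b1 hε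
  have hf : ∀ j, {m : Multiset V | m.card = j}.Finite := fun j =>
    ((List.finite_length_eq V j).image (↑)).subset fun m hm => ⟨m.toList, by simpa using hm, by simp⟩
  have fA : {x : BB G × Ed G | ∃ m, m.card = k ∧ Cl G (x.2.1.1 ::ₘ x.2.1.2 ::ₘ m) ∧
      x.1 = gam G v0 (x.2.1.1 ::ₘ m)}.Finite :=
    (((hf k).prod Set.finite_univ).image fun y : Multiset V × Ed G =>
      (gam G v0 (y.2.1.1 ::ₘ y.1), y.2)).subset fun x ⟨m, a1, _, a3⟩ =>
      ⟨(m, x.2), ⟨a1, trivial⟩, Prod.ext a3.symm rfl⟩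
  have fB : {x : BB G × Tr G × Bool | ∃ m, Cl G (x.2.1.1.1 ::ₘ x.2.1.1.2.1 ::ₘ x.2.1.1.2.2 ::ₘ m) ∧
      (x.2.2 = true ∧ m.card = k ∧ x.1 = gam G v0 (x.2.1.1.1 ::ₘ m) ∨ x.2.2 = false ∧
      m.card + 1 = k ∧ x.1 = gam G v0 (x.2.1.1.2.1 ::ₘ x.2.1.1.1 ::ₘ m))}.Finite :=
    (((hf (k + 1)).prod Set.finite_univ).image fun y : Multiset V × Tr G × Bool =>
      (gam G v0 y.1, y.2)).subset (by
      rintro x ⟨m, -, ⟨-, a1, a2⟩ | ⟨-, a1, a2⟩⟩
      · exact ⟨(_ ::ₘ m, x.2), ⟨by simp [← a1], trivial⟩, Prod.ext a2.symm rfl⟩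
      · exact ⟨(_ ::ₘ _ ::ₘ m, x.2), ⟨by simp [← a1], trivial⟩, Prod.ext a2.symm rfl⟩)
  have mA : ∀ {γ e}, (γ, e) ∈ fA.toFinset ↔ ∃ m, m.card = k ∧ Cl G (e.1.1 ::ₘ e.1.2 ::ₘ m) ∧
    γ = gam G v0 (e.1.1 ::ₘ m) := fA.mem_toFinset
  have mB : ∀ {γ t b}, (γ, t, b) ∈ fB.toFinset ↔ ∃ m, Cl G (t.1.1 ::ₘ t.1.2.1 ::ₘ t.1.2.2 ::ₘ m) ∧
    (b = true ∧ m.card = k ∧ γ = gam G v0 (t.1.1 ::ₘ m) ∨ b = false ∧
      m.card + 1 = k ∧ γ = gam G v0 (t.1.2.1 ::ₘ t.1.1 ::ₘ m)) := fB.mem_toFinset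
  have up : ∀ {m} {t : Tr G}, Cl G (t.1.1 ::ₘ t.1.2.1 ::ₘ t.1.2.2 ::ₘ m) →
      gam G v0 (t.1.1 ::ₘ m) * (bbTri G).g (e01 t) = gam G v0 (t.1.2.1 ::ₘ m) := fun hc =>
    gam_edge G v0 (e := e01 _) (hc.mono (by simp +contextual [e01, or_imp]))
  have dn : ∀ {m} {t : Tr G}, Cl G (t.1.1 ::ₘ t.1.2.1 ::ₘ t.1.2.2 ::ₘ m) →
      gam G v0 (t.1.2.1 ::ₘ t.1.1 ::ₘ m) * (bbTri G).g (e12 t) =
      gam G v0 (t.1.1 ::ₘ t.1.2.2 ::ₘ m) := fun hc => by
    rw [Multiset.cons_swap _ (Prod.snd _)]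
    exact gam_edge G v0 (e := e12 _) (hc.mono (by simp +contextual [e12, or_imp]))
  have cur : ∀ s, ∀ x ∈ fB.toFinset, (bbTri G).cur (fun x => cn p β k s (un G v0 k x.1) x.2.1.2) x
      = 1 ∨ ∃ (t : Tr G) (r : ℕ), 1 ≤ r ∧ r ≤ k ∧ (bbTri G).cur (fun x => cn p β k s
      (un G v0 k x.1) x.2.1.2) x = β t.1 (s, r / k) * (β t.1 (s, (r - 1) / k))⁻¹ := by
    rintro s ⟨γ, t, b⟩ hx
    obtain ⟨m, hc, ⟨rfl, a1, rfl⟩ | ⟨rfl, a1, rfl⟩⟩ := mB.1 hx
    · have := cn_up h.1 p β hk s t a1 hc ((b3 _ _ _ (h1 t)).1 s) ((b3 _ _ _ (h1 t)).2.1 s)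
      rw [cur_up G fun γ => cn p β k s (un G v0 k γ), up hc, un_gam G v0 (by simp [a1]), un_gam G v0 (by simp [a1])]
      exact this.imp id fun h => ⟨t, h⟩
    · left
      rw [cur_dn G fun γ => cn p β k s (un G v0 k γ), dn hc, un_gam G v0 (by simp [← a1]), un_gam G v0 (by simp [← a1]),
        cn_one p β k (n := t.1.1 ::ₘ _) (x := t.1.2.2) (by simp) t.2.2.1.le, mul_one]
      exact mul_inv_cancel _
  refine ⟨fA.toFinset, fB.toFinset, fun s x => cn p β k (max 0 (min 1 s)) (un G v0 k x.1) x.2.1.2,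
    ?_, fun w hw => ?_, continuous_pi fun x => ?_, ?_, fun s x hx => ?_, fun x hx => ?_, ?_⟩
  · rintro ⟨γ, t, b⟩ hx
    simp only [mA]
    obtain ⟨m, hc, ⟨rfl, a1, rfl⟩ | ⟨rfl, a1, rfl⟩⟩ := mB.1 hx
    · exact ⟨⟨m, a1, hc.mono (by simp +contextual [bbTri, e01, or_imp]), rfl⟩,
        ⟨m, a1, hc.mono (by simp +contextual [bbTri, e12, or_imp]), up hc⟩,
        ⟨m, a1, hc.mono (by simp +contextual [bbTri, e02, or_imp]), rfl⟩⟩
    · exact ⟨⟨_, by simpa using a1, hc.mono (by simp +contextual [bbTri, e12, or_imp]), rfl⟩,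
        ⟨_, by simpa using a1, hc.mono (by simp +contextual [bbTri, e01, or_imp]), dn hc⟩,
        ⟨_, by simpa using a1, hc.mono (by simp +contextual [bbTri, e02, or_imp]),
          congrArg _ (Multiset.cons_swap _ _ _)⟩⟩
  · obtain ⟨φ, hφ⟩ := h1_ord h k (fun m e => w (gam G v0 (e.1.1 ::ₘ m), e)) (fun m t hm hc => by
      have := hw _ (mB.2 ⟨m, hc, .inl ⟨rfl, hm, rfl⟩⟩)
      change _ + w (_ * (bbTri G).g (e01 t), _) = _ at this
      rwa [up hc] at this) fun m t hm hc => by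
      have := hw _ (mB.2 ⟨m, hc, .inr ⟨rfl, hm, rfl⟩⟩)
      change _ + w (_ * (bbTri G).g (e12 t), _) = w (gam G v0 _, _) at this
      rw [dn hc] at this
      exact this.trans (by rw [Multiset.cons_swap]; rfl)
    refine ⟨fun γ => φ (un G v0 k γ), ?_⟩
    rintro ⟨γ, e⟩ hx
    obtain ⟨m, a1, hc, rfl⟩ := mA.1 hx
    dsimp only
    rw [gam_edge G v0 hc, un_gam G v0 (by simp [a1]), un_gam G v0 (by simp [a1])]
    exact hφ m e a1 hc
  · unfold cn
    split_ifs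
    · exact continuous_const
    · exact (p1 _ _).comp (by fun_prop)
    · exact (b1 _).comp (by fun_prop)
  · funext x
    simp [cn, p2, b2]
  · rcases cur _ x hx with e | ⟨t, r, a1, a2, e⟩ <;> rw [e]
    · simpa using hε.le
    · refine le_of_eq_of_le ?_ (hβ t.1 _ ⟨le_max_left _ _, max_le zero_le_one (min_le_left _ s)⟩
        r a1 a2)
      rw [Metric.unitSphere.coe_mul, ← U_mul_inv (β t.1 (_, (r - 1) / k)), ← sub_mul, norm_mul,
        norm_U, mul_one]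
  · rcases cur _ x hx with e | ⟨t, r, a1, a2, e⟩ <;> rw [e]
    simp [(b3 _ _ _ (h1 t)).2.2]
  · rintro ⟨φ, hφ⟩
    refine h2 ⟨fun v => φ (gam G v0 (Multiset.replicate (k + 1) v)), fun e => ?_⟩
    have key : ∀ i j, i + j = k → ψ e.1.1 e.1.2 = (φ (gam G v0 (Multiset.replicate (k + 1) e.1.1)))⁻¹
        * φ (gam G v0 (e.1.2 ::ₘ (Multiset.replicate j e.1.1 + Multiset.replicate i e.1.2))) := by
      have hc : ∀ i j, Cl G (e.1.1 ::ₘ e.1.2 ::ₘ (Multiset.replicate j e.1.1 +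
          Multiset.replicate i e.1.2)) := fun i j x hx y hy hne => by
        simp only [Multiset.mem_cons, Multiset.mem_add, Multiset.mem_replicate] at hx hy
        have h3 : x = e.1.1 ∨ x = e.1.2 := by tauto
        have h4 : y = e.1.1 ∨ y = e.1.2 := by tauto
        rcases h3 with rfl | rfl <;> rcases h4 with h4 | h4
        exacts [(hne h4.symm).elim, h4 ▸ e.2.2, h4 ▸ e.2.2.symm, (hne h4.symm).elim]
      intro i
      induction i with
      | zero =>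
        intro j hj
        have := hφ _ (mA.2 ⟨_, by simpa using hj, hc 0 j, rfl⟩)
        dsimp only at this
        rw [gam_edge G v0 (hc 0 j), un_gam G v0 (by simpa using hj), cn_rep p β k (x := e.1.1)
          (by simp) (by simp +contextual [Multiset.mem_replicate]) e.2.1] at this
        simpa [p3, ← hj, Multiset.replicate_succ] using this
      | succ i ih =>
        intro j hj
        have := hφ _ (mA.2 ⟨_, by simp; omega, hc (i + 1) j, rfl⟩)
        dsimp only at this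
        rw [gam_edge G v0 (hc _ j), un_gam G v0 (by simp; omega), cn_one p β k (x := e.1.2)
          (by simp) le_rfl, eq_comm, inv_mul_eq_one] at this
        rw [ih (j + 1) (by omega), ← this]
        simp [Multiset.replicate_succ, Multiset.cons_swap e.1.1]
    simpa [Multiset.replicate_succ] using key k 0 rfl

end Vale.Agent.P173
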