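import Vale.Agent.P173.App

set_option linter.unusedSectionVars false

namespace Vale.Agent.P173

open Quaternion Filter Asymptotics

section fox
variable {Γ S : Type*} [Group Γ] (π : FreeGroup S →* Γ)

/-- boundary of edges of the Cayley graph -/
noncomputable def bd1 : (Γ × S →₀ ℤ) →ₗ[ℤ] (Γ →₀ ℤ) :=
  Finsupp.linearCombination ℤ fun p =>
    Finsupp.single (p.1 * π (FreeGroup.of p.2)) 1 - Finsupp.single p.1 1

theorem bd1_pl (w : FreeGroup S) (γ : Γ) :
    bd1 π (ex (pl π γ w)) = Finsupp.single (γ * π w) 1 - Finsupp.single γ 1 := by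
  induction w using FreeGroup.induction_on generalizing γ with
  | C1 => simp
  | of s => simp [bd1]
  | inv_of s ih => simp [pl_inv, bd1]
  | mul a b iha ihb => simp [pl_mul, iha, ihb, mul_assoc]

/-- translation of chains -/
noncomputable def sh (X : Type*) (δ : Γ) : (Γ × X →₀ ℤ) →ₗ[ℤ] (Γ × X →₀ ℤ) :=
  Finsupp.lmapDomain ℤ ℤ fun p => (δ * p.1, p.2)

@[simp] theorem sh_single {X : Type*} (δ γ : Γ) (x : X) (n : ℤ) :
    sh X δ (Finsupp.single (γ, x) n) = Finsupp.single (δ * γ, x) n := by simp [sh]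

@[simp] theorem sh_one {X : Type*} (y : Γ × X →₀ ℤ) : sh X 1 y = y := by
  simp [sh, show (fun p : Γ × X => p) = id from rfl]

theorem ex_pl_sh (δ : Γ) (w : FreeGroup S) (γ : Γ) :
    ex (pl π (δ * γ) w) = sh S δ (ex (pl π γ w)) := by
  induction w using FreeGroup.induction_on generalizing γ with
  | C1 => simp
  | of s => simp
  | inv_of s ih => simp [pl_inv, mul_assoc]
  | mul a b iha ihb => simp [pl_mul, iha, ihb, mul_assoc]

end fox

variable {Γ E T S R : Type*} [Group Γ]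

theorem Tri.d2_sh {Γ E T : Type} [Group Γ] (D : Tri Γ E T) (δ : Γ) (y : Γ × T →₀ ℤ) :
    D.d2 (sh T δ y) = sh E δ (D.d2 y) :=
  DFunLike.congr_fun (show D.d2.comp (sh T δ) = (sh E δ).comp D.d2 by
    ext1 ⟨γ, t⟩; ext1; simp [Tri.d2, mul_assoc]) y

/-- comparison data between the triangle complex and a presentation -/
structure Dat {Γ E T : Type} [Group Γ] (D : Tri Γ E T) (π : FreeGroup S →* Γ)
    (r : R → FreeGroup S) where
  f : E → FreeGroup S
  hf : ∀ e, π (f e) = D.g e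
  q : Γ → FreeGroup S
  hq : ∀ γ, π (q γ) = γ
  q1 : q 1 = 1
  fox : FreeGroup S → Γ × E →₀ ℤ
  fox_mul : ∀ a b, fox (a * b) = fox a + sh E (π a) (fox b)
  G : R → Γ × T →₀ ℤ
  hG : ∀ c, D.d2 (G c) = fox (r c)
  H : E → Γ × T →₀ ℤ
  hH : ∀ e, D.d2 (H e) = fox (f e) - Finsupp.single (1, e) 1

theorem exists_dat {Γ E T : Type} [Group Γ] {D : Tri Γ E T} {π : FreeGroup S →* Γ}
    {r : R → FreeGroup S} (hD : D.Exact) (hA : Asph π r) : Nonempty (Dat D π r) := by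
  classical
  have hs : Function.Surjective (FreeGroup.lift D.g) := by
    rw [← MonoidHom.range_eq_top, FreeGroup.range_lift_eq_closure, hD.1]
  choose f hf using fun e => hA.1 (D.g e)
  choose q hq using hA.1
  choose g hg using fun s => hs (π (FreeGroup.of s))
  have h1 : ∀ w, FreeGroup.lift D.g (FreeGroup.lift g w) = π w :=
    DFunLike.congr_fun (show (FreeGroup.lift D.g).comp (FreeGroup.lift g) = π by ext; simp [hg])
  have h2 : ∀ w, D.d1 (ex (pl (FreeGroup.lift D.g) 1 (FreeGroup.lift g w))) =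
      Finsupp.single (π w) 1 - Finsupp.single 1 1 := fun w => by
    have := bd1_pl (FreeGroup.lift D.g) (FreeGroup.lift g w) 1
    simpa [h1, bd1, Tri.d1] using this
  have h3 : ∀ c, π (r c) = 1 := fun c => by
    rw [← MonoidHom.mem_ker, hA.2.1]; exact Subgroup.subset_normalClosure ⟨c, rfl⟩
  choose G hG using fun c => hD.2.2 (ex (pl (FreeGroup.lift D.g) 1 (FreeGroup.lift g (r c))))
    (by simp [h2, h3])
  choose H hH using fun e => hD.2.2 (ex (pl (FreeGroup.lift D.g) 1 (FreeGroup.lift g (f e))) -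
    Finsupp.single (1, e) 1) (by rw [map_sub, h2]; simp [hf, Tri.d1])
  refine ⟨f, hf, fun γ => if γ = 1 then 1 else q γ, fun γ => ?_, by simp,
    fun w => ex (pl (FreeGroup.lift D.g) 1 (FreeGroup.lift g w)), fun a b => ?_, G, hG, H, hH⟩
  · split_ifs with h <;> simp [h, hq]
  · simp [pl_mul, h1, ← ex_pl_sh]

/-- holonomy -/
noncomputable def hol (π : FreeGroup S →* Γ) (x : Γ × S → U) (γ : Γ) (w : FreeGroup S) : U :=
  FreeGroup.lift x (pl π γ w)

theorem hol_mul (π : FreeGroup S →* Γ) (x : Γ × S → U) (γ : Γ) (a b : FreeGroup S) :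
    hol π x γ (a * b) = hol π x γ a * hol π x (γ * π a) b := by simp [hol, pl_mul]

theorem hol_inv (π : FreeGroup S →* Γ) (x : Γ × S → U) (γ : Γ) (a : FreeGroup S) :
    hol π x γ a⁻¹ = (hol π x (γ * (π a)⁻¹) a)⁻¹ := by simp [hol, pl_inv]

/-- states -/
abbrev St (Γ S T : Type*) := Γ × (Γ × S → U) × (Γ × T → ℍ[ℝ]) × ℝ

namespace Dat
variable {Γ E T : Type} [Group Γ] {D : Tri Γ E T} {π : FreeGroup S →* Γ}
  {r : R → FreeGroup S} (P : Dat D π r)

theorem fox_one : P.fox 1 = 0 := by simpa using P.fox_mul 1 1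

/-- linearised slack -/
noncomputable def lin (x : Γ × S → U) (ζ : Γ × T → ℍ[ℝ]) (γ : Γ) : (Γ × T →₀ ℤ) →ₗ[ℤ] ℍ[ℝ] :=
  Finsupp.linearCombination ℤ fun p => ad (hol π x γ (P.q p.1)) (ζ (γ * p.1, p.2))

theorem lin_single (x : Γ × S → U) (ζ : Γ × T → ℍ[ℝ]) (γ : Γ) (p : Γ × T) (n : ℤ) :
    P.lin x ζ γ (Finsupp.single p n) =
      (n : ℝ) • ad (hol π x γ (P.q p.1)) (ζ (γ * p.1, p.2)) := by
  rw [lin, Finsupp.linearCombination_single, Int.cast_smul_eq_zsmul]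

theorem lin_re (x : Γ × S → U) {ζ : Γ × T → ℍ[ℝ]} (h : ∀ p, (ζ p).re = 0) (γ : Γ)
    (y : Γ × T →₀ ℤ) : (P.lin x ζ γ y).re = 0 := by
  induction y using Finsupp.induction_linear with
  | zero => simp
  | add a b ha hb => simp [ha, hb]
  | single p n => simp [lin_single, re_ad, h]

/-- equations for two-cells -/
def ceq (x : Γ × S → U) (ζ : Γ × T → ℍ[ℝ]) (p : Γ × R) : Prop :=
  hol π x p.1 (r p.2) = nrm (1 + P.lin x ζ p.1 (P.G p.2))

/-- basic sets of states -/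
def bs (Ξ : Finset (Γ × R)) : Set (St Γ S T) :=
  {s | (|s.2.2.2| ≤ 1 ∧ ∀ p, (s.2.2.1 p).re = 0 ∧ ‖s.2.2.1 p‖ ≤ |s.2.2.2|) ∧
    ∀ p ∈ Ξ, P.ceq s.2.1 s.2.2.1 (s.1 * p.1, p.2)}

/-- the filter of states solving many equations -/
def FF : Filter (St Γ S T) := ⨅ Ξ, 𝓟 (P.bs Ξ)

theorem basis : P.FF.HasBasis (fun _ => True) P.bs := by
  classical
  refine hasBasis_iInf_principal fun a b => ⟨a ∪ b, fun s hs => ⟨hs.1, fun p hp => hs.2 p ?_⟩,
    fun s hs => ⟨hs.1, fun p hp => hs.2 p ?_⟩⟩ <;> simp [hp]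

/-- moving the base point -/
def mv (δ : Γ) (s : St Γ S T) : St Γ S T := (s.1 * δ, s.2)

theorem tendsto_mv (δ : Γ) : Tendsto (mv δ) P.FF P.FF := by
  classical
  refine (P.basis.tendsto_iff P.basis).2 fun Ξ _ => ⟨Ξ.image fun p => (δ * p.1, p.2), trivial,
    fun s hs => ⟨hs.1, fun p hp => ?_⟩⟩
  simpa [mv, mul_assoc] using hs.2 _ (Finset.mem_image_of_mem _ hp)

theorem ev0 : ∀ᶠ s in P.FF, s ∈ P.bs ∅ := P.basis.mem_of_mem trivial

/-- size -/
abbrev eta (s : St Γ S T) : ℝ := s.2.2.2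
/-- holonomy of a state -/
noncomputable abbrev hl (π : FreeGroup S →* Γ) (w : FreeGroup S) (s : St Γ S T) : U :=
  hol π s.2.1 s.1 w
/-- slack of a state -/
noncomputable abbrev ln (y : Γ × T →₀ ℤ) (s : St Γ S T) : ℍ[ℝ] := P.lin s.2.1 s.2.2.1 s.1 y

theorem eta_O : eta =O[P.FF] fun _ => (1 : ℝ) :=
  .of_bound' (P.ev0.mono fun s hs => by simpa using hs.1.1)

theorem zeta_O (m : St Γ S T → Γ × T) : (fun s => s.2.2.1 (m s)) =O[P.FF] eta :=
  .of_bound' (P.ev0.mono fun _ hs => (hs.1.2 _).2)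

theorem ln_O (y : Γ × T →₀ ℤ) : P.ln y =O[P.FF] eta := by
  induction y using Finsupp.induction_linear with
  | zero => exact (isBigO_zero _ _).congr_left fun s => by simp
  | add a b ha hb => exact (ha.add hb).congr_left fun s => by simp
  | single p n =>
    have : (fun s : St Γ S T => ad (hl π (P.q p.1) s) (s.2.2.1 (s.1 * p.1, p.2))) =O[P.FF] eta :=
      .of_norm_left (by simpa using (P.zeta_O fun s => (s.1 * p.1, p.2)).norm_left)
    exact (this.const_smul_left (n : ℝ)).congr_left fun s => by simp [ln, lin_single]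

theorem app_sl (y : Γ × T →₀ ℤ) : App P.FF eta (fun s => nrm (1 + P.ln y s)) (P.ln y) :=
  app_nrm P.eta_O (P.ln_O y) (P.ev0.mono fun _ hs => P.lin_re _ (fun p => (hs.1.2 p).1) _ _)

theorem app_r (c : R) : App P.FF eta (hl π (r c)) (P.ln (P.G c)) :=
  (P.app_sl _).of_eq (P.basis.eventually_iff.2 ⟨{(1, c)}, trivial, fun s hs => by
    simpa [ceq, eq_comm] using hs.2 (1, c) (by simp)⟩)

theorem ker_ind (hA : Asph π r) (Q : FreeGroup S → Prop) (h1 : Q 1) (h2 : ∀ c, Q (r c))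
    (h3 : ∀ a b, π a = 1 → Q a → Q b → Q (a * b)) (h4 : ∀ a, π a = 1 → Q a → Q a⁻¹)
    (h5 : ∀ u a, π a = 1 → Q a → Q (u * a * u⁻¹)) {w : FreeGroup S} (hw : π w = 1) : Q w := by
  let N : Subgroup (FreeGroup S) :=
    { carrier := {w | π w = 1 ∧ Q w}, one_mem' := ⟨map_one _, h1⟩,
      mul_mem' := fun ha hb => ⟨by simp [ha.1, hb.1], h3 _ _ ha.1 ha.2 hb.2⟩,
      inv_mem' := fun ha => ⟨by simp [ha.1], h4 _ ha.1 ha.2⟩ }
  have : N.Normal := ⟨fun a ha u => ⟨by simp [ha.1], h5 u a ha.1 ha.2⟩⟩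
  refine (Subgroup.normalClosure_le_normal (N := N) ?_ (hA.2.1 ▸ MonoidHom.mem_ker.2 hw)).2
  rintro _ ⟨c, rfl⟩
  refine ⟨?_, h2 c⟩
  rw [← MonoidHom.mem_ker, hA.2.1]; exact Subgroup.subset_normalClosure ⟨c, rfl⟩

theorem hl_conj (u : FreeGroup S) {a : FreeGroup S} (ha : π a = 1) :
    (hl π (u * a * u⁻¹) : St Γ S T → U) = hl π u * (hl π a ∘ mv (π u)) * (hl π u)⁻¹ := by
  funext s
  simp [hl, hol_mul, hol_inv, ha, mv]

theorem hl_mul {a : FreeGroup S} (ha : π a = 1) (b : FreeGroup S) :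
    (hl π (a * b) : St Γ S T → U) = hl π a * hl π b := by
  funext s
  simp [hl, hol_mul, ha]

theorem hl_inv {a : FreeGroup S} (ha : π a = 1) : (hl π a⁻¹ : St Γ S T → U) = (hl π a)⁻¹ := by
  funext s
  simp [hl, hol_inv, ha]

theorem hl_one : (hl π 1 : St Γ S T → U) = 1 := by
  funext s
  simp [hl, hol]

theorem app_zero (hA : Asph π r) {w : FreeGroup S} (hw : π w = 1) :
    ∃ X, App P.FF eta (hl π w) X := by
  refine ker_ind hA (fun w => ∃ X, App P.FF eta (hl π w) X) ⟨_, hl_one (π := π) ▸ app_one P.eta_O⟩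
    (fun c => ⟨_, P.app_r c⟩) ?_ ?_ ?_ hw
  · rintro a b ha ⟨X, hX⟩ ⟨Y, hY⟩
    exact ⟨_, hl_mul ha b ▸ hX.mul hY⟩
  · rintro a ha ⟨X, hX⟩
    exact ⟨_, hl_inv ha ▸ hX.inv⟩
  · rintro u a ha ⟨X, hX⟩
    exact ⟨_, hl_conj u ha ▸ (hX.comp (P.tendsto_mv _) fun _ => rfl).conj _⟩

theorem ln_sh (hA : Asph π r) (u : FreeGroup S) (y : Γ × T →₀ ℤ) :
    (fun s => ad (hl π u s) ((P.ln y ∘ mv (π u)) s) - P.ln (sh T (π u) y) s) =O[P.FF]
      fun s => eta s * eta s := by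
  induction y using Finsupp.induction_linear with
  | zero => exact (isBigO_zero _ _).congr_left fun s => by simp [ad]
  | add a b ha hb =>
    refine (ha.add hb).congr_left fun s => ?_
    simp only [Function.comp, ln, map_add, ad, mul_add, add_mul]
    abel
  | single p n =>
    obtain ⟨X, hX⟩ := P.app_zero hA (w := u * P.q p.1 * (P.q (π u * p.1))⁻¹) (by simp [P.hq])
    have h1 := ((hX.sub_one.norm_left.const_mul_left 2).mul
      (P.zeta_O fun s => (s.1 * π u * p.1, p.2)).norm_left)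
    have h2 : (fun s : St Γ S T => ad (hl π u s) (ad (hol π s.2.1 (s.1 * π u) (P.q p.1))
        (s.2.2.1 (s.1 * π u * p.1, p.2))) - ad (hl π (P.q (π u * p.1)) s)
        (s.2.2.1 (s.1 * π u * p.1, p.2))) =O[P.FF] fun s => eta s * eta s := by
      refine IsBigO.trans (.of_bound' (.of_forall fun s => ?_)) h1
      have : hl π u s * hol π s.2.1 (s.1 * π u) (P.q p.1) = hl π (u * P.q p.1 *
        (P.q (π u * p.1))⁻¹) s * hl π (P.q (π u * p.1)) s := by
        simp [hl, hol_mul, hol_inv, P.hq, mul_assoc]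
      rw [← ad_mul, this, ad_mul]
      exact (norm_ad_sub _ _).trans (by rw [norm_ad]; exact le_abs_self _)
    refine (h2.const_smul_left (n : ℝ)).congr_left fun s => ?_
    obtain ⟨δ, t⟩ := p
    simp [ln, lin_single, mv, ad, smul_sub, mul_assoc]

theorem app_ker (hD : D.Exact) (hA : Asph π r) {w : FreeGroup S} (hw : π w = 1)
    {y : Γ × T →₀ ℤ} (hy : D.d2 y = P.fox w) : App P.FF eta (hl π w) (P.ln y) := by
  suffices h : ∃ y, D.d2 y = P.fox w ∧ App P.FF eta (hl π w) (P.ln y) by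
    obtain ⟨y', h1, h2⟩ := h
    rwa [hD.2.1 (hy.trans h1.symm)]
  refine ker_ind hA (fun w => ∃ y, D.d2 y = P.fox w ∧ App P.FF eta (hl π w) (P.ln y))
    ⟨0, by simp [fox_one], ?_⟩ (fun c => ⟨_, P.hG c, P.app_r c⟩) ?_ ?_ ?_ hw
  · convert app_one P.eta_O
    · exact hl_one
    · funext s; simp
  · rintro a b ha ⟨X, h1, hX⟩ ⟨Y, h2, hY⟩
    refine ⟨X + Y, by simp [P.fox_mul, ha, h1, h2], ?_⟩
    convert hX.mul hY
    · exact hl_mul ha b
    · funext s; simp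
  · rintro a ha ⟨X, h1, hX⟩
    refine ⟨-X, ?_, ?_⟩
    · have := P.fox_mul a a⁻¹
      simp only [mul_inv_cancel, fox_one, ha, sh_one] at this
      rw [map_neg, h1, neg_eq_iff_add_eq_zero, ← this]
    · convert hX.inv
      · exact hl_inv ha
      · funext s; simp
  · rintro u a ha ⟨X, h1, hX⟩
    refine ⟨sh T (π u) X, ?_, ?_⟩
    · have := P.fox_mul u u⁻¹
      simp only [mul_inv_cancel, fox_one] at this
      rw [D.d2_sh, h1, P.fox_mul, P.fox_mul, map_mul, ha, mul_one, add_right_comm, ← this, zero_add]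
    · exact hl_conj u ha ▸ ((hX.comp (P.tendsto_mv _) fun _ => rfl).conj _).congr (P.ln_sh hA u X)

/-- the connection on the triangle complex determined by a state -/
noncomputable def con (x : Γ × S → U) (ζ : Γ × T → ℍ[ℝ]) (p : Γ × E) : U :=
  (nrm (1 + P.lin x ζ p.1 (P.H p.2)))⁻¹ * hol π x p.1 (P.f p.2)

theorem app_cur (hD : D.Exact) (hA : Asph π r) (t : T) :
    App P.FF eta (fun s => D.cur (P.con s.2.1 s.2.2.1) (s.1, t)) fun s => s.2.2.1 (s.1, t) := by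
  have hw : π (P.f (D.a t) * P.f (D.b t) * (P.f (D.c t))⁻¹) = 1 := by simp [P.hf, D.rel]
  have h0 := P.fox_mul (P.f (D.a t) * P.f (D.b t) * (P.f (D.c t))⁻¹) (P.f (D.c t))
  rw [hw, sh_one, inv_mul_cancel_right, P.fox_mul, ← sub_eq_iff_eq_add] at h0
  have h1 := P.app_ker hD hA hw (y := Finsupp.single (1, t) 1 + P.H (D.a t) +
    sh T (π (P.f (D.a t))) (P.H (D.b t)) - P.H (D.c t)) (by
      rw [← h0]
      simp only [map_add, map_sub, D.d2_sh, P.hH]
      simp [Tri.d2, P.hf]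
      abel)
  have h2 := (((P.app_sl (P.H (D.b t))).comp (P.tendsto_mv (π (P.f (D.a t)))) fun _ => rfl).conj
    (hl π (P.f (D.a t)))).congr (P.ln_sh hA _ _)
  convert (((P.app_sl (P.H (D.a t))).inv.mul h2.inv).mul h1).mul (P.app_sl (P.H (D.c t))) with s s
  · simp [Tri.cur, con, hl, hol_mul, hol_inv, P.hf, mv, mul_assoc, D.rel, ln]
  · simp [ln, lin_single, P.q1, hol]
    abel

end Dat

/-- constraints on solvable slack and connection -/
def Good {Γ E T : Type} [Group Γ] (D : Tri Γ E T) (K : ℝ) (A : Finset (Γ × E))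
    (B : Finset (Γ × T)) (ζ : Γ × T → ℍ[ℝ]) (a : Γ × E → U) : Prop :=
  (ζ = 0 → ∃ φ : Γ → U, ∀ p ∈ A, a p = (φ p.1)⁻¹ * φ (p.1 * D.g p.2)) ∧
    ∀ η : ℝ, η ≤ 1 → (∀ p, ‖ζ p‖ ≤ η) → ∀ p ∈ B, ‖(D.cur a p : ℍ[ℝ]) - 1 - ζ p‖ ≤ K * η ^ 2

theorem Dat.sigma {Γ E T : Type} [Group Γ] [Finite T] {D : Tri Γ E T} {π : FreeGroup S →* Γ}
    {r : R → FreeGroup S} (P : Dat D π r) (hD : D.Exact) (hA : Asph π r) :
    ∃ K ≥ (0 : ℝ), ∀ A B, ∃ C : Finset (Γ × R), ∀ x ζ, (∀ p, (ζ p).re = 0) →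
      (∀ p ∈ C, P.ceq x ζ p) → Good D K A B ζ (P.con x ζ) := by
  classical
  choose K hK h using fun t => (P.app_cur hD hA t).h2.exists_nonneg
  obtain ⟨M, hM⟩ := (Set.finite_range K).bddAbove
  choose Ξ _ hΞ using fun t => P.basis.eventually_iff.1 (h t).bound
  refine ⟨max M 0, le_max_right _ _, fun A B => ?_⟩
  have h1 : ∀ᶠ s in P.FF, ∀ p ∈ A, Dat.eta s = 0 →
      Dat.hl π (P.q p.1 * P.f p.2 * (P.q (p.1 * D.g p.2))⁻¹) s = 1 := by
    refine (eventually_all_finset A).2 fun p _ => ?_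
    obtain ⟨X, hX⟩ := P.app_zero hA (w := P.q p.1 * P.f p.2 * (P.q (p.1 * D.g p.2))⁻¹)
      (by simp [P.hq, P.hf])
    obtain ⟨c, hc⟩ := hX.sub_one.bound
    refine hc.mono fun s hs h0 => Subtype.ext ?_
    simpa [h0, sub_eq_zero] using hs
  obtain ⟨Ξ0, -, h0⟩ := P.basis.eventually_iff.1 h1
  refine ⟨Ξ0 ∪ B.biUnion fun p => (Ξ p.2).image fun c => (p.1 * c.1, c.2), fun x ζ hζ hc =>
    ⟨fun hz => ⟨fun γ => hol π x 1 (P.q γ), fun p hp => ?_⟩, fun η h1 h2 p hp => ?_⟩⟩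
  · have := h0 (x := (1, x, ζ, 0)) ⟨by simp [hz], fun c h => by
      simpa using hc c (Finset.mem_union_left _ h)⟩ p hp rfl
    have h3 : P.lin x 0 p.1 (P.H p.2) = 0 := by simp [Dat.lin, ad, Finsupp.linearCombination_apply]
    simp only [Dat.hl, hol_mul, hol_inv, map_mul, P.hq, P.hf, one_mul, mul_inv_cancel,
      mul_inv_eq_one] at this
    simp [Dat.con, hz, h3, ← this]
  · have h3 : 0 ≤ η := (norm_nonneg _).trans (h2 p)
    have := hΞ p.2 (x := (p.1, x, ζ, η)) ⟨by simp [abs_of_nonneg h3, h1, h2, hζ], fun c h =>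
      hc _ (Finset.mem_union_right _ (Finset.mem_biUnion.2 ⟨p, hp, Finset.mem_image_of_mem _ h⟩))⟩
    refine this.trans ?_
    rw [Real.norm_of_nonneg (mul_self_nonneg _), sq]
    exact mul_le_mul_of_nonneg_right ((hM ⟨_, rfl⟩).trans (le_max_left _ _)) (mul_self_nonneg _)

end Vale.Agent.P173
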