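import Vale.Agent.P173.Sig
import Vale.Agent.P173.GR

set_option linter.unusedSectionVars false

namespace Vale.Agent.P173

open Quaternion

theorem ex_map {A B : Type*} (f : A → B) (w : FreeGroup A) :
    ex (FreeGroup.map f w) = Finsupp.mapDomain f (ex w) := by
  induction w using FreeGroup.induction_on with
  | C1 => simp
  | of s => simp
  | inv_of s ih => simp [← Finsupp.single_neg]
  | mul a b iha ihb => simp [iha, ihb, Finsupp.mapDomain_add]

theorem lift_map {A B H : Type*} [Group H] (f : A → B) (x : B → H) (w : FreeGroup A) :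
    FreeGroup.lift x (FreeGroup.map f w) = FreeGroup.lift (x ∘ f) w :=
  DFunLike.congr_fun (show (FreeGroup.lift x).comp (FreeGroup.map f) = FreeGroup.lift (x ∘ f) by
    ext; simp) w

theorem cont_lift {A : Type*} (w : FreeGroup A) :
    Continuous fun x : A → U => FreeGroup.lift x w := by
  induction w using FreeGroup.induction_on with
  | C1 => simpa using continuous_const
  | of s => simpa using continuous_apply s
  | inv_of s ih => simpa using (continuous_apply s).fun_inv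
  | mul a b iha ihb => simpa using iha.fun_mul ihb

variable {Γ E T : Type} {S R : Type*} [Group Γ] {D : Tri Γ E T} {π : FreeGroup S →* Γ}
  {r : R → FreeGroup S}

theorem cont_hol {Y : Type*} [TopologicalSpace Y] {x : Y → Γ × S → U} (hx : Continuous x) (γ : Γ)
    (w : FreeGroup S) : Continuous fun s => hol π (x s) γ w := (cont_lift _).comp hx

theorem Dat.cont_lin (P : Dat D π r) {Y : Type*} [TopologicalSpace Y] {x : Y → Γ × S → U}
    {ζ : Y → Γ × T → ℍ[ℝ]} (hx : Continuous x) (hζ : Continuous ζ) (γ : Γ) (y : Γ × T →₀ ℤ) :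
    Continuous fun s => P.lin (x s) (ζ s) γ y := by
  induction y using Finsupp.induction_linear with
  | zero => simpa using continuous_const
  | add a b ha hb => simpa using ha.fun_add hb
  | single p n =>
    have h := cont_hol (π := π) hx γ (P.q p.1)
    simp only [P.lin_single, ad]
    exact (((continuous_subtype_val.comp h).mul ((continuous_apply _).comp hζ)).mul
      (continuous_subtype_val.comp h.inv)).fun_const_smul _

open Classical in
/-- the words of the system of equations -/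
noncomputable def Dat.wd (P : Dat D π r) (C : Finset (Γ × R)) (A : Finset (Γ × E))
    (T0 : Set (Γ × E)) : C ⊕ A → FreeGroup (Γ × E ⊕ Γ × S) := Sum.elim
  (fun c => FreeGroup.map Sum.inr (pl π c.1.1 (r c.1.2)))
  fun e => (if e.1 ∈ T0 then 1 else FreeGroup.of (Sum.inl e.1))⁻¹ *
    FreeGroup.map Sum.inr (pl π e.1.1 (P.f e.1.2))

theorem Dat.indep (P : Dat D π r) (hA : Asph π r) (C : Finset (Γ × R)) (A : Finset (Γ × E))
    (T0 : Set (Γ × E)) (hT : LinearIndepOn ℤ (fun p => D.d1 (Finsupp.single p 1)) T0) :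
    LinearIndependent ℤ fun i => ex (P.wd C A T0 i) := by
  classical
  refine Fintype.linearIndependent_iff.2 fun n hn => ?_
  have hk : ∀ c, π (r c) = 1 := fun c => by
    rw [← MonoidHom.mem_ker, hA.2.1]; exact Subgroup.subset_normalClosure ⟨c, rfl⟩
  let L : (Γ × E ⊕ Γ × S →₀ ℤ) →ₗ[ℤ] (Γ × S →₀ ℤ) := Finsupp.lcomapDomain _ Sum.inr_injective
  have hL : ∀ y, L (Finsupp.mapDomain Sum.inr y) = y := fun y =>
    Finsupp.comapDomain_mapDomain _ Sum.inr_injective y
  have hL' : ∀ p n, L (Finsupp.single (Sum.inl p) n) = 0 := fun p n => by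
    ext; simp [L]
  have e1 : ∀ e : A, e.1 ∉ T0 → n (Sum.inr e) = 0 := fun e he => by
    have := DFunLike.congr_fun hn (Sum.inl e.1)
    simp only [Fintype.sum_sum_type, Dat.wd, Sum.elim_inl, Sum.elim_inr, ex_map, ex_mul, ex_inv,
      Finsupp.coe_add, Finsupp.coe_finsetSum, Pi.add_apply, Finset.sum_apply, Finsupp.coe_smul,
      Pi.smul_apply, Finsupp.coe_neg, Pi.neg_apply,
      Finsupp.mapDomain_of_notMem_range _ (Sum.inl e.1) (f := Sum.inr) (by simp)] at this
    rw [Finset.sum_eq_single e] at this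
    · simpa [he] using this
    · intro b _ hb
      split_ifs <;> simp [Subtype.coe_injective.ne hb]
    · simp
  have e0 : ∑ c : C, n (Sum.inl c) • ex (pl π c.1.1 (r c.1.2)) +
      ∑ e : A, n (Sum.inr e) • ex (pl π e.1.1 (P.f e.1.2)) = 0 := by
    have := congrArg L hn
    simpa [Fintype.sum_sum_type, Dat.wd, ex_map, hL, hL', apply_ite ex, apply_ite L] using this
  have e2 : ∀ e : A, n (Sum.inr e) = 0 := fun e => by
    have := congrArg (bd1 π) e0
    simp only [map_add, map_sum, map_smul, bd1_pl, hk, mul_one, sub_self, smul_zero,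
      Finset.sum_const_zero, zero_add, P.hf, map_zero] at this
    have h5 := linearIndepOn_iff.1 hT (∑ e : A, n (Sum.inr e) • Finsupp.single e.1 1)
      (Submodule.sum_mem _ fun e _ => by
        by_cases he : e.1 ∈ T0
        · exact Submodule.smul_mem _ _ (Finsupp.single_mem_supported _ _ he)
        · simp [e1 e he]) (by simpa [Tri.d1] using this)
    have h6 := DFunLike.congr_fun h5 e.1
    simp only [Finsupp.coe_finsetSum, Finset.sum_apply] at h6
    rw [Finset.sum_eq_single e] at h6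
    · simpa using h6
    · intro b _ hb
      simp [Subtype.coe_injective.ne hb]
    · simp
  rintro (c | e)
  · have h5 : ∑ c : C, n (Sum.inl c) • Finsupp.single c.1 (1 : ℤ) = 0 :=
      hA.2.2 (by simpa [e2, bd2] using e0)
    have h6 := DFunLike.congr_fun h5 c.1
    simp only [Finsupp.coe_finsetSum, Finset.sum_apply] at h6
    rw [Finset.sum_eq_single c] at h6
    · simpa using h6
    · intro b _ hb
      simp [Subtype.coe_injective.ne hb]
    · simp
  · exact e2 e

open Classical in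
theorem solve [Finite T] (hD : D.Exact) (hA : Asph π r) :
    ∃ K ≥ (0 : ℝ), ∀ (A : Finset (Γ × E)) (B : Finset (Γ × T)) (T0 : Set (Γ × E))
      (Ψ : ℝ × (Γ × E → U) → (Γ × T → ℍ[ℝ]) × (Γ × E → U)),
      (∀ p ∈ B, (p.1, D.a p.2) ∈ A ∧ (p.1 * D.g (D.a p.2), D.b p.2) ∈ A ∧ (p.1, D.c p.2) ∈ A) →
      LinearIndepOn ℤ (fun p => D.d1 (Finsupp.single p 1)) T0 → Continuous Ψ →
      (∀ s p, ((Ψ s).1 p).re = 0) → (∀ a, (Ψ (0, a)).1 = 0) →
      (∀ a, ∀ p ∈ A, (Ψ (0, a)).2 p = if p ∈ T0 then 1 else a p) →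
      ∃ a, Good D K A B (Ψ (1, a)).1 (Ψ (1, a)).2 := by
  obtain ⟨P⟩ := exists_dat hD hA
  obtain ⟨K, hK, h⟩ := P.sigma hD hA
  refine ⟨K, hK, fun A B T0 Ψ hB hT hΨ hre h0 h1 => ?_⟩
  obtain ⟨C, hC⟩ := h A B
  let H : ℝ × (Γ × E ⊕ Γ × S → U) → C ⊕ A → U := fun s => Sum.elim
    (fun c => (nrm (1 + P.lin (s.2 ∘ Sum.inr) (Ψ (s.1, s.2 ∘ Sum.inl)).1 c.1.1 (P.G c.1.2)))⁻¹ *
      hol π (s.2 ∘ Sum.inr) c.1.1 (r c.1.2))
    fun e => ((Ψ (s.1, s.2 ∘ Sum.inl)).2 e.1)⁻¹ *
      P.con (s.2 ∘ Sum.inr) (Ψ (s.1, s.2 ∘ Sum.inl)).1 e.1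
  have hl0 : ∀ x γ y, P.lin x 0 γ y = 0 := fun x γ y => by
    simp [Dat.lin, ad, Finsupp.linearCombination_apply]
  refine (gr (P.wd C A T0) ?_ H ?_ ?_).elim fun x hx => ?_
  rotate_right
  · have h2 := hC (x ∘ Sum.inr) (Ψ (1, x ∘ Sum.inl)).1 (hre _) fun p hp =>
      (inv_mul_eq_one.1 (congrFun hx (Sum.inl ⟨p, hp⟩))).symm
    have h3 : ∀ p ∈ A, (Ψ (1, x ∘ Sum.inl)).2 p = _ := fun p hp =>
      inv_mul_eq_one.1 (congrFun hx (Sum.inr ⟨p, hp⟩))
    refine ⟨x ∘ Sum.inl, fun hz => (h2.1 hz).imp fun φ hφ p hp => (h3 p hp).trans (hφ p hp),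
      fun η h4 h5 p hp => ?_⟩
    have := h2.2 η h4 h5 p hp
    obtain ⟨b1, b2, b3⟩ := hB p hp
    rwa [Tri.cur, ← h3 _ b1, ← h3 _ b2, ← h3 _ b3] at this
  · exact P.indep hA C A T0 hT
  · have c1 : Continuous fun s : ℝ × (Γ × E ⊕ Γ × S → U) => Ψ (s.1, s.2 ∘ Sum.inl) :=
      hΨ.comp (by fun_prop)
    have c2 : Continuous fun s : ℝ × (Γ × E ⊕ Γ × S → U) => s.2 ∘ Sum.inr := by fun_prop
    have c3 : ∀ γ y, Continuous fun s : ℝ × (Γ × E ⊕ Γ × S → U) =>
        nrm (1 + P.lin (s.2 ∘ Sum.inr) (Ψ (s.1, s.2 ∘ Sum.inl)).1 γ y) := fun γ y =>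
      cont_nrm (continuous_const.fun_add (P.cont_lin c2 c1.fst γ y)) fun s =>
        one_add_ne (P.lin_re _ (hre _) _ _)
    refine continuous_pi ?_
    rintro (c | e)
    · exact (c3 _ _).inv.mul (cont_hol c2 _ _)
    · exact ((continuous_apply _).comp c1.snd).inv.mul ((c3 _ _).inv.mul (cont_hol c2 _ _))
  · rintro x (c | e)
    · simp [H, Dat.wd, h0, hl0, lift_map, hol]
    · simp only [H, Dat.wd, h0, h1 _ _ e.2, Sum.elim_inr, Dat.con, hl0, map_mul, lift_map, hol]
      split_ifs <;> simp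

end Vale.Agent.P173
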