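import Vale.Agent.P173.Push

namespace Vale.Agent.P173

open Set unitInterval Metric

/-- the closed unit disc -/
abbrev Dk := closedBall (0 : ℂ) 1

theorem Dk.le (z : Dk) : ‖(z : ℂ)‖ ≤ 1 := mem_closedBall_zero_iff.1 z.2

theorem contr_Dk : ContractibleSpace Dk :=
  (convex_closedBall (0 : ℂ) 1).contractibleSpace ⟨0, by simp⟩

/-- the unit circle in the closed disc -/
noncomputable def Dk.ex (θ : ℝ) : Dk := ⟨Circle.exp θ, by simp⟩

theorem Dk.ex_cont : Continuous Dk.ex := by unfold Dk.ex; fun_prop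

theorem Dk.ex_norm (θ : ℝ) : ‖(Dk.ex θ : ℂ)‖ = 1 := by simp [Dk.ex]

theorem Dk.ex_arg {z : Dk} (h : ‖(z : ℂ)‖ = 1) : Dk.ex (Complex.arg z) = z :=
  Subtype.ext (congrArg (fun u : Circle => (u : ℂ))
    (Circle.exp_arg ⟨z, mem_sphere_zero_iff_norm.2 h⟩))

theorem norm_push (z : Dk) (s : I) : ‖(((1 + s) / max 1 ((1 + s) * ‖(z : ℂ)‖) : ℝ)) • (z : ℂ)‖ =
    (1 + s) * ‖(z : ℂ)‖ / max 1 ((1 + s) * ‖(z : ℂ)‖) := by
  have := s.2.1
  rw [norm_smul, Real.norm_of_nonneg (by positivity), div_mul_eq_mul_div]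

/-- radial push -/
noncomputable def push : C(Dk × I, Dk) where
  toFun p := ⟨((1 + p.2) / max 1 ((1 + p.2) * ‖(p.1 : ℂ)‖) : ℝ) • (p.1 : ℂ), by
    rw [mem_closedBall_zero_iff, norm_push]
    exact div_le_one_of_le₀ (le_max_right _ _) (by positivity)⟩
  continuous_toFun := by
    refine Continuous.subtype_mk ?_ _
    have : ∀ p : Dk × I, max 1 ((1 + p.2) * ‖(p.1 : ℂ)‖) ≠ (0 : ℝ) :=
      fun _ => (one_pos.trans_le (le_max_left _ _)).ne'
    fun_prop (disch := assumption)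

theorem push_zero (z : Dk) : push (z, 0) = z := Subtype.ext (by simp [push, Dk.le z])

theorem push_bd {z : Dk} (h : ‖(z : ℂ)‖ = 1) (s : I) : push (z, s) = z := by
  have := s.2.1
  have h1 : (1 : ℝ) + s ≠ 0 := by positivity
  refine Subtype.ext (show ((1 + s) / max 1 ((1 + s) * ‖(z : ℂ)‖) : ℝ) • (z : ℂ) = z from ?_)
  rw [h, mul_one, max_eq_right (by linarith), div_self h1, one_smul]

theorem push_one {z : Dk} (h : 1 / 2 < ‖(z : ℂ)‖) : ‖(push (z, 1) : ℂ)‖ = 1 := by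
  refine (norm_push z 1).trans ?_
  simp only [Icc.coe_one]
  rw [max_eq_right (by linarith), div_self (by linarith)]

namespace Cx

variable {X : Type*} [TopologicalSpace X] (K : Cx X)

/-- characteristic maps on the closed disc -/
noncomputable def dd (c : K.C) (z : Dk) : X := K.dc c z

theorem dd_cont (c : K.C) : Continuous (K.dd c) := by unfold dd; fun_prop

theorem dd_mem {c : K.C} {z : Dk} : K.dd c z ∈ K.X1 ↔ ‖(z : ℂ)‖ = 1 :=
  ⟨fun h => (Dk.le z).eq_of_not_lt fun h' => K.dc_not c z h' h, K.dc_bd c z⟩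

theorem dd_inj {c c' : K.C} {z z' : Dk} (hz : ‖(z : ℂ)‖ < 1) (h : K.dd c z = K.dd c' z') :
    c = c' ∧ z = z' := by
  have h' : ‖(z' : ℂ)‖ < 1 := (Dk.le z').lt_of_ne fun e => hz.ne (K.dd_mem.1 (h ▸ K.dd_mem.2 e))
  obtain ⟨a, b⟩ := K.dc_inj c c' z z' hz h' h
  exact ⟨a, Subtype.ext b⟩

theorem cases_two (y : X) : y ∈ K.X1 ∨ ∃ c, ∃ z : Dk, ‖(z : ℂ)‖ < 1 ∧ K.dd c z = y :=
  (K.cover y).imp_right fun ⟨c, z, hz, h⟩ => ⟨c, ⟨z, mem_closedBall_zero_iff.2 hz.le⟩, hz, h.symm⟩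

theorem closed_two {S : Set X} (h1 : IsClosed ((↑) ⁻¹' S : Set K.X1))
    (h : ∀ c, IsClosed (K.dd c ⁻¹' S)) : IsClosed S := by
  have hX : IsClosed K.X1 := K.closed1 _ subset_rfl fun e => by
    rw [eq_univ_of_forall (s := K.ed e ⁻¹' K.X1) (K.ed_mem e)]
    exact isClosed_univ
  refine K.closed2 S ?_ fun c => ?_
  · have := hX.isClosedMap_subtype_val _ h1
    rwa [Subtype.image_preimage_coe, inter_comm] at this
  · have := isClosed_closedBall.isClosedMap_subtype_val _ (h c)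
    rwa [show K.dd c ⁻¹' S = Subtype.val ⁻¹' (K.dc c ⁻¹' S) from rfl, Subtype.image_preimage_coe,
      inter_comm] at this

theorem open_two {S : Set X} (h1 : IsOpen ((↑) ⁻¹' S : Set K.X1))
    (h : ∀ c, IsOpen (K.dd c ⁻¹' S)) : IsOpen S :=
  isClosed_compl_iff.1 (K.closed_two h1.isClosed_compl fun c => (h c).isClosed_compl)

theorem cont_two {Z : Type*} [TopologicalSpace Z] {f : X → Z} (h1 : Continuous fun y : K.X1 => f y)
    (h : ∀ c, Continuous fun z => f (K.dd c z)) : Continuous f :=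
  continuous_iff_isClosed.2 fun _ hs => K.closed_two (hs.preimage h1) fun c => hs.preimage (h c)

/-- the open disc -/
def ob : Set Dk := {z | ‖(z : ℂ)‖ < 1}

theorem mem_img2 {c c' : K.C} {J : Set Dk} (hJ : J ⊆ ob) {z : Dk} :
    K.dd c' z ∈ K.dd c '' J ↔ c' = c ∧ z ∈ J := by
  refine ⟨fun ⟨s, hs, h⟩ => ?_, fun ⟨h, ht⟩ => ⟨z, ht, h ▸ rfl⟩⟩
  obtain ⟨rfl, rfl⟩ := K.dd_inj (hJ hs) h
  exact ⟨rfl, hs⟩

theorem not_img2 {c : K.C} {J : Set Dk} (hJ : J ⊆ ob) (y : K.X1) : (y : X) ∉ K.dd c '' J :=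
  fun ⟨_, hs, h⟩ => (hJ hs).ne (K.dd_mem.1 (h ▸ y.2))

theorem open_img2 (c : K.C) {J : Set Dk} (hJ : J ⊆ ob) (ho : IsOpen J) :
    IsOpen (K.dd c '' J) := by
  refine K.open_two ?_ fun c' => ?_
  · rw [eq_empty_of_forall_notMem (s := (Subtype.val ⁻¹' (K.dd c '' J) : Set K.X1)) (K.not_img2 hJ)]
    exact isOpen_empty
  by_cases h : c' = c
  · have : K.dd c' ⁻¹' (K.dd c '' J) = J := by
      ext t; simp only [mem_preimage, K.mem_img2 hJ, h, true_and]
    rwa [this]
  · have : K.dd c' ⁻¹' (K.dd c '' J) = ∅ := by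
      ext t; simp only [mem_preimage, K.mem_img2 hJ, h, false_and, mem_empty_iff_false]
    rw [this]
    exact isOpen_empty

theorem ob_open : IsOpen ob := isOpen_lt (by fun_prop) continuous_const

theorem via_disc (c : K.C) {y y' : X} (a : Path y y') (ha : range a ⊆ K.dd c '' ob) :
    ∃ p : C(I, Dk), (∀ s, p s ∈ ob) ∧ ∀ s, a s = K.dd c (p s) := by
  choose p hp h using fun s => ha ⟨s, rfl⟩
  refine ⟨⟨p, continuous_def.2 fun J hJ => ?_⟩, hp, fun s => (h s).symm⟩
  have : p ⁻¹' J = a ⁻¹' (K.dd c '' (J ∩ ob)) := by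
    ext s
    simp only [mem_preimage, ← h s, K.mem_img2 inter_subset_right, true_and, mem_inter_iff, hp s,
      and_true]
  rw [this]
  exact (K.open_img2 c inter_subset_right (hJ.inter ob_open)).preimage a.continuous

/-- the closed half disc -/
def hb : Set Dk := {z | ‖(z : ℂ)‖ ≤ 1 / 2}

theorem hb_sub : hb ⊆ ob := fun z hz => by
  have : ‖(z : ℂ)‖ ≤ 1 / 2 := hz
  show ‖(z : ℂ)‖ < 1
  linarith

/-- an open cover -/
def cov2 : Option K.C → Set X
  | none => (⋃ c, K.dd c '' hb)ᶜ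
  | some c => K.dd c '' ob

theorem mem_cov2 {c : K.C} {z : Dk} : K.dd c z ∈ K.cov2 none ↔ 1 / 2 < ‖(z : ℂ)‖ := by
  simp only [cov2, mem_compl_iff, mem_iUnion, K.mem_img2 hb_sub, exists_eq_left', ← not_le]
  rfl

theorem mem_cov2' (y : K.X1) : (y : X) ∈ K.cov2 none := fun h =>
  let ⟨_, h⟩ := mem_iUnion.1 h
  K.not_img2 hb_sub y h

theorem cov2_open : ∀ i, IsOpen (K.cov2 i)
  | none => K.open_two (by
      rw [eq_univ_of_forall (s := (Subtype.val ⁻¹' K.cov2 none : Set K.X1)) K.mem_cov2']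
      exact isOpen_univ) fun c => by
    rw [show K.dd c ⁻¹' K.cov2 none = {z : Dk | 1 / 2 < ‖(z : ℂ)‖} from Set.ext fun _ => K.mem_cov2]
    exact isOpen_lt continuous_const (by fun_prop)
  | some c => K.open_img2 c subset_rfl ob_open

theorem cov2_cover (y : X) : ∃ i, y ∈ K.cov2 i := by
  by_cases h : y ∈ K.cov2 none
  · exact ⟨_, h⟩
  · obtain ⟨e, he⟩ := mem_iUnion.1 (not_not.1 h)
    exact ⟨some e, image_mono hb_sub he⟩

theorem exists_def : ∃ G : I × X → X, Continuous G ∧ (∀ s c z, G (s, K.dd c z) = K.dd c (push (z, s))) ∧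
    ∀ s, ∀ y ∈ K.X1, G (s, y) = y := by
  have : ∀ y : X, ∃ f : C(I, X), (∀ c z, K.dd c z = y → f = (ContinuousMap.comp
      ⟨_, K.dd_cont c⟩ push).curry z) ∧ (y ∈ K.X1 → f = .const _ y) := by
    intro y
    rcases K.cases_two y with h | ⟨c, z, hz, rfl⟩
    · refine ⟨_, fun c z e => ?_, fun _ => rfl⟩
      ext s
      simp [push_bd (K.dd_mem.1 (e ▸ h)), e]
    · refine ⟨(ContinuousMap.comp ⟨_, K.dd_cont c⟩ push).curry z, fun c' z' e => ?_,
        fun h => (hz.ne (K.dd_mem.1 h)).elim⟩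
      obtain ⟨rfl, rfl⟩ := K.dd_inj hz e.symm
      rfl
  choose f f1 f2 using this
  have hf : Continuous f := K.cont_two (by
      simp only [fun y : K.X1 => f2 y y.2]
      exact ContinuousMap.continuous_const'.comp continuous_subtype_val) fun c => by
    simp only [fun z => f1 _ c z rfl]
    exact map_continuous _
  exact ⟨fun p => f p.2 p.1, by fun_prop, fun s c z => by simp [f1 _ c z rfl],
    fun s y hy => by simp [f2 y hy]⟩

/-- the attaching map on the universal cover of the circle -/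
noncomputable def at1 (c : K.C) (θ : ℝ) : K.X1 := ⟨K.dd c (Dk.ex θ), K.dd_mem.2 (Dk.ex_norm θ)⟩

theorem at1_cont (c : K.C) : Continuous (K.at1 c) :=
  ((K.dd_cont c).comp Dk.ex_cont).subtype_mk _

theorem exists_hol2 {H : Type*} [Group H] (k : Hol K.X1 H) (hk : ∀ c, k.h (K.lp c) = 1) :
    ∃ κ : Hol X H, ∀ {y y' : K.X1} (a : Path y y'), κ.h (a.map continuous_subtype_val) = k.h a := by
  classical
  obtain ⟨G, hG, G1, G2⟩ := K.exists_def
  have hρ : ∀ y, ∃ y' : K.X1, y ∈ K.cov2 none → (y' : X) = G (1, y) := fun y => by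
    rcases K.cases_two y with h | ⟨c, z, -, rfl⟩
    · exact ⟨⟨y, h⟩, fun _ => (G2 1 y h).symm⟩
    · by_cases h : K.dd c z ∈ K.cov2 none
      · exact ⟨⟨_, K.dd_mem.2 (push_one (K.mem_cov2.1 h))⟩, fun _ => (G1 1 c z).symm⟩
      · exact ⟨K.bp c, fun e => (h e).elim⟩
  choose ρ hρ using hρ
  have ρc : ContinuousOn ρ (K.cov2 none) := by
    rw [Topology.IsInducing.subtypeVal.continuousOn_iff]
    exact ContinuousOn.congr (f := fun y => G (1, y)) (by fun_prop) hρ
  let arc : ∀ c α β, Path (K.at1 c α) (K.at1 c β) := fun c α β =>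
    (PathConnectedSpace.somePath α β).map (K.at1_cont c)
  have va : ∀ c α β, Via (K.at1 c) (arc c α β) α β := fun c α β => ⟨_, fun _ => rfl⟩
  let S : K.C → ℝ → H := fun c θ => k.h (arc c 0 θ)
  have S1 : ∀ c α β {y y'} (b : Path y y'), Via (K.at1 c) b α β → k.h b = (S c α)⁻¹ * S c β := by
    intro c α β y y' b hb
    rw [eq_inv_mul_iff_mul_eq, k.via (K.at1_cont c) hb (va c α β), ← k.mul]
    exact k.via (K.at1_cont c) ((va c 0 α).trans (va c α β)) (va c 0 β)
  have S2 : ∀ c, Function.Periodic (S c) (2 * Real.pi) := fun c θ => by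
    have h0 : S c 0 = S c (2 * Real.pi) := by
      rw [← inv_mul_eq_one, ← hk c]
      refine (S1 c _ _ _ ⟨⟨⟨fun t => 2 * Real.pi * t, by fun_prop⟩, by simp, by simp⟩,
        fun t => Subtype.ext ?_⟩).symm
      show K.dc c (Complex.exp _) = K.dc c (Complex.exp _)
      congr 2
      simp
      ring
    have a := S1 c _ _ _ (va c 0 θ)
    have b := S1 c (2 * Real.pi) (θ + 2 * Real.pi) (arc c 0 θ) (by
      obtain ⟨p, hp⟩ := va c 0 θ
      refine ⟨⟨⟨fun t => p t + 2 * Real.pi, by fun_prop⟩, by simp, by simp⟩, fun t => ?_⟩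
      rw [hp]
      simp [at1, Dk.ex])
    rw [a, h0] at b
    exact (mul_left_cancel b).symm
  have S3 : ∀ c α β, Circle.exp α = Circle.exp β → S c α = S c β := fun c α β h => by
    obtain ⟨m, rfl⟩ := Circle.exp_eq_exp.1 h
    exact (S2 c).int_mul m β
  have hz : ∀ c y, ∃ z : Dk, ∀ w ∈ ob, K.dd c w = y → z = w := fun c y => by
    by_cases h : ∃ w ∈ ob, K.dd c w = y
    · obtain ⟨w, hw, rfl⟩ := h
      exact ⟨w, fun w' _ e => (K.dd_inj hw e.symm).2⟩
    · exact ⟨Dk.ex 0, fun w a b => (h ⟨w, a, b⟩).elim⟩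
  choose z hz using hz
  let s : K.C → X → H := fun c y => S c (Complex.arg (push (z c y, 1)))
  let kk : Option K.C → ∀ {y y' : X}, Path y y' → H := fun i {y y'} a =>
    i.elim (if h : range a ⊆ K.cov2 none then k.h (a.map' (ρc.mono h)) else 1)
      fun c => (s c y)⁻¹ * s c y'
  have aux : ∀ c {x y} (a : Path x y), range a ⊆ K.cov2 none → range a ⊆ K.cov2 (some c) →
      kk none a = kk (some c) a := by
    intro c x y a h1 h2
    obtain ⟨p, hp, h⟩ := K.via_disc c a h2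
    have hn : ∀ t, ‖(push (p t, 1) : ℂ)‖ = 1 := fun t =>
      push_one (K.mem_cov2.1 (h t ▸ h1 ⟨t, rfl⟩))
    let u : C(I, Circle) := ⟨fun t => ⟨push (p t, 1), mem_sphere_zero_iff_norm.2 (hn t)⟩,
      (continuous_subtype_val.comp (push.continuous.comp
        (p.continuous.prodMk continuous_const))).subtype_mk _⟩
    obtain ⟨θ, hθ, -⟩ := Circle.isCoveringMap_exp.exists_path_lifts u _ (Circle.exp_arg _).symm
    have e : ∀ t {y}, y = a t → s c y = S c (θ t) := fun t y hy => by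
      simp only [s, hz c y (p t) (hp t) ((h t).symm.trans hy.symm)]
      exact S3 c _ _ ((Circle.exp_arg (u t)).trans (congrFun hθ t).symm)
    simp only [kk, Option.elim, dif_pos h1, e 0 a.source.symm, e 1 a.target.symm]
    refine S1 c _ _ _ ⟨⟨θ, rfl, rfl⟩, fun t => Subtype.ext ?_⟩
    refine (hρ _ (h1 ⟨t, rfl⟩)).trans ?_
    rw [h, G1]
    exact congrArg (K.dd c) (Subtype.ext (congrArg Subtype.val (congrFun hθ t)).symm)
  obtain ⟨κ, hκ⟩ := hol_glue K.cov2 K.cov2_open K.cov2_cover kk (by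
      rintro (_ | c) x y w a b h1 h2
      · have h3 : range (a.trans b) ⊆ K.cov2 none := by
          rw [Path.trans_range]
          exact union_subset h1 h2
        simp only [kk, Option.elim, dif_pos h1, dif_pos h2, dif_pos h3]
        rw [← k.mul]
        refine k.congr fun t => ?_
        show ρ (a.trans b t) = _
        rw [Path.trans_apply, Path.trans_apply]
        split_ifs <;> rfl
      · simp [kk, mul_assoc]) (by
      rintro (_ | c) x y a b F h
      · have h1 : range a ⊆ K.cov2 none := by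
          rintro _ ⟨t, rfl⟩
          exact h ⟨(0, t), by simp⟩
        have h2 : range b ⊆ K.cov2 none := by
          rintro _ ⟨t, rfl⟩
          exact h ⟨(1, t), by simp⟩
        simp only [kk, Option.elim, dif_pos h1, dif_pos h2]
        refine k.hom ⟨⟨⟨⟨fun p => ρ (F p), ρc.comp_continuous F.continuous fun p => h ⟨p, rfl⟩⟩,
          fun t => ?_, fun t => ?_⟩, fun s t ht => ?_⟩⟩
        · exact congrArg ρ (F.apply_zero t)
        · exact congrArg ρ (F.apply_one t)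
        · exact congrArg ρ (F.eq_fst s ht)
      · rfl) (by
      rintro (_ | c) (_ | c') x y a h1 h2
      · rfl
      · exact aux _ a h1 h2
      · exact (aux _ a h2 h1).symm
      · obtain ⟨t, ht, h⟩ := h1 ⟨0, rfl⟩
        have := h2 ⟨0, rfl⟩
        rw [← h] at this
        rw [((K.mem_img2 subset_rfl).1 this).1])
  refine ⟨κ, fun {y y'} a => ?_⟩
  have h : range (a.map continuous_subtype_val) ⊆ K.cov2 none := by
    rintro _ ⟨t, rfl⟩
    exact K.mem_cov2' (a t)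
  rw [hκ none _ h]
  simp only [kk, Option.elim, dif_pos h]
  exact k.congr fun t => Subtype.ext ((hρ _ (K.mem_cov2' (a t))).trans (G2 1 _ (a t).2))

theorem push_path {y y' : K.X1} (a : Path (y : X) y') :
    ∃ b : Path y y', a.Homotopic (b.map continuous_subtype_val) := by
  have := contr_Dk
  obtain ⟨G, hG, G1, G2⟩ := K.exists_def
  refine push_abs Subtype.val K.dd K.dd_cont
    (fun {y y'} a => ∃ b : Path y y', a.Homotopic (b.map continuous_subtype_val))
    ?_ ?_ ?_ ?_ ?_ ?_ (fun c => ⟨_, K.at1 c 0, rfl⟩) K.cov2 K.cov2_open K.cov2_cover ?_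
    G hG ?_ ?_ ?_ a
  · rintro u v w a b ⟨a', h1⟩ ⟨b', h2⟩
    exact ⟨a'.trans b', by rw [Path.map_trans]; exact h1.hcomp h2⟩
  · rintro u v a ⟨a', h1⟩
    exact ⟨a'.symm, h1.symm₂⟩
  · rintro u v a b h ⟨a', h1⟩
    exact ⟨a', h.symm.trans h1⟩
  · intro u v a ha
    rw [Subtype.range_coe] at ha
    exact ⟨⟨⟨fun t => ⟨a t, ha ⟨t, rfl⟩⟩, by fun_prop⟩, Subtype.ext a.source,
      Subtype.ext a.target⟩, Path.Homotopic.refl _⟩
  · intro c z z' u v a h
    have e := Dk.ex_arg (K.dd_mem.1 (h.src ▸ u.2))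
    have e' := Dk.ex_arg (K.dd_mem.1 (h.tgt ▸ v.2))
    obtain ⟨b, p, hp⟩ := exists_via (K.at1_cont c) (x := u) (y := v)
      (Subtype.ext (h.src.trans (congrArg _ e.symm))) (Subtype.ext (h.tgt.trans (congrArg _ e'.symm)))
    exact ⟨b, h.hom (K.dd_cont c) ⟨(p.map Dk.ex_cont).cast e.symm e'.symm,
      fun t => congrArg Subtype.val (hp t)⟩⟩
  · intro c c' z z' h hn
    exact K.dd_inj ((Dk.le z).lt_of_ne fun e => hn ⟨⟨_, K.dd_mem.2 e⟩, rfl⟩) h
  · intro c y y' a ha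
    obtain ⟨p, -, h⟩ := K.via_disc c a ha
    exact ⟨p 0, p 1, ⟨p, rfl, rfl⟩, h⟩
  · intro y
    rcases K.cases_two y with h | ⟨c, z, -, rfl⟩
    · exact G2 _ _ h
    · rw [G1, push_zero]
  · intro y hy
    rcases K.cases_two y with h | ⟨c, z, -, rfl⟩
    · exact ⟨⟨y, h⟩, (G2 _ _ h).symm⟩
    · exact ⟨⟨_, K.dd_mem.2 (push_one (K.mem_cov2.1 hy))⟩, (G1 1 c z).symm⟩
  · intro y
    rcases K.cases_two y with h | ⟨c, z, -, rfl⟩
    · exact Or.inl fun s => G2 s y h
    · exact Or.inr ⟨c, push.curry z, fun s => G1 s c z⟩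

end Cx

end Vale.Agent.P173
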