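import Vale.Agent.P173.Sig
import Vale.Agent.P173.One
import Vale.Agent.P173.Two
import Vale.Agent.P173.Hopf

set_option linter.unusedSectionVars false

namespace Vale.Agent.P173

open Path

namespace Hol
variable {Y H : Type*} [TopologicalSpace Y] [Group H] (k : Hol Y H)

theorem refl (y : Y) : k.h (Path.refl y) = 1 := by
  have := k.mul (Path.refl y) (Path.refl y)
  rw [Path.refl_trans_refl] at this
  exact left_eq_mul.1 this

theorem symm {x y : Y} (a : Path x y) : k.h a.symm = (k.h a)⁻¹ := by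
  rw [eq_inv_iff_mul_eq_one, ← k.mul, k.hom (Homotopic.symm_trans a), k.refl]

/-- pull back -/
def comap {Z : Type*} [TopologicalSpace Z] {f : Z → Y} (hf : Continuous f) : Hol Z H where
  h a := k.h (a.map hf)
  mul a b := by rw [Path.map_trans, k.mul]
  hom h := k.hom (h.map ⟨f, hf⟩)

/-- push forward -/
def map {H' : Type*} [Group H'] (f : H →* H') : Hol Y H' where
  h a := f (k.h a)
  mul a b := by rw [k.mul, map_mul]
  hom h := by rw [k.hom h]

end Hol

theorem Cx.EP.hol {X H : Type*} [TopologicalSpace X] [Group H] {K : Cx X} (k : Hol K.X1 H)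
    {v w : K.V} {b : Path (K.pt1 v) (K.pt1 w)} {W : FreeGroup K.E} (h : K.EP b W) :
    k.h b = FreeGroup.lift (fun e => k.h (K.ed1 e)) W := by
  induction h with
  | refl v => simp [k.refl]
  | edge e => simp
  | symm _ ih => simp [k.symm, ih]
  | trans _ _ ih ih' => simp [k.mul, ih, ih']

theorem exists_univ {X E Γ : Type*} [TopologicalSpace X] [TopologicalSpace E] [Group Γ]
    [SimplyConnectedSpace E] {p : E → X} (hp : IsCoveringMap p) (hs : Function.Surjective p)
    {x0 : X} (φ : FundamentalGroup X x0 ≃* Γ) (τ : ∀ y, Path x0 y) (hτ : τ x0 = Path.refl x0) :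
    ∃ (κ : Hol X Γ) (pos : Γ → X → E), (∀ y, κ.h (τ y) = 1) ∧ (∀ γ, ∃ a : Path x0 x0, κ.h a = γ) ∧
      (∀ a : Path x0 x0, κ.h a = 1 → a.Homotopic (Path.refl x0)) ∧ (∀ γ y, p (pos γ y) = y) ∧
      (∀ γ γ' y, pos γ y = pos γ' y → γ = γ') ∧ ∀ γ y y' (a : Path y y'),
        ∃ b : Path (pos γ y) (pos (γ * κ.h a) y'), p ∘ b = a := by
  obtain ⟨e0, rfl⟩ := hs x0
  let L : ∀ {y y' : X}, Path y y' → FundamentalGroup X (p e0) := fun {y y'} a =>
    FundamentalGroup.fromPath ((Homotopic.Quotient.mk (τ y)).trans ((Homotopic.Quotient.mk a).trans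
      (Homotopic.Quotient.mk (τ y')).symm))
  have h0 : ∀ a : Path (p e0) (p e0), L a = FundamentalGroup.fromPath (Homotopic.Quotient.mk a) := fun a => by
    simp only [L, hτ, ← Homotopic.Quotient.mk_symm, Path.refl_symm, Homotopic.Quotient.mk_refl, Homotopic.Quotient.trans_refl,
      Homotopic.Quotient.refl_trans]
  have hc : ∀ {x y z : X} (a : Homotopic.Quotient x y) (b : Homotopic.Quotient y z),
      a.symm.trans (a.trans b) = b := fun a b => by
    rw [← Homotopic.Quotient.trans_assoc, Homotopic.Quotient.symm_trans, Homotopic.Quotient.refl_trans]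
  refine ⟨⟨fun a => φ (L a)⁻¹, fun a b => ?_, fun h => by simp only [L, Homotopic.Quotient.eq.2 h]⟩,
    fun γ y => hp.monodromy ((φ.symm γ)⁻¹.toPath.trans (Homotopic.Quotient.mk (τ y))) ⟨e0, rfl⟩,
    fun y => ?_, fun γ => ?_, fun a h => ?_, fun γ y => (hp.monodromy _ _).2, fun γ γ' y h => ?_,
    fun γ y y' a => ?_⟩
  · rw [← map_mul, ← mul_inv_rev, FundamentalGroup.mul_def]
    simp only [L, Homotopic.Quotient.mk_trans, Homotopic.Quotient.trans_assoc, hc]
  · simp only [L, hτ, Homotopic.Quotient.mk_refl, Homotopic.Quotient.trans_symm, Homotopic.Quotient.refl_trans,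
      map_eq_one_iff _ φ.injective, inv_eq_one]
    rfl
  · obtain ⟨a, ha⟩ := Homotopic.Quotient.mk_surjective (φ.symm γ)⁻¹.toPath
    exact ⟨a, by simp [h0, ha]⟩
  · simp only [h0, map_eq_one_iff _ φ.injective, inv_eq_one] at h
    exact Homotopic.Quotient.exact h
  · have h1 := Subtype.ext h
    rw [hp.monodromy_trans_apply, hp.monodromy_trans_apply] at h1
    have h2 := congrArg (hp.monodromy (φ.symm γ')⁻¹.toPath.symm) ((hp.monodromy_bijective _).1 h1)
    rw [← hp.monodromy_trans_apply, ← hp.monodromy_trans_apply, Homotopic.Quotient.trans_symm,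
      hp.monodromy_refl] at h2
    obtain ⟨a, ha⟩ := Homotopic.Quotient.mk_surjective ((φ.symm γ)⁻¹.toPath.trans (φ.symm γ')⁻¹.toPath.symm)
    rw [← ha] at h2
    let b : Path e0 e0 := ⟨hp.liftPath a e0 a.source, hp.liftPath_zero .., congrArg Subtype.val h2⟩
    have h3 := (SimplyConnectedSpace.paths_homotopic b (Path.refl e0)).map ⟨p, hp.continuous⟩
    rw [show b.map _ = a from Path.ext (hp.liftPath_lifts _ _ a.source),
      show (Path.refl e0).map _ = Path.refl (p e0) from Path.ext rfl, ← Homotopic.Quotient.eq,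
      ha] at h3
    have h4 : (φ.symm γ')⁻¹⁻¹ * (φ.symm γ)⁻¹ = 1 := h3
    rw [inv_inv, mul_inv_eq_one] at h4
    exact (φ.symm.injective h4).symm
  · refine ⟨⟨hp.liftPath a _ (a.source.trans (hp.monodromy _ _).2.symm), hp.liftPath_zero .., ?_⟩,
      hp.liftPath_lifts _ _ (a.source.trans (hp.monodromy _ _).2.symm)⟩
    have : (φ.symm (γ * φ (L a)⁻¹))⁻¹.toPath.trans (Homotopic.Quotient.mk (τ y')) =
        ((φ.symm γ)⁻¹.toPath.trans (Homotopic.Quotient.mk (τ y))).trans (Homotopic.Quotient.mk a) := by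
      rw [map_mul, φ.symm_apply_apply, mul_inv_rev, inv_inv, FundamentalGroup.mul_def]
      simp only [L, Homotopic.Quotient.trans_assoc, Homotopic.Quotient.symm_trans, Homotopic.Quotient.trans_refl]
    dsimp only
    rw [this, hp.monodromy_trans_apply _ (Homotopic.Quotient.mk a)]
    rfl

end Vale.Agent.P173
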